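import Vale.Agent.P184.H977.WR

/-!
# P184: wreath products with infinite top group: necessity
-/

namespace Vale.Agent.P184.H977

open Vale.Agent.P184 Vale.Agent.P184.H290

universe u v w

section Sites

variable {Q : Type v} [Group Q]

/-- the words to be avoided -/
def Wd (T : Subgroup Q) (F : Set Q) : Set Q :=
  {x | ∃ t ∈ T, ∃ a ∈ F, ∃ b ∈ F, ∃ t' ∈ T, ∃ c ∈ F, x = t * a * b⁻¹ * t' * c}

theorem Wd_fin (T : Subgroup Q) (hT : (T : Set Q).Finite) {F : Set Q} (hF : F.Finite) :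
    (Wd T F).Finite := by
  refine ((hT.prod (hF.prod (hF.prod (hT.prod hF)))).image
    fun p => p.1 * p.2.1 * p.2.2.1⁻¹ * p.2.2.2.1 * p.2.2.2.2).subset ?_
  rintro x ⟨t, ht, a, ha, b, hb, t', ht', c, hc, rfl⟩
  exact ⟨(t, a, b, t', c), ⟨ht, ha, hb, ht', hc⟩, rfl⟩

/-- A sequence avoiding the words in the previous terms. -/
theorem exists_sites [Infinite Q] (T : Subgroup Q) (hT : (T : Set Q).Finite) :
    ∃ r : ℕ → Q, ∀ n a b c, a < n → b < n → c < n → ∀ t ∈ T, ∀ t' ∈ T,
      r n ≠ t * r a * (r b)⁻¹ * t' * r c := by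
  classical
  have h1 : ∀ F : Finset Q, ∃ x, x ∉ Wd T (F : Set Q) := fun F =>
    (Wd_fin T hT F.finite_toSet).exists_notMem
  choose pick hpick using h1
  let g : ℕ → Finset Q := fun n => Nat.rec (∅ : Finset Q) (fun _ F => insert (pick F) F) n
  have hg : ∀ n, g (n + 1) = insert (pick (g n)) (g n) := fun n => rfl
  have hmono : Monotone g := monotone_nat_of_le_succ fun n => by
    rw [hg]
    exact Finset.subset_insert _ _
  have hmem : ∀ {m n}, m < n → pick (g m) ∈ g n := fun {m n} h => by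
    have h2 : pick (g m) ∈ g (m + 1) := by
      rw [hg]
      exact Finset.mem_insert_self _ _
    exact hmono h h2
  refine ⟨fun n => pick (g n), fun n a b c ha hb hc t ht t' ht' h => hpick (g n) ?_⟩
  exact ⟨t, ht, _, hmem ha, _, hmem hb, t', ht', _, hmem hc, h⟩

/-- Rigidity of the sites. -/
theorem rigid (T : Subgroup Q) (hT : (T : Set Q).Finite) {r : ℕ → Q}
    (hr : ∀ n a b c, a < n → b < n → c < n → ∀ t ∈ T, ∀ t' ∈ T,
      r n ≠ t * r a * (r b)⁻¹ * t' * r c)
    {A N : Fin (Nat.card T + 2) → ℕ} (hA : Function.Injective A) {c : Q}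
    (h : ∀ i, c * r (A i) * (r (N i))⁻¹ ∈ T) : c ∈ T := by
  classical
  by_contra hc
  have hinj : Function.Injective r := by
    intro m n hmn
    by_contra hne
    rcases lt_or_gt_of_ne hne with hlt | hlt
    · refine hr n m m m hlt hlt hlt 1 T.one_mem 1 T.one_mem ?_
      rw [← hmn]
      group
    · refine hr m n n n hlt hlt hlt 1 T.one_mem 1 T.one_mem ?_
      rw [hmn]
      group
  have hne : ∀ i, N i ≠ A i := by
    intro i hi
    have h1 := h i
    rw [hi, mul_assoc, mul_inv_cancel, mul_one] at h1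
    exact hc h1
  -- a relation with a unique largest index is impossible
  have key : ∀ i j, A j < max (A i) (N i) → N j < max (A i) (N i) → False := by
    intro i j h1 h2
    have hi := h i
    have hj := h j
    rcases lt_or_gt_of_ne (hne i) with hlt | hlt
    · rw [max_eq_left hlt.le] at h1 h2
      refine hr (A i) (A j) (N j) (N i) h1 h2 hlt 1 T.one_mem
        ((c * r (A j) * (r (N j))⁻¹)⁻¹ * (c * r (A i) * (r (N i))⁻¹))
        (T.mul_mem (T.inv_mem hj) hi) ?_
      group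
    · rw [max_eq_right hlt.le] at h1 h2
      refine hr (N i) (N j) (A j) (A i) h2 h1 hlt
        ((c * r (A i) * (r (N i))⁻¹)⁻¹ * (c * r (A j) * (r (N j))⁻¹))
        (T.mul_mem (T.inv_mem hi) hj) 1 T.one_mem ?_
      group
  obtain ⟨i₀, hi₀⟩ := Finite.exists_max fun i => max (A i) (N i)
  set M := max (A i₀) (N i₀) with hM
  -- an index `i₁` with `A i₁ = M`, if there is one
  obtain ⟨i₁, hi₁, hi₂⟩ : ∃ i₁, max (A i₁) (N i₁) = M ∧ ∀ j, j ≠ i₁ → A j < M := by
    by_cases hx : ∃ i, A i = M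
    · obtain ⟨i, hi⟩ := hx
      refine ⟨i, le_antisymm (hi₀ i) (by rw [← hi]; exact le_max_left _ _), fun j hj => ?_⟩
      refine lt_of_le_of_ne ((le_max_left _ _).trans (hi₀ j)) fun h1 => hj (hA ?_)
      rw [h1, hi]
    · push Not at hx
      exact ⟨i₀, rfl, fun j _ => lt_of_le_of_ne ((le_max_left _ _).trans (hi₀ j)) (hx j)⟩
  by_cases hx : ∃ j, j ≠ i₁ ∧ N j ≠ M
  · obtain ⟨j, hj1, hj2⟩ := hx
    refine key i₁ j ?_ ?_
    · rw [hi₁]
      exact hi₂ j hj1
    · rw [hi₁]
      exact lt_of_le_of_ne ((le_max_right _ _).trans (hi₀ j)) hj2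
  · push Not at hx
    have hTf : Finite T := hT.to_subtype
    let f : Fin (Nat.card T + 1) → T := fun x =>
      ⟨c * r (A (i₁.succAbove x)) * (r M)⁻¹, by
        have h1 := h (i₁.succAbove x)
        rwa [hx _ (Fin.succAbove_ne i₁ x)] at h1⟩
    have hf : Function.Injective f := by
      intro x y hxy
      have h1 : c * r (A (i₁.succAbove x)) * (r M)⁻¹ = c * r (A (i₁.succAbove y)) * (r M)⁻¹ :=
        congrArg Subtype.val hxy
      exact Fin.succAbove_right_injective (hA (hinj (mul_left_cancel (mul_right_cancel h1))))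
    have h2 := Nat.card_le_card_of_injective f hf
    rw [Nat.card_eq_fintype_card, Fintype.card_fin] at h2
    omega

end Sites

section

variable {B : Type u} {Q : Type v} [Group B] [Group Q]

/-- duplication of the coordinates -/
def dupE (B : Type u) [Group B] (k : ℕ) (ε : Type) (T : Type v) [Group T] :
    RW (Fin k → B) T →* RW (Fin k × ε → B) T where
  toFun a := ⟨fun y j => a.fn y j.1, a.pt, a.fin.subset fun y hy h => hy (by rw [h]; rfl)⟩
  map_one' := rfl
  map_mul' _ _ := rfl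

/-- The embedding of the wreath products over finite cyclic subgroups. -/
theorem exists_emb_inf [Infinite Q] {s : Q} (hs : IsOfFinOrder s) (k : ℕ) :
    ∃ ι : RW (Fin k → B) (Subgroup.zpowers s) →* RW B Q, Function.Injective ι ∧
      ∀ a b, (∀ c, ¬ IsConj a (RW.incl c)) → IsConj (ι a) (ι b) → IsConj a b := by
  classical
  have hfz : Finite (Subgroup.zpowers s) := hs.finite_zpowers.to_subtype
  obtain ⟨r₀, hr₀⟩ := exists_sites (Subgroup.zpowers s) hs.finite_zpowers
  let ε' := Fin (Nat.card (Subgroup.zpowers s) + 2)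
  obtain ⟨en, hen⟩ : ∃ en : Fin k × ε' → ℕ, Function.Injective en :=
    ⟨_, Encodable.encode_injective⟩
  let r : Fin k × ε' → Q := fun j => r₀ (en j)
  have hr : ∀ i j, r j * (r i)⁻¹ ∈ Subgroup.zpowers s → i = j := by
    intro i j hij
    by_contra hne
    have hne' : en i ≠ en j := fun h => hne (hen h)
    rcases lt_or_gt_of_ne hne' with hlt | hlt
    · refine hr₀ (en j) (en i) (en i) (en i) hlt hlt hlt _ hij 1 (Subgroup.one_mem _) ?_
      change r j = (r j * (r i)⁻¹) * r i * (r i)⁻¹ * 1 * r i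
      group
    · refine hr₀ (en i) (en j) (en j) (en j) hlt hlt hlt _ (inv_mem hij) 1 (Subgroup.one_mem _) ?_
      change r i = (r j * (r i)⁻¹)⁻¹ * r j * (r j)⁻¹ * 1 * r j
      group
  let e0 : ε' := 0
  let ι' : RW (Fin k → B) (Subgroup.zpowers s) →* Hs B s := (ex hr).comp (dupE B k ε' _)
  let ρ : Hs B s →* RW (Fin k → B) (Subgroup.zpowers s) := res s fun i => r (i, e0)
  have hρ : ∀ a, ρ (ι' a) = a := fun a =>
    RW.ext' (fun y => funext fun j => ef_apply hr _ _ _) rfl
  have hfn : ∀ (a : RW (Fin k → B) (Subgroup.zpowers s)) (y : Subgroup.zpowers s)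
      (j : Fin k × ε'), (ι' a).1.fn (y * r j) = a.fn y j.1 := fun a y j => ef_apply hr _ _ _
  have hfn' : ∀ (a : RW (Fin k → B) (Subgroup.zpowers s)) (x : Q),
      (∀ j, x * (r j)⁻¹ ∉ Subgroup.zpowers s) → (ι' a).1.fn x = 1 := fun a x hx =>
    ef_apply' _ hx
  have hpt : ∀ a : RW (Fin k → B) (Subgroup.zpowers s), (ι' a).1.pt = (a.pt : Q) := fun a => rfl
  -- a charged site of `a` gives charged sites of its image
  have claim1 : ∀ (a : RW (Fin k → B) (Subgroup.zpowers s)) (y : Subgroup.zpowers s),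
      ¬ Lt a y → ∃ i, ∀ ε, ¬ Lt (ι' a).1 (y * r (i, ε)) := by
    intro a y hy
    by_contra hcon
    push Not at hcon
    choose ε g hg1 hg2 using hcon
    refine hy ⟨fun v i => g i (v * r (i, ε i)), Set.toFinite _, fun v hv => funext fun i => ?_⟩
    have h1 : (v : Q) * r (i, ε i) * (y * r (i, ε i))⁻¹ ∈ Subgroup.zpowers (ι' a).1.pt := by
      obtain ⟨n, hn⟩ := Subgroup.mem_zpowers_iff.1 hv
      refine Subgroup.mem_zpowers_iff.2 ⟨n, ?_⟩
      rw [hpt, ← Subgroup.coe_zpow, hn, Subgroup.coe_mul, Subgroup.coe_inv]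
      group
    have h2 := hg2 i _ h1
    rw [hfn, hpt] at h2
    change g i (v * r (i, ε i)) * a.fn v i = g i (((a.pt : Q)⁻¹ * v) * r (i, ε i))
    rw [mul_assoc (a.pt : Q)⁻¹]
    exact h2
  have claim2 : ∀ (b : RW (Fin k → B) (Subgroup.zpowers s)) (x : Q), ¬ Lt (ι' b).1 x →
      ∃ j, x * (r j)⁻¹ ∈ Subgroup.zpowers s := by
    intro b x hx
    by_contra hcon
    push Not at hcon
    refine hx (lt_of_triv _ _ fun z' hz' => hfn' _ _ fun j hj => hcon j ?_)
    have h1 : z' * x⁻¹ ∈ Subgroup.zpowers s :=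
      (Subgroup.zpowers_le.2 (by rw [hpt]; exact b.pt.2)) hz'
    have h2 : x * (r j)⁻¹ = (z' * x⁻¹)⁻¹ * (z' * (r j)⁻¹) := by group
    rw [h2]
    exact mul_mem (inv_mem h1) hj
  have claim3 : ∀ a b : RW (Fin k → B) (Subgroup.zpowers s), ¬ IsConj a (RW.incl a.pt) →
      IsConj (ι' a).1 (ι' b).1 → IsConj a b := by
    intro a b ha hab
    obtain ⟨y, hy⟩ : ∃ y, ¬ Lt a y := by
      by_contra hcon
      push Not at hcon
      exact ha (conj_of_lt a hcon)
    obtain ⟨i, hi⟩ := claim1 a y hy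
    obtain ⟨C, hC⟩ := isConj_iff.1 hab
    have h1 : ∀ ε, ∃ j, C.pt * (y * r (i, ε)) * (r j)⁻¹ ∈ Subgroup.zpowers s := by
      intro ε
      refine claim2 b _ fun hlt => hi ε ?_
      have h2 := lt_conj _ C⁻¹ _ hlt
      rw [RW.inv_pt, inv_mul_cancel_left, ← hC] at h2
      have h3 : C⁻¹ * (C * (ι' a).1 * C⁻¹) * C⁻¹⁻¹ = (ι' a).1 := by group
      rwa [h3] at h2
    choose φ hφ using h1
    have h4 : C.pt * (y : Q) ∈ Subgroup.zpowers s := by
      refine rigid (Subgroup.zpowers s) hs.finite_zpowers hr₀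
        (A := fun ε => en (i, ε)) (N := fun ε => en (φ ε))
        (fun x y' hxy => congrArg Prod.snd (hen hxy)) fun ε => ?_
      rw [mul_assoc C.pt]
      exact hφ ε
    have h9 : C.pt ∈ Subgroup.zpowers s := by
      have h10 : C.pt = (C.pt * (y : Q)) * (y : Q)⁻¹ := by group
      rw [h10]
      exact mul_mem h4 (inv_mem y.2)
    refine isConj_iff.2 ⟨ρ ⟨C, h9⟩, ?_⟩
    have h11 : (⟨C, h9⟩ : Hs B s) * ι' a * (⟨C, h9⟩ : Hs B s)⁻¹ = ι' b := Subtype.ext hC
    have h12 := congrArg ρ h11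
    rwa [map_mul, map_mul, map_inv, hρ, hρ] at h12
  refine ⟨(Hs B s).subtype.comp ι', ?_, fun a b ha hab => claim3 a b (ha _) hab⟩
  intro a b hab
  have h1 : ι' a = ι' b := Subtype.ext hab
  rw [← hρ a, h1, hρ]

end

section

variable {S : Type w} {B : Type u} {Q : Type v} [Group S] [Group B] [Group Q]

theorem convS_inf [Infinite Q] {s : Q} (hs : IsOfFinOrder s) (k : ℕ)
    (h : L1Bass (S × RW B Q)) : L1Bass (S × RW (Fin k → B) (Subgroup.zpowers s)) := by
  have hfz : Finite (Subgroup.zpowers s) := hs.finite_zpowers.to_subtype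
  obtain ⟨ι, hι1, hι2⟩ := exists_emb_inf (B := B) hs k
  have hS : L1Bass S := l1Bass_retract (MonoidHom.inl S (RW B Q)) (MonoidHom.fst S (RW B Q))
    (fun _ => rfl) h
  refine l1Bass_of_inj' ((MonoidHom.id S).prodMap ι) ?_
    (inclS (S := S) (B := Fin k → B) (Q := Subgroup.zpowers s))
    projS (fun _ => rfl) (H788.bass_prod_finite.2 hS) ?_ h
  · intro a b hab
    have h1 : ((MonoidHom.id S).prodMap ι a).1 = ((MonoidHom.id S).prodMap ι b).1 := by rw [hab]
    have h2 : ((MonoidHom.id S).prodMap ι a).2 = ((MonoidHom.id S).prodMap ι b).2 := by rw [hab]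
    exact Prod.ext h1 (hι1 h2)
  · intro a b ha hab
    obtain ⟨c, hc⟩ := isConj_iff.1 hab
    have h1 : IsConj a.1 b.1 := isConj_iff.2 ⟨c.1, congrArg Prod.fst hc⟩
    have h2 : IsConj (ι a.2) (ι b.2) := isConj_iff.2 ⟨c.2, congrArg Prod.snd hc⟩
    have h3 : IsConj a.2 b.2 := by
      refine hι2 a.2 b.2 (fun d hd => ha (a.1, d) ?_) h2
      obtain ⟨x, hx⟩ := isConj_iff.1 hd
      refine isConj_iff.2 ⟨(1, x), Prod.ext ?_ hx⟩
      change 1 * a.1 * 1⁻¹ = a.1
      group
    obtain ⟨x, hx⟩ := isConj_iff.1 h1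
    obtain ⟨y, hy⟩ := isConj_iff.1 h3
    exact isConj_iff.2 ⟨(x, y), Prod.ext hx hy⟩

end

/-- **Wreath products with infinite top group, with a spectator.** -/
theorem wreathS_inf {S : Type w} {B : Type u} {Q : Type v} [Group S] [Group B] [Group Q]
    [Infinite Q]
    (hfin : {s : Q | IsOfFinOrder s}.Finite ∨ ∀ b : B, IsOfFinOrder b → b = 1) :
    L1Bass (S × RW B Q) ↔ L1Bass (S × Q) ∧
      ∀ s : Q, IsOfFinOrder s → ∀ k, L1Bass (S × RW (Fin k → B) (Subgroup.zpowers s)) := by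
  constructor
  · intro h
    exact ⟨l1Bass_retract inclS projS (fun _ => rfl) h, fun s hs k => convS_inf hs k h⟩
  · rintro ⟨hQ, h⟩
    exact wreath_ofS hfin hQ fun s hs => l1Bass_Ss s (h s hs)

/-- **Wreath products of arbitrary groups with infinite top group, over locality.** -/
theorem wreathS_all_inf {S : Type w} {B : Type u} {Q : Type v} [Group S] [Group B] [Group Q]
    [Infinite Q] (hL : LocW.{max u v w, max u v w, max u v w}) :
    L1Bass (S × RW B Q) ↔ L1Bass (S × Q) ∧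
      ∀ s : Q, IsOfFinOrder s → ∀ k, L1Bass (S × RW (Fin k → B) (Subgroup.zpowers s)) := by
  constructor
  · intro h
    exact ⟨l1Bass_retract inclS projS (fun _ => rfl) h, fun s hs k => convS_inf hs k h⟩
  · rintro ⟨hQ, h⟩
    exact wreath_of_all hL hQ fun s hs => l1Bass_Ss s (h s hs)

end Vale.Agent.P184.H977
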