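import Vale.Agent.P184.H13.Rows2

/-!
# P184, row K2: the cocycle on `G ⧸ H`
-/

namespace Vale.Agent.P184.H977

open Vale.Agent.P184.H13

section

variable {G Q A : Type*} [Group G] [Group Q] [AddCommGroup A] (Z : Coc G Q A) (s : Q)

theorem len_mul (g h : G) : len Z (g * h) ≤ len Z g + len Z h := by
  unfold len
  have hsub : {p | Z.c (g * h) p ≠ 0} ⊆
      (Z.pi h * ·) ⁻¹' {p | Z.c g p ≠ 0} ∪ {p | Z.c h p ≠ 0} := by
    intro p hp
    by_contra hc
    simp only [Set.mem_union, Set.mem_preimage, Set.mem_ofPred_eq, not_or, not_not] at hc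
    apply hp
    rw [Z.mul, hc.1, hc.2, add_zero]
  have hf1 : ((Z.pi h * ·) ⁻¹' {p | Z.c g p ≠ 0}).Finite :=
    (Z.fin g).preimage (mul_right_injective _).injOn
  have h1 : ({p | Z.c (g * h) p ≠ 0} : Set Q).ncard ≤
      ((Z.pi h * ·) ⁻¹' {p | Z.c g p ≠ 0}).ncard + ({p | Z.c h p ≠ 0} : Set Q).ncard :=
    (Set.ncard_le_ncard hsub (hf1.union (Z.fin h))).trans (Set.ncard_union_le _ _)
  have h2 : ((Z.pi h * ·) ⁻¹' {p | Z.c g p ≠ 0}).ncard ≤ ({p | Z.c g p ≠ 0} : Set Q).ncard := by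
    refine Set.ncard_le_ncard_of_injOn (Z.pi h * ·) (fun p hp => hp)
      (mul_right_injective _).injOn (Z.fin g)
  exact_mod_cast h1.trans (Nat.add_le_add_right h2 _)

theorem fin_fib (g : G) (p : Q) :
    (Function.support fun u : Subgroup.zpowers s => Z.c g (p * u)).Finite :=
  (Z.fin g).preimage fun _ _ _ _ h => Subtype.ext (mul_left_cancel h)

/-- shifting the base point inside a coset of `⟨s⟩` -/
theorem shift (g : G) (p : Q) (v : Subgroup.zpowers s) :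
    ∑ᶠ u : Subgroup.zpowers s, Z.c g (p * v * u) = ∑ᶠ u : Subgroup.zpowers s, Z.c g (p * u) := by
  rw [← finsum_comp_equiv (Equiv.mulLeft v) (f := fun u : Subgroup.zpowers s => Z.c g (p * u))]
  refine finsum_congr fun u => ?_
  rw [Equiv.coe_mulLeft, Subgroup.coe_mul, mul_assoc]

/-- the value of the cocycle at the coset of `p` -/
theorem cp_mk (g p : G) :
    cp Z s g (p : G ⧸ Hs Z s) = ∑ᶠ u : Subgroup.zpowers s, Z.c g (Z.pi p * u) := by
  have h : (p : G)⁻¹ * (p : G ⧸ Hs Z s).out ∈ Hs Z s := by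
    rw [← QuotientGroup.eq, QuotientGroup.out_eq']
  have h' : Z.pi (p⁻¹ * (p : G ⧸ Hs Z s).out) ∈ Subgroup.zpowers s := h
  rw [← shift Z s g (Z.pi p) ⟨_, h'⟩]
  refine finsum_congr fun u => ?_
  congr 1
  change Z.pi (p : G ⧸ Hs Z s).out * u = Z.pi p * Z.pi (p⁻¹ * (p : G ⧸ Hs Z s).out) * u
  rw [← map_mul, mul_inv_cancel_left]

theorem cp_mul (g h : G) (x : G ⧸ Hs Z s) :
    cp Z s (g * h) x = cp Z s g (h • x) + cp Z s h x := by
  induction x using QuotientGroup.induction_on with | _ p =>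
  rw [MulAction.Quotient.smul_coe, smul_eq_mul, cp_mk, cp_mk, cp_mk,
    ← finsum_add_distrib (fin_fib Z s _ _) (fin_fib Z s _ _)]
  refine finsum_congr fun u => ?_
  rw [Z.mul, map_mul, mul_assoc]

theorem cp_one_left (x : G ⧸ Hs Z s) : cp Z s 1 x = 0 := by
  have h := cp_mul Z s 1 1 x
  rw [mul_one, one_smul] at h
  exact left_eq_add.1 h

theorem cp_ne (g : G) (x : G ⧸ Hs Z s) (h : cp Z s g x ≠ 0) :
    ∃ u ∈ Subgroup.zpowers s, Z.c g (Z.pi x.out * u) ≠ 0 := by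
  by_contra hc
  push Not at hc
  apply h
  unfold cp
  rw [← finsum_zero (α := Subgroup.zpowers s)]
  exact finsum_congr fun u => hc u u.2

theorem exists_inj (g : G) : ∃ f : G ⧸ Hs Z s → Q,
    (∀ x ∈ {x | cp Z s g x ≠ 0}, f x ∈ {p | Z.c g p ≠ 0}) ∧
      Set.InjOn f {x | cp Z s g x ≠ 0} := by
  classical
  choose! u hu hu' using fun x => cp_ne Z s g x
  refine ⟨fun x => Z.pi x.out * u x, fun x hx => hu' x hx, ?_⟩
  intro x hx y hy hxy
  have h1 : x.out⁻¹ * y.out ∈ Hs Z s := by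
    rw [mem_Hs, map_mul, map_inv]
    have h2 : (Z.pi x.out)⁻¹ * Z.pi y.out = u x * (u y)⁻¹ := by
      rw [inv_mul_eq_iff_eq_mul, ← mul_assoc, eq_mul_inv_iff_mul_eq]
      exact hxy.symm
    rw [h2]
    exact mul_mem (hu x hx) (inv_mem (hu y hy))
  rw [← QuotientGroup.eq, QuotientGroup.out_eq', QuotientGroup.out_eq'] at h1
  exact h1

end

/-- Row K2. -/
theorem rowK2.{u, v, w} : RowK2.{u, v, w} := by
  intro G Q A _ _ _ Z
  refine ⟨len_mul Z, fun s => ⟨cp_mul Z s, ?_, ?_, ?_, ?_, cp_ne Z s⟩⟩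
  · intro g
    obtain ⟨f, hf, hi⟩ := exists_inj Z s g
    exact Set.Finite.of_injOn hf hi (Z.fin g)
  · intro g
    obtain ⟨f, hf, hi⟩ := exists_inj Z s g
    unfold len
    exact_mod_cast Set.ncard_le_ncard_of_injOn f hf hi (Z.fin g)
  · rintro g p hg y rfl
    have h0 : (p : G ⧸ Hs Z s) = p • ((1 : G) : G ⧸ Hs Z s) := by
      rw [MulAction.Quotient.smul_coe, smul_eq_mul, mul_one]
    have h1 := cp_mul Z s (p⁻¹ * g) p ((1 : G) : G ⧸ Hs Z s)
    have h2 := cp_mul Z s p⁻¹ g (p : G ⧸ Hs Z s)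
    have h3 := cp_mul Z s p⁻¹ p ((1 : G) : G ⧸ Hs Z s)
    rw [inv_mul_cancel, cp_one_left] at h3
    rw [h1, ← h0, h2, hg, add_right_comm, h0, ← h3, zero_add]
  · intro g
    rw [cp_mk, map_one]
    exact finsum_congr fun u => by rw [one_mul]

end Vale.Agent.P184.H977
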