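import Vale.Agent.P184.H13.Rows2

/-!
# P184, row K1: `H ⊇ K` with `K` abelian and `H / K` cyclic

Every element of `H = π⁻¹ ⟨π t⟩` congruent to `t` modulo `[H, H]` is conjugate to `t`, and an
element `t` of infinite order stays of infinite order in the abelianization of `H`.
-/

namespace Vale.Agent.P184.H977

open Vale.Agent.P184.H13

section

variable {G Q A : Type*} [Group G] [Group Q] [AddCommGroup A] (Z : Coc G Q A)

/-- the subgroup `{t⁻¹ a t a⁻¹ : a ∈ ker π}` of `H` -/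
def NN (hab : ∀ a b, Z.pi a = 1 → Z.pi b = 1 → Commute a b) (t : G) :
    Subgroup (Hs Z (Z.pi t)) where
  carrier := {n | ∃ a : G, Z.pi a = 1 ∧ (n : G) = t⁻¹ * a * t * a⁻¹}
  one_mem' := ⟨1, map_one _, by
    rw [Subgroup.coe_one]; group⟩
  mul_mem' := by
    rintro n m ⟨a, ha, hn⟩ ⟨b, hb, hm⟩
    refine ⟨a * b, by rw [map_mul, ha, hb, one_mul], ?_⟩
    have h1 : Commute a⁻¹ (t⁻¹ * b * t) :=
      hab _ _ (by rw [map_inv, ha, inv_one])
        (by rw [map_mul, map_mul, map_inv, hb, mul_one, inv_mul_cancel])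
    have h2 : Commute a⁻¹ b⁻¹ :=
      hab _ _ (by rw [map_inv, ha, inv_one]) (by rw [map_inv, hb, inv_one])
    calc ((n * m : Hs Z (Z.pi t)) : G) = (n : G) * (m : G) := rfl
      _ = t⁻¹ * a * t * (a⁻¹ * (t⁻¹ * b * t)) * b⁻¹ := by rw [hn, hm]; group
      _ = t⁻¹ * a * t * ((t⁻¹ * b * t) * a⁻¹) * b⁻¹ := by rw [h1.eq]
      _ = t⁻¹ * a * b * t * (a⁻¹ * b⁻¹) := by group
      _ = t⁻¹ * a * b * t * (b⁻¹ * a⁻¹) := by rw [h2.eq]
      _ = t⁻¹ * (a * b) * t * (a * b)⁻¹ := by group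
  inv_mem' := by
    rintro n ⟨a, ha, hn⟩
    refine ⟨a⁻¹, by rw [map_inv, ha, inv_one], ?_⟩
    have h1 : Commute a (t⁻¹ * a⁻¹ * t) :=
      hab _ _ ha (by rw [map_mul, map_mul, map_inv, map_inv, ha, inv_one, mul_one,
        inv_mul_cancel])
    calc ((n⁻¹ : Hs Z (Z.pi t)) : G) = (n : G)⁻¹ := rfl
      _ = a * (t⁻¹ * a⁻¹ * t) := by rw [hn]; group
      _ = (t⁻¹ * a⁻¹ * t) * a := by rw [h1.eq]
      _ = t⁻¹ * a⁻¹ * t * a⁻¹⁻¹ := by rw [inv_inv]

theorem mem_NN {hab : ∀ a b, Z.pi a = 1 → Z.pi b = 1 → Commute a b} {t : G}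
    {n : Hs Z (Z.pi t)} :
    n ∈ NN Z hab t ↔ ∃ a : G, Z.pi a = 1 ∧ (n : G) = t⁻¹ * a * t * a⁻¹ := Iff.rfl

/-- every element of `H` is a power of `t` times an element of the kernel -/
theorem dec {t : G} (h : Hs Z (Z.pi t)) : ∃ (i : ℤ) (a : G), Z.pi a = 1 ∧ (h : G) = t ^ i * a := by
  obtain ⟨i, hi⟩ := Subgroup.mem_zpowers_iff.1 ((mem_Hs Z (Z.pi t)).1 h.2)
  refine ⟨i, t ^ (-i) * h, ?_, by group⟩
  rw [map_mul, map_zpow, ← hi, ← zpow_add, neg_add_cancel, zpow_zero]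

variable (hab : ∀ a b, Z.pi a = 1 → Z.pi b = 1 → Commute a b)

theorem pi_NN {t : G} {n : Hs Z (Z.pi t)} (hn : n ∈ NN Z hab t) : Z.pi n = 1 := by
  obtain ⟨a, ha, h⟩ := hn
  rw [h, map_mul, map_mul, map_mul, map_inv, map_inv, ha, mul_one, inv_one, mul_one,
    inv_mul_cancel]

theorem normal_NN (t : G) : (NN Z hab t).Normal := by
  refine ⟨?_⟩
  rintro n ⟨a, ha, hn⟩ g
  obtain ⟨i, k, hk, hg⟩ := dec Z g
  refine ⟨t ^ i * a * t ^ (-i), ?_, ?_⟩
  · rw [map_mul, map_mul, ha, mul_one, ← map_mul, ← zpow_add, add_neg_cancel, zpow_zero, map_one]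
  · have h1 : Commute k (t⁻¹ * a * t * a⁻¹) :=
      hab _ _ hk (by
        rw [map_mul, map_mul, map_mul, map_inv, map_inv, ha, mul_one, inv_one, mul_one,
          inv_mul_cancel])
    calc ((g * n * g⁻¹ : Hs Z (Z.pi t)) : G) = (g : G) * (n : G) * (g : G)⁻¹ := rfl
      _ = t ^ i * (k * (t⁻¹ * a * t * a⁻¹)) * k⁻¹ * t ^ (-i) := by rw [hg, hn]; group
      _ = t ^ i * ((t⁻¹ * a * t * a⁻¹) * k) * k⁻¹ * t ^ (-i) := by rw [h1.eq]
      _ = t⁻¹ * (t ^ i * a * t ^ (-i)) * t * (t ^ i * a * t ^ (-i))⁻¹ := by group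

/-- the decomposition inside `H` -/
theorem dec' {t : G} (ht : t ∈ Hs Z (Z.pi t)) (h : Hs Z (Z.pi t)) :
    ∃ (i : ℤ) (a : Hs Z (Z.pi t)), Z.pi a = 1 ∧ h = ⟨t, ht⟩ ^ i * a := by
  obtain ⟨i, a, ha, hh⟩ := dec Z h
  have hm : a ∈ Hs Z (Z.pi t) := by
    rw [mem_Hs, ha]; exact one_mem _
  refine ⟨i, ⟨a, hm⟩, ha, Subtype.ext ?_⟩
  rw [hh, Subgroup.coe_mul, Subgroup.coe_zpow]

include hab in
theorem comm_NN (t : G) (ht : t ∈ Hs Z (Z.pi t)) :
    _root_.commutator (Hs Z (Z.pi t)) ≤ NN Z hab t := by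
  have := normal_NN Z hab t
  rw [← Subgroup.Normal.quotient_commutative_iff_commutator_le]
  have h0 : ∀ a : Hs Z (Z.pi t), Z.pi a = 1 →
      Commute (QuotientGroup.mk (s := NN Z hab t) ⟨t, ht⟩) (QuotientGroup.mk a) := by
    intro a ha
    change QuotientGroup.mk (s := NN Z hab t) (⟨t, ht⟩ * a) = QuotientGroup.mk (a * ⟨t, ht⟩)
    symm
    rw [QuotientGroup.eq]
    refine ⟨(a : G)⁻¹, by rw [map_inv, ha, inv_one], ?_⟩
    change ((a : G) * t)⁻¹ * (t * (a : G)) = t⁻¹ * (a : G)⁻¹ * t * (a : G)⁻¹⁻¹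
    group
  have h1 : ∀ a b : Hs Z (Z.pi t), Z.pi a = 1 → Z.pi b = 1 →
      Commute (QuotientGroup.mk (s := NN Z hab t) a) (QuotientGroup.mk b) := by
    intro a b ha hb
    have h := hab _ _ ha hb
    change QuotientGroup.mk (s := NN Z hab t) (a * b) = QuotientGroup.mk (b * a)
    congr 1
    exact Subtype.ext h.eq
  refine ⟨⟨?_⟩⟩
  intro x y
  induction x using QuotientGroup.induction_on with | _ g =>
  induction y using QuotientGroup.induction_on with | _ g' =>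
  obtain ⟨i, a, ha, rfl⟩ := dec' Z ht g
  obtain ⟨j, b, hb, rfl⟩ := dec' Z ht g'
  rw [QuotientGroup.mk_mul, QuotientGroup.mk_mul, QuotientGroup.mk_zpow, QuotientGroup.mk_zpow]
  have hc : Commute ((QuotientGroup.mk (s := NN Z hab t) ⟨t, ht⟩) ^ i * QuotientGroup.mk a)
      ((QuotientGroup.mk (s := NN Z hab t) ⟨t, ht⟩) ^ j * QuotientGroup.mk b) :=
    Commute.mul_left
      (Commute.mul_right ((Commute.refl _).zpow_zpow i j) ((h0 b hb).zpow_left i))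
      (Commute.mul_right (((h0 a ha).zpow_left j).symm) (h1 a b ha hb))
  exact hc.eq

end

/-- Row K1. -/
theorem rowK1.{u, v, w} : RowK1.{u, v, w} := by
  intro G Q A _ _ _ Z hab t ht
  constructor
  · intro h hh
    have h1 : (⟨t, ht⟩ : Hs Z (Z.pi t))⁻¹ * h ∈ _root_.commutator (Hs Z (Z.pi t)) :=
      QuotientGroup.eq.1 hh.symm
    obtain ⟨a, -, ha⟩ := comm_NN Z hab t ht h1
    refine isConj_iff.2 ⟨a, ?_⟩
    have h2 : t⁻¹ * (h : G) = t⁻¹ * a * t * a⁻¹ := ha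
    calc a * t * a⁻¹ = t * (t⁻¹ * a * t * a⁻¹) := by group
      _ = t * (t⁻¹ * (h : G)) := by rw [h2]
      _ = h := by group
  · intro hi hf
    refine hi ?_
    obtain ⟨n, hn, hp⟩ := isOfFinOrder_iff_pow_eq_one.1 hf
    have h1 : (⟨t, ht⟩ : Hs Z (Z.pi t)) ^ n ∈ _root_.commutator (Hs Z (Z.pi t)) := by
      rw [← map_pow] at hp
      have h2 : Abelianization.of ((⟨t, ht⟩ : Hs Z (Z.pi t)) ^ n) = Abelianization.of 1 := by
        rw [hp, map_one]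
      have h3 := QuotientGroup.eq.1 h2.symm
      rwa [inv_one, one_mul] at h3
    obtain ⟨a, ha, hz⟩ := comm_NN Z hab t ht h1
    have hz' : t ^ n = t⁻¹ * a * t * a⁻¹ := hz
    have hk : Z.pi (t ^ n) = 1 := by
      rw [hz', map_mul, map_mul, map_mul, map_inv, map_inv, ha, mul_one, inv_one, mul_one,
        inv_mul_cancel]
    have h4 : a * t * a⁻¹ = t * t ^ n := by rw [hz']; group
    have h5 : (a * t * a⁻¹) ^ n = a * t ^ n * a⁻¹ := conj_pow
    have h6 : a * t ^ n * a⁻¹ = t ^ n := by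
      rw [(hab _ _ ha hk).eq]; group
    have h7 : (t * t ^ n) ^ n = t ^ n * (t ^ n) ^ n :=
      (Commute.refl t).pow_right n |>.mul_pow n
    have h8 : (t ^ n) ^ n = 1 := by
      have h9 : t ^ n * (t ^ n) ^ n = t ^ n * 1 := by
        rw [← h7, ← h4, h5, h6, mul_one]
      exact mul_left_cancel h9
    exact isOfFinOrder_iff_pow_eq_one.2 ⟨n * n, Nat.mul_pos hn hn, by rw [pow_mul]; exact h8⟩

end Vale.Agent.P184.H977
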