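import Vale.Agent.P184.H290.Fin

/-!
# P184: the localisation row
-/

namespace Vale.Agent.P184.H977

open Vale.Agent.P184

/-- Row LOC: the traces through two almost equal cocycles vanish at the classes not meeting a
subgroup which contains the values of the cocycles near the places where they differ. -/
def LocW.{u', v', w'} : Prop :=
  ∀ {G : Type u'} [Group G] {q : ℕ} {e : Matrix (Fin q) (Fin q) (G → ℂ)}, IsIdem e →
    ∀ ν : G → ℕ, (∀ g h, ν (g * h) ≤ ν g + ν h) →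
    ∃ e₁ : Matrix (Fin q) (Fin q) (G → ℂ), IsIdem e₁ ∧ (∀ C, tau C e₁ = tau C e) ∧
      ∃ T : Finset G, ∀ {X : Type v'} {L : Type w'} [MulAction G X] [Group L] (α α' : G → X → L),
        (∀ g h x, α (g * h) x = α g (h • x) * α h x) →
        (∀ g h x, α' (g * h) x = α' g (h • x) * α' h x) →
        (∀ g, {x | α g x ≠ α' g x}.Finite) → (∀ g, {x | α g x ≠ α' g x}.ncard ≤ ν g) →
        ∀ (F : Set X) (N : Subgroup L), F.Finite →
          (∀ g ∈ T, ∀ x ∈ F, g • x ∈ F → α g x ∈ N ∧ α' g x ∈ N) →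
          (∀ g₁ ∈ T, ∀ g₂ ∈ T, ∀ g₃ ∈ T, ∀ x, α g₂ (g₁ • x) ≠ α' g₂ (g₁ • x) →
            x ∈ F ∧ g₁ • x ∈ F ∧ g₂ • g₁ • x ∈ F ∧ g₃ • g₂ • g₁ • x ∈ F) →
          ∀ D : ConjClasses L, (∀ a ∈ N, ConjClasses.mk a ≠ D) →
            (∀ g x, ConjClasses.mk (α' g x) ≠ D) →
            ∑' p : {p : G × X // p.1 • p.2 = p.2 ∧ ConjClasses.mk (α p.1 p.2) = D},
              ∑ i, e₁ i i p.1.1 = 0

end Vale.Agent.P184.H977
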