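import Vale.Agent.P184.H13.Rows
import Vale.Agent.P184.Bdl.B3
import Vale.Agent.P184.H553.Four

/-!
# P184, row P: the `ℓ¹`-Bass conjecture for products with an abelian group
-/

namespace Vale.Agent.P184.H977

open Vale.Agent.P184 Vale.Agent.P184.H553

universe u v

section Twist

variable {K : Type*} [Group K] {q : ℕ}

/-- the twist of a matrix by a character of the group -/
noncomputable def tw (c : K →* Circle) (e : Matrix (Fin q) (Fin q) (K → ℂ)) :
    Matrix (Fin q) (Fin q) (K → ℂ) :=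
  Matrix.of fun i j => fun g => e i j g * (c g : ℂ)

theorem tw_apply (c : K →* Circle) (e : Matrix (Fin q) (Fin q) (K → ℂ)) (i j : Fin q) (g : K) :
    tw c e i j g = e i j g * (c g : ℂ) := rfl

theorem tw_idem (c : K →* Circle) {e : Matrix (Fin q) (Fin q) (K → ℂ)} (he : IsIdem e) :
    IsIdem (tw c e) := by
  refine ⟨fun i j => ?_, fun i j g => ?_⟩
  · refine (he.1 i j).congr fun g => ?_
    rw [tw_apply, norm_mul, Circle.norm_coe, mul_one]
  · have h1 : ∀ k h, tw c e i k h * tw c e k j (h⁻¹ * g) =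
        (e i k h * e k j (h⁻¹ * g)) * (c g : ℂ) := by
      intro k h
      have h2 : (c g : ℂ) = (c h : ℂ) * (c (h⁻¹ * g) : ℂ) := by
        rw [← Circle.coe_mul, ← map_mul, mul_inv_cancel_left]
      rw [tw_apply, tw_apply, h2]
      ring
    simp_rw [h1, tsum_mul_right]
    rw [← Finset.sum_mul, he.2 i j g, tw_apply]

theorem char_eq_of_class (c : K →* Circle) {g x : K} (h : ConjClasses.mk g = ConjClasses.mk x) :
    c g = c x := by
  obtain ⟨d, hd⟩ := isConj_iff.mp (ConjClasses.mk_eq_mk_iff_isConj.mp h)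
  rw [← hd, map_mul, map_mul, map_inv, mul_comm (c d), mul_inv_cancel_right]

theorem tau_tw (c : K →* Circle) (e : Matrix (Fin q) (Fin q) (K → ℂ)) (x : K) :
    tau (ConjClasses.mk x) (tw c e) = tau (ConjClasses.mk x) e * (c x : ℂ) := by
  unfold tau
  rw [← tsum_mul_right]
  refine tsum_congr fun g => ?_
  rw [Finset.sum_mul]
  refine Finset.sum_congr rfl fun i _ => ?_
  rw [tw_apply, char_eq_of_class c (ConjClasses.mem_carrier_iff_mk_eq.mp g.2)]

section Mat

attribute [local instance] Matrix.linftyOpNormedRing Matrix.linftyOpNormedAlgebra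

/-- Characters which are trivial on a large finite set do not change the traces. -/
theorem exists_supp {e : Matrix (Fin q) (Fin q) (K → ℂ)} (he : IsIdem e) :
    ∃ S : Finset K, ∀ c : K →* Circle, (∀ g ∈ S, c g = 1) → ∀ x, c x ≠ 1 →
      tau (ConjClasses.mk x) e = 0 := by
  classical
  obtain ⟨S, hS⟩ := tail (toFn_summable he) (show (0 : ℝ) < 1 / 4 by norm_num)
  refine ⟨S, fun c hc x hx => ?_⟩
  have h2 : ∀ g, ‖toFn (tw c e) g - toFn e g‖ ≤ (if g ∈ S then 0 else ‖toFn e g‖) * 2 := by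
    intro g
    have h3 : toFn (tw c e) g - toFn e g = ((c g : ℂ) - 1) • toFn e g := by
      ext i j
      change e i j g * (c g : ℂ) - e i j g = ((c g : ℂ) - 1) * e i j g
      ring
    rw [h3]
    split_ifs with hg
    · rw [hc g hg, Circle.coe_one, sub_self, zero_smul, norm_zero, zero_mul]
    · rw [norm_smul, mul_comm]
      refine mul_le_mul_of_nonneg_left ?_ (norm_nonneg _)
      refine (norm_sub_le _ _).trans ?_
      rw [Circle.norm_coe, norm_one]
      norm_num
  have hsum := (summable_tail (toFn_summable he) (fun _ => norm_nonneg _) S).mul_right 2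
  have h4 : ∑' g, ‖toFn (tw c e) g - toFn e g‖ < 1 := by
    have h5 : ∑' g, ‖toFn (tw c e) g - toFn e g‖ ≤ ∑' g, (if g ∈ S then 0 else ‖toFn e g‖) * 2 :=
      Summable.tsum_le_tsum h2 (Summable.of_nonneg_of_le (fun _ => norm_nonneg _) h2 hsum) hsum
    rw [tsum_mul_right] at h5
    linarith
  have h5 := tau_eq_of_close (tw_idem c he) he h4 (ConjClasses.mk x)
  rw [tau_tw] at h5
  have h6 : tau (ConjClasses.mk x) e * ((c x : ℂ) - 1) = 0 := by
    rw [mul_sub, h5, mul_one, sub_self]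
  rcases mul_eq_zero.1 h6 with h7 | h7
  · exact h7
  · exact absurd (Circle.ext (sub_eq_zero.1 h7)) hx

end Mat

/-- Elements of infinite order in an abelian quotient carry no trace. -/
theorem vanishes_of_inf {B : Type*} [CommGroup B] (β : K →* B) {x : K}
    (hx : ¬ IsOfFinOrder (β x)) : VanishesAt x := by
  obtain ⟨φ, hφ⟩ := exists_real hx
  have hadd : ∀ g h : K, φ (Additive.ofMul (β (g * h))) =
      φ (Additive.ofMul (β g)) + φ (Additive.ofMul (β h)) := by
    intro g h
    rw [map_mul, ofMul_mul, map_add]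
  refine vanishesAt_of_charged ⟨fun g => φ (Additive.ofMul (β g)),
    fun g => φ (Additive.ofMul (β g)), fun g h => (hadd g h).le, fun g h _ _ => hadd g h,
    fun _ _ => le_rfl, ?_⟩
  change φ (Additive.ofMul (β x)) ≠ 0
  rw [hφ]
  exact one_ne_zero

/-- The traces of an idempotent are carried by finitely many torsion elements of an abelian
quotient. -/
theorem exists_tors {B : Type*} [CommGroup B] (β : K →* B)
    {e : Matrix (Fin q) (Fin q) (K → ℂ)} (he : IsIdem e) :
    ∃ T : Finset B, (∀ b ∈ T, IsOfFinOrder b) ∧ ∀ x, β x ∉ T → tau (ConjClasses.mk x) e = 0 := by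
  classical
  obtain ⟨S, hS⟩ := exists_supp he
  have hfin := finite_torsion (S.image β)
  refine ⟨hfin.toFinset, fun b hb => (hfin.mem_toFinset.1 hb).2, fun x hx => ?_⟩
  by_cases h1 : IsOfFinOrder (β x)
  · have h2 : β x ∉ Subgroup.closure ((S.image β : Finset B) : Set B) := fun h =>
      hx (hfin.mem_toFinset.2 ⟨h, h1⟩)
    obtain ⟨χ, h3, h4⟩ := exists_char_sub h2
    exact hS (χ.comp β) (fun g hg => h3 _ (Subgroup.subset_closure
      (Finset.mem_coe.2 (Finset.mem_image_of_mem β hg)))) x h4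
  · exact vanishes_of_inf β h1 q e he

end Twist

theorem finite_roots {n : ℕ} (hn : 0 < n) : {z : Circle | z ^ n = 1}.Finite := by
  have h1 : {z : ℂ | z ^ n = 1}.Finite := by
    refine (Polynomial.nthRootsFinset n (1 : ℂ)).finite_toSet.subset fun z hz => ?_
    exact (Polynomial.mem_nthRootsFinset hn 1).2 hz
  refine (h1.preimage (f := fun z : Circle => (z : ℂ)) Circle.coe_injective.injOn).subset
    fun z hz => ?_
  have h2 : z ^ n = 1 := hz
  change (z : ℂ) ^ n = 1
  rw [← Circle.coe_one, ← h2, Circle.coe_pow]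

/-- Finitely many characters suffice on a finite set of torsion elements. -/
theorem exists_reps {B : Type*} [CommGroup B] (T : Finset B) (hT : ∀ b ∈ T, IsOfFinOrder b) :
    ∃ X : Finset (B →* Circle), ∀ χ : B →* Circle, ∃ χ₀ ∈ X, ∀ b ∈ T, χ b = χ₀ b := by
  classical
  let r : (B →* Circle) → (T → Circle) := fun χ b => χ b
  have h1 : (Set.range r).Finite := by
    refine (Set.Finite.pi' fun b : T => finite_roots (hT b b.2).orderOf_pos).subset ?_
    rintro _ ⟨χ, rfl⟩ b
    change χ b ^ orderOf (b : B) = 1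
    rw [← map_pow, pow_orderOf_eq_one, map_one]
  have h2 : ∀ y ∈ Set.range r, ∃ χ, r χ = y := fun y hy => hy
  choose! f hf using h2
  refine ⟨h1.toFinset.image f, fun χ => ⟨f (r χ), Finset.mem_image_of_mem _
    (h1.mem_toFinset.2 ⟨χ, rfl⟩), fun b hb => ?_⟩⟩
  exact (congrFun (hf (r χ) ⟨χ, rfl⟩) ⟨b, hb⟩).symm

/-- The Fourier transform in terms of the coefficients. -/
theorem T_eq {M J : Type*} [CommGroup M] {w : J → ℂ} {μ : J → M} (hw : Summable fun j => ‖w j‖)
    (χ : M →* Circle) : T w μ χ = ∑' m, co w μ m * (χ m : ℂ) := by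
  have hs := summable_term μ hw χ
  have h1 : Summable fun p : (Σ m : M, {j // μ j = m}) => w p.2 * (χ (μ p.2) : ℂ) :=
    (Equiv.sigmaFiberEquiv μ).summable_iff.mpr hs
  have h2 : T w μ χ = ∑' p : (Σ m : M, {j // μ j = m}), w p.2 * (χ (μ p.2) : ℂ) :=
    ((Equiv.sigmaFiberEquiv μ).tsum_eq _).symm
  rw [h2, h1.tsum_sigma]
  refine tsum_congr fun m => ?_
  rw [← co_eq, ← tsum_mul_right]
  refine tsum_congr fun j => ?_
  rw [j.2]

theorem T_congr {M J : Type*} [CommGroup M] {w : J → ℂ} {μ : J → M}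
    (hw : Summable fun j => ‖w j‖) {T₀ : Finset M} (h0 : ∀ m ∉ T₀, co w μ m = 0)
    {χ χ' : M →* Circle} (h : ∀ m ∈ T₀, χ m = χ' m) : T w μ χ = T w μ χ' := by
  rw [T_eq hw, T_eq hw]
  refine tsum_congr fun m => ?_
  by_cases hm : m ∈ T₀
  · rw [h m hm]
  · rw [h0 m hm, zero_mul, zero_mul]

section Prod

variable {G : Type u} {B : Type v} [Group G] [CommGroup B]

theorem mk_eq_iff (x y : G × B) : ConjClasses.mk x = ConjClasses.mk y ↔
    ConjClasses.mk x.1 = ConjClasses.mk y.1 ∧ x.2 = y.2 := by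
  rw [ConjClasses.mk_eq_mk_iff_isConj, ConjClasses.mk_eq_mk_iff_isConj, isConj_iff, isConj_iff]
  constructor
  · rintro ⟨c, rfl⟩
    refine ⟨⟨c.1, rfl⟩, ?_⟩
    change x.2 = c.2 * x.2 * c.2⁻¹
    rw [mul_comm c.2, mul_inv_cancel_right]
  · rintro ⟨⟨c, hc⟩, h⟩
    refine ⟨(c, 1), Prod.ext hc ?_⟩
    change 1 * x.2 * 1⁻¹ = y.2
    rw [inv_one, mul_one, one_mul, h]

theorem co_tau {q : ℕ} (e : Matrix (Fin q) (Fin q) (G × B → ℂ)) (t : G) (b : B) :
    co (fun g : {g : G × B // ConjClasses.mk g.1 = ConjClasses.mk t} => ∑ i, e i i g)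
      (fun g => g.1.2) b = tau (ConjClasses.mk (t, b)) e := by
  let E : {j : {g : G × B // ConjClasses.mk g.1 = ConjClasses.mk t} // j.1.2 = b} ≃
      {y : G × B // ConjClasses.mk y = ConjClasses.mk (t, b)} :=
    { toFun := fun j => ⟨j.1.1, (mk_eq_iff _ _).2 ⟨j.1.2, j.2⟩⟩
      invFun := fun y => ⟨⟨y.1, ((mk_eq_iff _ _).1 y.2).1⟩, ((mk_eq_iff _ _).1 y.2).2⟩
      left_inv := fun _ => rfl
      right_inv := fun _ => rfl }
  rw [← co_eq, tau_eq]
  exact E.tsum_eq (fun y => ∑ i, e i i y)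

theorem map_fst_inl (C : ConjClasses G) :
    ConjClasses.map (MonoidHom.fst G B) (ConjClasses.map (MonoidHom.inl G B) C) = C := by
  obtain ⟨x, rfl⟩ := ConjClasses.mk_surjective C
  rfl

theorem bass_of_prod (h : L1Bass (G × B)) : L1Bass G := by
  classical
  intro q e he
  obtain ⟨b, hb, htau⟩ := pushforward (MonoidHom.inl G B) e he
  obtain ⟨F, hF1, hF2⟩ := h q b hb
  refine ⟨F.image (ConjClasses.map (MonoidHom.fst G B)), ?_, ?_⟩
  · intro C hC
    obtain ⟨D, hD, rfl⟩ := Finset.mem_image.mp hC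
    obtain ⟨y, rfl⟩ := ConjClasses.mk_surjective D
    exact isTorsionClass_mk.mpr
      ((MonoidHom.fst G B).isOfFinOrder (isTorsionClass_mk.mp (hF1 _ hD)))
  · intro C hC
    have h1 : tau (ConjClasses.map (MonoidHom.inl G B) C) b = 0 :=
      hF2 _ fun h2 => hC (Finset.mem_image.mpr ⟨_, h2, map_fst_inl C⟩)
    rw [← h1, htau]
    refine (tsum_classes_single he (MonoidHom.inl G B) _ C rfl
      fun D hD hne => (hne ?_).elim).symm
    rw [← map_fst_inl (B := B) D, hD, map_fst_inl]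

theorem prod_of_bass (hG : L1Bass G) : L1Bass (G × B) := by
  classical
  intro q e he
  obtain ⟨T₁, hT1, hT2⟩ := exists_tors (MonoidHom.snd G B) he
  obtain ⟨X, hX⟩ := exists_reps T₁ hT1
  have hpush : ∀ χ : B →* Circle, ∃ F : Finset (ConjClasses G),
      (∀ C ∈ F, IsTorsionClass C) ∧ ∀ C ∉ F,
        T (fun g : {g : G × B // ConjClasses.mk g.1 = C} => ∑ i, e i i g)
          (fun g => g.1.2) χ = 0 := by
    intro χ
    obtain ⟨b, hb, htau⟩ := pushforward (MonoidHom.fst G B)
      (tw (χ.comp (MonoidHom.snd G B)) e) (tw_idem _ he)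
    obtain ⟨F, hF1, hF2⟩ := hG q b hb
    refine ⟨F, hF1, fun C hC => ?_⟩
    rw [← hF2 C hC, htau]
    refine tsum_congr fun g => ?_
    rw [Finset.sum_mul]
    rfl
  choose F hF1 hF2 using hpush
  have hs : ∀ t : G, Summable fun g : {g : G × B // ConjClasses.mk g.1 = ConjClasses.mk t} =>
      ‖∑ i, e i i g‖ := by
    intro t
    have h1 : Summable fun g : G × B => ∑ i, ‖e i i g‖ := summable_sum fun i _ => he.1 i i
    exact Summable.of_nonneg_of_le (fun _ => norm_nonneg _) (fun g => norm_sum_le _ _)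
      (h1.subtype {g : G × B | ConjClasses.mk g.1 = ConjClasses.mk t})
  have key : ∀ t : G, ConjClasses.mk t ∉ X.biUnion F → ∀ b : B,
      tau (ConjClasses.mk (t, b)) e = 0 := by
    intro t ht b
    rw [← co_tau]
    refine uniq (hs t) (fun χ => ?_) b
    obtain ⟨χ₀, h1, h2⟩ := hX χ
    rw [T_congr (hs t) (T₀ := T₁) (fun m hm => ?_) h2]
    · exact hF2 χ₀ _ fun h3 => ht (Finset.mem_biUnion.2 ⟨χ₀, h1, h3⟩)
    · rw [co_tau]
      exact hT2 (t, m) hm
  let s : ConjClasses G → G := Function.surjInv ConjClasses.mk_surjective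
  have hsm : ∀ C, ConjClasses.mk (s C) = C := Function.surjInv_eq ConjClasses.mk_surjective
  refine ⟨(X.biUnion F ×ˢ T₁).image fun p => ConjClasses.mk (s p.1, p.2), ?_, ?_⟩
  · intro C hC
    obtain ⟨⟨D, b⟩, hD, rfl⟩ := Finset.mem_image.mp hC
    obtain ⟨hD1, hD2⟩ := Finset.mem_product.1 hD
    obtain ⟨χ, -, h3⟩ := Finset.mem_biUnion.1 hD1
    have h4 := hF1 χ D h3
    rw [← hsm D, isTorsionClass_mk] at h4
    exact isTorsionClass_mk.mpr (h4.prod_mk (hT1 b hD2))
  · intro C hC
    obtain ⟨⟨t, b⟩, rfl⟩ := ConjClasses.mk_surjective C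
    by_cases hb : b ∈ T₁
    · refine key t (fun ht => hC ?_) b
      refine Finset.mem_image.2 ⟨(ConjClasses.mk t, b), Finset.mem_product.2 ⟨ht, hb⟩, ?_⟩
      exact (mk_eq_iff _ _).2 ⟨hsm _, rfl⟩
    · exact hT2 (t, b) hb

end Prod

/-- The `ℓ¹`-Bass conjecture for `G × B` with `B` abelian is equivalent to the one for `G`. -/
theorem bass_prod {G : Type u} {B : Type v} [Group G] [CommGroup B] :
    L1Bass (G × B) ↔ L1Bass G :=
  ⟨bass_of_prod, prod_of_bass⟩

end Vale.Agent.P184.H977
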