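import Vale.Agent.P184.H290.Fin

/-!
# P184: traces through a section cocycle, with finitely many fixed points
-/

namespace Vale.Agent.P184.H977

open Vale.Agent.P184 Vale.Agent.P184.H290

section

variable {G : Type*} [Group G] {H : Subgroup G} {s : G ⧸ H → G} {α : G → G ⧸ H → H}

/-- the fixed points of `y` at which the cocycle takes a value in the class `D` -/
def Fx (α : G → G ⧸ H → H) (D : ConjClasses H) (y : G) : Set (G ⧸ H) :=
  {x | y • x = x ∧ ConjClasses.mk (α y x) = D}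

theorem coc_mul (hα : ∀ g x, g * s x = s (g • x) * (α g x : G)) (g h : G) (x : G ⧸ H) :
    α (g * h) x = α g (h • x) * α h x := by
  refine Subtype.ext ?_
  refine mul_left_cancel (a := s ((g * h) • x)) ?_
  rw [← hα, Subgroup.coe_mul, ← mul_assoc, mul_smul, ← hα, mul_assoc, mul_assoc, hα h x]

theorem mk_of_fix (hα : ∀ g x, g * s x = s (g • x) * (α g x : G)) {t : H} {y : G} {x : G ⧸ H}
    (h : x ∈ Fx α (ConjClasses.mk t) y) : ConjClasses.mk y = ConjClasses.mk (t : G) := by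
  obtain ⟨h1, h2⟩ := h
  have h3 := hα y x
  rw [h1] at h3
  rw [ConjClasses.mk_eq_mk_iff_isConj] at h2 ⊢
  refine IsConj.trans ?_ (H.subtype.map_isConj h2)
  refine isConj_iff.2 ⟨(s x)⁻¹, ?_⟩
  rw [inv_inv, mul_assoc, h3, inv_mul_cancel_left]
  rfl

theorem move (hα : ∀ g x, g * s x = s (g • x) * (α g x : G)) {D : ConjClasses H} (c y : G)
    (x : G ⧸ H) (h : x ∈ Fx α D (c * y * c⁻¹)) : c⁻¹ • x ∈ Fx α D y := by
  obtain ⟨h1, h2⟩ := h
  have h3 : y • c⁻¹ • x = c⁻¹ • x := by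
    rw [eq_inv_smul_iff, ← mul_smul, ← mul_smul]
    exact h1
  refine ⟨h3, ?_⟩
  rw [← h2, ConjClasses.mk_eq_mk_iff_isConj, isConj_comm, isConj_iff]
  refine ⟨α c⁻¹ x, ?_⟩
  have e1 := hα (c * y * c⁻¹) x
  rw [h1] at e1
  have e2 := hα c⁻¹ x
  have e3 := hα y (c⁻¹ • x)
  rw [h3] at e3
  refine Subtype.ext ?_
  rw [Subgroup.coe_mul, Subgroup.coe_mul, Subgroup.coe_inv]
  rw [mul_inv_eq_iff_eq_mul]
  refine mul_left_cancel (a := s (c⁻¹ • x)) ?_
  rw [← mul_assoc, ← mul_assoc, ← e2, ← e3, mul_assoc, ← e1, mul_assoc y, ← e2]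
  group

theorem self_mem (hs : ∀ x, (s x : G ⧸ H) = x)
    (hα : ∀ g x, g * s x = s (g • x) * (α g x : G)) (t : H) :
    ((1 : G) : G ⧸ H) ∈ Fx α (ConjClasses.mk t) (t : G) := by
  have h0 : s ((1 : G) : G ⧸ H) ∈ H := by
    have h := QuotientGroup.eq.1 (hs ((1 : G) : G ⧸ H))
    rw [mul_one] at h
    simpa using inv_mem h
  have h1 : (t : G) • ((1 : G) : G ⧸ H) = ((1 : G) : G ⧸ H) := by
    change (((t : G) * 1 : G) : G ⧸ H) = _
    rw [QuotientGroup.eq]
    rw [mul_one, mul_one]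
    exact inv_mem t.2
  refine ⟨h1, ?_⟩
  have h2 := hα t ((1 : G) : G ⧸ H)
  rw [h1] at h2
  rw [ConjClasses.mk_eq_mk_iff_isConj, isConj_iff]
  refine ⟨⟨_, h0⟩, Subtype.ext ?_⟩
  rw [Subgroup.coe_mul, Subgroup.coe_mul, Subgroup.coe_inv]
  rw [mul_inv_eq_iff_eq_mul]
  exact h2.symm

theorem tsum_pairs (hα : ∀ g x, g * s x = s (g • x) * (α g x : G)) {F : G → ℂ}
    (hF : Summable fun g => ‖F g‖) (t : H)
    (hfin : (Fx α (ConjClasses.mk t) (t : G)).Finite) :
    ∑' p : {p : G × (G ⧸ H) // p.1 • p.2 = p.2 ∧ ConjClasses.mk (α p.1 p.2) = ConjClasses.mk t},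
      F p.1.1 = ((Fx α (ConjClasses.mk t) (t : G)).ncard : ℂ) *
        ∑' y : {y : G // ConjClasses.mk y = ConjClasses.mk (t : G)}, F y.1 := by
  classical
  have hfin' := hfin.fintype
  have hc : ∀ y : {y : G // ConjClasses.mk y = ConjClasses.mk (t : G)},
      ∃ c : G, c * t * c⁻¹ = y.1 := fun y =>
    isConj_iff.1 (ConjClasses.mk_eq_mk_iff_isConj.1 y.2.symm)
  choose c hc using hc
  let E : {p : G × (G ⧸ H) // p.1 • p.2 = p.2 ∧ ConjClasses.mk (α p.1 p.2) = ConjClasses.mk t} ≃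
      (Fx α (ConjClasses.mk t) (t : G)) × {y : G // ConjClasses.mk y = ConjClasses.mk (t : G)} :=
    { toFun := fun p =>
        (⟨(c ⟨p.1.1, mk_of_fix hα (x := p.1.2) p.2⟩)⁻¹ • p.1.2,
          move hα _ _ _ (by rw [hc]; exact p.2)⟩,
        ⟨p.1.1, mk_of_fix hα (x := p.1.2) p.2⟩)
      invFun := fun z => ⟨(z.2.1, c z.2 • z.1.1), by
        have h := move hα (D := ConjClasses.mk t) (c z.2)⁻¹ z.2.1 z.1.1 (by
          rw [← hc z.2]
          convert z.1.2 using 1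
          group)
        rw [inv_inv] at h
        exact h⟩
      left_inv := by
        rintro ⟨⟨y, x⟩, h⟩
        refine Subtype.ext (Prod.ext rfl ?_)
        change c _ • (c _)⁻¹ • x = x
        rw [smul_inv_smul]
      right_inv := by
        rintro ⟨⟨x, hx⟩, y⟩
        refine Prod.ext (Subtype.ext ?_) rfl
        change (c _)⁻¹ • c _ • x = x
        rw [inv_smul_smul] }
  have h1 : ∑' p : {p : G × (G ⧸ H) // p.1 • p.2 = p.2 ∧
      ConjClasses.mk (α p.1 p.2) = ConjClasses.mk t}, F p.1.1 =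
      ∑' z : (Fx α (ConjClasses.mk t) (t : G)) ×
        {y : G // ConjClasses.mk y = ConjClasses.mk (t : G)}, (1 : ℂ) * F z.2.1 := by
    rw [← E.tsum_eq (fun z => (1 : ℂ) * F z.2.1)]
    refine tsum_congr fun p => ?_
    rw [one_mul]
    rfl
  have hF' : Summable fun y : {y : G // ConjClasses.mk y = ConjClasses.mk (t : G)} => ‖F y.1‖ :=
    hF.subtype _
  rw [h1, ← tsum_mul_tsum_of_summable_norm (f := fun _ : Fx α (ConjClasses.mk t) (t : G) =>
    (1 : ℂ)) (g := fun y : {y : G // ConjClasses.mk y = ConjClasses.mk (t : G)} => F y.1)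
    (Summable.of_finite) hF', tsum_fintype, Finset.sum_const, Finset.card_univ, nsmul_eq_mul,
    mul_one, Set.ncard_eq_toFinset_card', Set.toFinset_card]

/-- Traces of idempotents at the classes of elements of `H` in terms of idempotents over `H`. -/
theorem gen (hs : ∀ x, (s x : G ⧸ H) = x) (hα : ∀ g x, g * s x = s (g • x) * (α g x : G))
    {α' : G → G ⧸ H → H} (hfin : ∀ g, {x | α g x ≠ α' g x}.Finite)
    (hR : Spec α fun D => ∀ g x, ConjClasses.mk (α' g x) ≠ D) {q : ℕ}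
    {e : Matrix (Fin q) (Fin q) (G → ℂ)} (he : IsIdem e) :
    ∃ (m : ℕ) (f f' : Matrix (Fin m) (Fin m) (H → ℂ)), IsIdem f ∧ IsIdem f' ∧
      ∀ t : H, (∀ g x, ConjClasses.mk (α' g x) ≠ ConjClasses.mk t) → ∃ n : ℕ, n ≠ 0 ∧
        (n : ℂ) * tau (ConjClasses.mk (t : G)) e =
          tau (ConjClasses.mk t) f' - tau (ConjClasses.mk t) f := by
  classical
  obtain ⟨e₁, he₁, htau, m, f, f', hf, hf', hff⟩ := hR q e he
  refine ⟨m, f, f', hf, hf', fun t ht => ?_⟩
  have hfx : (Fx α (ConjClasses.mk t) (t : G)).Finite := by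
    refine (hfin t).subset ?_
    rintro x ⟨-, hx⟩ h
    exact ht t x (by rw [← h]; exact hx)
  refine ⟨(Fx α (ConjClasses.mk t) (t : G)).ncard, ?_, ?_⟩
  · exact (Set.ncard_pos hfx).2 ⟨_, self_mem hs hα t⟩ |>.ne'
  · have hF : Summable fun g => ‖∑ i, e₁ i i g‖ := by
      refine Summable.of_nonneg_of_le (fun _ => norm_nonneg _) (fun g => norm_sum_le _ _)
        (summable_sum fun i _ => he₁.1 i i)
    rw [hff _ ht, tsum_pairs hα hF t hfx, ← htau, tau_eq]

/-- Vanishing at the class of an element of `H`. -/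
theorem vanish (hs : ∀ x, (s x : G ⧸ H) = x) (hα : ∀ g x, g * s x = s (g • x) * (α g x : G))
    {α' : G → G ⧸ H → H} (hfin : ∀ g, {x | α g x ≠ α' g x}.Finite)
    (hR : Spec α fun D => ∀ g x, ConjClasses.mk (α' g x) ≠ D) {t : H}
    (ht : ∀ g x, ConjClasses.mk (α' g x) ≠ ConjClasses.mk t) (hv : VanishesAt t) :
    VanishesAt (t : G) := by
  intro q e he
  obtain ⟨m, f, f', hf, hf', hff⟩ := gen hs hα hfin hR he
  obtain ⟨n, hn, h⟩ := hff t ht
  rw [hv _ f hf, hv _ f' hf', sub_zero] at h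
  exact (mul_eq_zero.1 h).resolve_left (Nat.cast_ne_zero.2 hn)

end

end Vale.Agent.P184.H977
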