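import Vale.Agent.P184.H290.Spec

/-!
# P184: graph products
-/

namespace Vale.Agent.P184.H977

open Monoid Vale.Agent.P184 Vale.Agent.P184.H290

universe u v w x

section

variable {V : Type u} (Γ : SimpleGraph V) (G : V → Type v) [∀ v, Group (G v)]

/-- the commutators of the elements of adjacent vertex groups -/
def grels : Set (CoprodI G) :=
  {x | ∃ (v w : V) (a : G v) (b : G w), Γ.Adj v w ∧
    x = CoprodI.of a * CoprodI.of b * (CoprodI.of a)⁻¹ * (CoprodI.of b)⁻¹}

/-- The graph product of the groups `G v` over the graph `Γ`: the free product of the `G v` modulo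
the commutators of the elements of adjacent vertex groups. -/
def GP : Type (max u v) := CoprodI G ⧸ Subgroup.normalClosure (grels Γ G)

instance : Group (GP Γ G) :=
  inferInstanceAs (Group (CoprodI G ⧸ Subgroup.normalClosure (grels Γ G)))

namespace GP

variable {Γ G}

/-- the vertex groups -/
def of (v : V) : G v →* GP Γ G :=
  (QuotientGroup.mk' (Subgroup.normalClosure (grels Γ G))).comp CoprodI.of

theorem comm {v w : V} (h : Γ.Adj v w) (a : G v) (b : G w) :
    Commute (of v a : GP Γ G) (of w b) := by
  have h1 : (CoprodI.of a * CoprodI.of b * (CoprodI.of a)⁻¹ * (CoprodI.of b)⁻¹ : CoprodI G) ∈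
      Subgroup.normalClosure (grels Γ G) := Subgroup.subset_normalClosure ⟨v, w, a, b, h, rfl⟩
  have h2 : QuotientGroup.mk' (Subgroup.normalClosure (grels Γ G))
      (CoprodI.of a * CoprodI.of b * (CoprodI.of a)⁻¹ * (CoprodI.of b)⁻¹) = 1 :=
    (QuotientGroup.eq_one_iff _).2 h1
  rw [map_mul, map_mul, map_mul, map_inv, map_inv, mul_inv_eq_one, mul_inv_eq_iff_eq_mul] at h2
  exact h2

variable {K : Type w} [Group K]

/-- the universal property -/
def lift (f : ∀ v, G v →* K) (hf : ∀ v w, Γ.Adj v w → ∀ a b, Commute (f v a) (f w b)) :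
    GP Γ G →* K :=
  QuotientGroup.lift _ (CoprodI.lift f) (by
    have h : Subgroup.normalClosure (grels Γ G) ≤ (CoprodI.lift f).ker := by
      refine Subgroup.normalClosure_le_normal ?_
      rintro x ⟨v, w, a, b, h, rfl⟩
      change CoprodI.lift f _ = 1
      rw [map_mul, map_mul, map_mul, map_inv, map_inv, CoprodI.lift_of, CoprodI.lift_of,
        (hf v w h a b).eq]
      group
    exact fun x hx => h hx)

theorem lift_of (f : ∀ v, G v →* K) (hf : ∀ v w, Γ.Adj v w → ∀ a b, Commute (f v a) (f w b))
    (v : V) (a : G v) : lift (Γ := Γ) f hf (of v a) = f v a := by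
  change CoprodI.lift f (CoprodI.of a) = _
  rw [CoprodI.lift_of]

theorem hom_ext {f g : GP Γ G →* K} (h : ∀ v a, f (of v a) = g (of v a)) : f = g := by
  refine QuotientGroup.monoidHom_ext _ (CoprodI.ext_hom _ _ fun v => MonoidHom.ext fun a => ?_)
  exact h v a

theorem induction {p : GP Γ G → Prop} (h1 : p 1) (hof : ∀ v a, p (of v a))
    (hmul : ∀ x y, p x → p y → p (x * y)) (x : GP Γ G) : p x := by
  obtain ⟨y, rfl⟩ := QuotientGroup.mk_surjective x
  induction y using CoprodI.induction_on with
  | one => exact h1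
  | of v a => exact hof v a
  | mul a b ha hb => exact hmul _ _ ha hb

end GP

end

section

variable {V : Type u} (Γ : SimpleGraph V) (G : V → Type v) [∀ v, Group (G v)]

/-- the graph product over a set of vertices -/
abbrev GPs (W : Set V) : Type (max u v) := GP (Γ.induce W) fun w : W => G w

variable {Γ G}

/-- the vertex groups -/
def gof {W : Set V} (v : V) (h : v ∈ W) : G v →* GPs Γ G W :=
  GP.of (Γ := Γ.induce W) (G := fun w : W => G w) ⟨v, h⟩

theorem gcomm {W : Set V} {v w : V} (h : v ∈ W) (h' : w ∈ W) (hvw : Γ.Adj v w) (a : G v)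
    (b : G w) : Commute (gof (Γ := Γ) v h a) (gof w h' b) :=
  GP.comm (Γ := Γ.induce W) (G := fun w : W => G w) (v := ⟨v, h⟩) (w := ⟨w, h'⟩) hvw a b

/-- the universal property -/
def glift {K : Type w} [Group K] {W : Set V} (f : ∀ v, v ∈ W → (G v →* K))
    (hf : ∀ v w (h : v ∈ W) (h' : w ∈ W), Γ.Adj v w → ∀ a b, Commute (f v h a) (f w h' b)) :
    GPs Γ G W →* K :=
  GP.lift (Γ := Γ.induce W) (G := fun w : W => G w) (fun v => f v v.2)
    fun v w hvw a b => hf v w v.2 w.2 hvw a b

theorem glift_gof {K : Type w} [Group K] {W : Set V} (f : ∀ v, v ∈ W → (G v →* K))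
    (hf : ∀ v w (h : v ∈ W) (h' : w ∈ W), Γ.Adj v w → ∀ a b, Commute (f v h a) (f w h' b))
    (v : V) (h : v ∈ W) (a : G v) : glift (Γ := Γ) f hf (gof v h a) = f v h a :=
  GP.lift_of (Γ := Γ.induce W) (G := fun w : W => G w) _ _ ⟨v, h⟩ a

theorem ghom_ext {K : Type w} [Group K] {W : Set V} {f g : GPs Γ G W →* K}
    (h : ∀ v (hv : v ∈ W) a, f (gof v hv a) = g (gof v hv a)) : f = g :=
  GP.hom_ext fun v a => h v v.2 a

open Classical in
/-- inclusions and retractions -/
noncomputable def mor (W W' : Set V) : GPs Γ G W →* GPs Γ G W' :=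
  glift (fun v _ => if h : v ∈ W' then gof v h else 1) (by
    intro v w _ _ hvw a b
    by_cases h : v ∈ W'
    · by_cases h' : w ∈ W'
      · rw [dif_pos h, dif_pos h']
        exact gcomm h h' hvw a b
      · rw [dif_neg h']
        exact Commute.one_right _
    · rw [dif_neg h]
      exact Commute.one_left _)

theorem mor_gof {W W' : Set V} {v : V} (hv : v ∈ W) (h : v ∈ W') (a : G v) :
    mor (Γ := Γ) W W' (gof v hv a) = gof v h a := by
  unfold mor
  rw [glift_gof, dif_pos h]

theorem mor_gof' {W W' : Set V} {v : V} (hv : v ∈ W) (h : v ∉ W') (a : G v) :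
    mor (Γ := Γ) W W' (gof v hv a) = 1 := by
  unfold mor
  rw [glift_gof, dif_neg h]
  rfl

theorem mor_mor {W W' : Set V} (h : W' ⊆ W) (x : GPs Γ G W') : mor W W' (mor W' W x) = x := by
  have h1 : (mor W W').comp (mor W' W) = MonoidHom.id (GPs Γ G W') := by
    refine ghom_ext fun v hv a => ?_
    rw [MonoidHom.comp_apply, mor_gof hv (h hv), mor_gof _ hv]
    rfl
  exact DFunLike.congr_fun h1 x

/-- a vertex adjacent to all others is central for them -/
theorem gcomm_mor {W L : Set V} {v : V} (hv : v ∈ W) (hL : ∀ w ∈ L, w ∈ W ∧ Γ.Adj v w) (a : G v)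
    (x : GPs Γ G L) : Commute (gof (Γ := Γ) v hv a) (mor L W x) := by
  induction x using GP.induction with
  | h1 => rw [map_one]; exact Commute.one_right _
  | hof w b =>
    have h := hL w w.2
    have h1 : mor (Γ := Γ) L W (GP.of w b) = gof (w : V) h.1 b := mor_gof w.2 h.1 b
    rw [h1]
    exact gcomm hv h.1 h.2 a b
  | hmul x y hx hy => rw [map_mul]; exact hx.mul_right hy

end

section

variable {V : Type u} {Γ : SimpleGraph V} {G : V → Type v} [∀ v, Group (G v)]

/-- the two factors -/
def fac (Γ : SimpleGraph V) (G : V → Type v) [∀ v, Group (G v)] (v : V) (W L : Set V) :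
    Bool → Type (max u v)
  | true => GPs Γ G W
  | false => G v × GPs Γ G L

instance (v : V) (W L : Set V) : ∀ b, Group (fac Γ G v W L b)
  | true => inferInstanceAs (Group (GPs Γ G W))
  | false => inferInstanceAs (Group (G v × GPs Γ G L))

/-- the structure maps -/
noncomputable def fphi (v : V) (W L : Set V) : ∀ b, GPs Γ G L →* fac Γ G v W L b
  | true => (mor L W : GPs Γ G L →* GPs Γ G W)
  | false => (MonoidHom.inr (G v) (GPs Γ G L) : GPs Γ G L →* G v × GPs Γ G L)

/-- the retractions -/
noncomputable def frho (v : V) (W L : Set V) : ∀ b, fac Γ G v W L b →* GPs Γ G L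
  | true => (mor W L : GPs Γ G W →* GPs Γ G L)
  | false => (MonoidHom.snd (G v) (GPs Γ G L) : G v × GPs Γ G L →* GPs Γ G L)

theorem frho_fphi {v : V} {W L : Set V} (h : L ⊆ W) (b : Bool) (x : GPs Γ G L) :
    frho v W L b (fphi v W L b x) = x := by
  cases b with
  | true => exact mor_mor h x
  | false => rfl

open Monoid.PushoutI in
/-- One step: adding a vertex. -/
theorem step {S : Type x} [Group S] {v : V} {W L : Set V} (hvW : v ∉ W)
    (hL : ∀ w, w ∈ L ↔ w ∈ W ∧ Γ.Adj v w) (h1 : L1Bass (S × GPs Γ G W))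
    (h2 : L1Bass (S × (G v × GPs Γ G L))) : L1Bass (S × GPs Γ G (insert v W)) := by
  classical
  have hLW : L ⊆ W := fun w hw => ((hL w).1 hw).1
  have h3 : L1Bass (S × PushoutI (fphi (Γ := Γ) (G := G) v W L)) := by
    refine (amalgam_spec (S := S) (fphi (Γ := Γ) (G := G) v W L) (frho v W L)
      (frho_fphi hLW)).2 fun b => ?_
    cases b with
    | true => exact h1
    | false => exact h2
  -- the retraction
  have hcv : ∀ w ∈ L, w ∈ insert v W ∧ Γ.Adj v w := fun w hw =>
    ⟨Set.mem_insert_of_mem v (hLW hw), ((hL w).1 hw).2⟩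
  let g2 : G v × GPs Γ G L →* GPs Γ G (insert v W) :=
    (gof v (Set.mem_insert v W)).noncommCoprod (mor L (insert v W))
      fun a x => gcomm_mor (Set.mem_insert v W) hcv a x
  let gg : ∀ b, fac Γ G v W L b →* GPs Γ G (insert v W) := fun b => match b with
    | true => (mor W (insert v W) : GPs Γ G W →* GPs Γ G (insert v W))
    | false => g2
  have hmm : (mor (Γ := Γ) (G := G) W (insert v W)).comp (mor L W) = mor L (insert v W) := by
    refine ghom_ext fun w hw a => ?_
    rw [MonoidHom.comp_apply, mor_gof hw (hLW hw), mor_gof _ (Set.mem_insert_of_mem v (hLW hw)),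
      mor_gof hw (Set.mem_insert_of_mem v (hLW hw))]
  let g : PushoutI (fphi (Γ := Γ) (G := G) v W L) →* GPs Γ G (insert v W) :=
    PushoutI.lift gg (mor L (insert v W)) (by
      intro b
      cases b with
      | true => exact hmm
      | false =>
        refine MonoidHom.ext fun x => ?_
        change gof v (Set.mem_insert v W) 1 * mor L (insert v W) x = _
        rw [map_one, one_mul])
  let pv : G v →* PushoutI (fphi (Γ := Γ) (G := G) v W L) :=
    (PushoutI.of (φ := fphi (Γ := Γ) (G := G) v W L) false).comp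
      (MonoidHom.inl (G v) (GPs Γ G L) : G v →* G v × GPs Γ G L)
  let pw : ∀ w, w ∈ W → (G w →* PushoutI (fphi (Γ := Γ) (G := G) v W L)) := fun w hw =>
    (PushoutI.of (φ := fphi (Γ := Γ) (G := G) v W L) true).comp
      (gof w hw : G w →* GPs Γ G W)
  let ff : ∀ w, w ∈ insert v W → (G w →* PushoutI (fphi (Γ := Γ) (G := G) v W L)) :=
    fun w hw => if h : w = v then h.symm ▸ pv else pw w (hw.resolve_left h)
  have hffv : ∀ hw, ff v hw = pv := fun hw => dif_pos rfl
  have hffw : ∀ w (hw : w ∈ insert v W) (h : w ≠ v), ff w hw = pw w (hw.resolve_left h) :=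
    fun w hw h => dif_neg h
  have hpvw : ∀ (a : G v) (w : V) (hw : w ∈ W) (_ : Γ.Adj v w) (b : G w),
      Commute (pv a) (pw w hw b) := by
    intro a w hw hvw b
    have hwL : w ∈ L := (hL w).2 ⟨hw, hvw⟩
    have e1 : pw w hw b = PushoutI.of (φ := fphi (Γ := Γ) (G := G) v W L) false
        ((1, gof w hwL b) : G v × GPs Γ G L) := by
      have e2 := PushoutI.of_apply_eq_base (fphi (Γ := Γ) (G := G) v W L) true (gof w hwL b)
      have e3 := PushoutI.of_apply_eq_base (fphi (Γ := Γ) (G := G) v W L) false (gof w hwL b)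
      have e4 : fphi (Γ := Γ) (G := G) v W L true (gof w hwL b) = gof w hw b :=
        mor_gof hwL hw b
      rw [e4] at e2
      exact e2.trans e3.symm
    rw [e1]
    refine Commute.map (x := ((a, 1) : G v × GPs Γ G L)) ?_
      (PushoutI.of (φ := fphi (Γ := Γ) (G := G) v W L) false)
    change ((a, 1) : G v × GPs Γ G L) * (1, gof w hwL b) = (1, gof w hwL b) * (a, 1)
    rw [Prod.mk_mul_mk, Prod.mk_mul_mk, one_mul, one_mul, mul_one, mul_one]
  let f : GPs Γ G (insert v W) →* PushoutI (fphi (Γ := Γ) (G := G) v W L) :=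
    glift ff (by
      intro w w' hw hw' hadj a b
      by_cases h : w = v
      · subst h
        have h' : w' ≠ w := hadj.ne'
        rw [hffv hw, hffw w' hw' h']
        exact hpvw a w' _ hadj b
      · rw [hffw w hw h]
        by_cases h' : w' = v
        · subst h'
          rw [hffv hw']
          exact (hpvw b w _ hadj.symm a).symm
        · rw [hffw w' hw' h']
          exact (gcomm (hw.resolve_left h) (hw'.resolve_left h') hadj a b).map
            (PushoutI.of (φ := fphi (Γ := Γ) (G := G) v W L) true))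
  have hgf : ∀ x, g (f x) = x := by
    have h4 : g.comp f = MonoidHom.id _ := by
      refine ghom_ext fun w hw a => ?_
      rw [MonoidHom.comp_apply]
      change g (glift ff _ _) = _
      rw [glift_gof]
      by_cases h : w = v
      · subst h
        rw [hffv hw]
        change PushoutI.lift gg (mor L (insert w W)) _ (PushoutI.of false _) = _
        rw [PushoutI.lift_of]
        change gof w (Set.mem_insert w W) a * mor L (insert w W) 1 = _
        rw [map_one, mul_one]
        rfl
      · rw [hffw w hw h]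
        change PushoutI.lift gg (mor L (insert v W)) _ (PushoutI.of true _) = _
        rw [PushoutI.lift_of]
        exact mor_gof _ hw a
    exact fun x => DFunLike.congr_fun h4 x
  exact l1Bass_retract ((MonoidHom.id S).prodMap f) ((MonoidHom.id S).prodMap g)
    (fun x => Prod.ext rfl (hgf x.2)) h3

end

end Vale.Agent.P184.H977
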