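import Vale.Agent.P184.H977.GP

/-!
# P184: graph products, the theorem
-/

namespace Vale.Agent.P184.H977

open Monoid Vale.Agent.P184 Vale.Agent.P184.H290

universe u v w x

section

variable {V : Type u} {Γ : SimpleGraph V} {G : V → Type v} [∀ v, Group (G v)]

open Classical in
/-- splitting off one factor of a finite product -/
theorem clique_step {S : Type x} [Group S] {v : V} {K : Finset V} (hv : v ∉ K)
    (h : L1Bass (S × ∀ k : (insert v K : Finset V), G k)) :
    L1Bass ((S × G v) × ∀ k : K, G k) := by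
  let ι : (S × G v) × (∀ k : K, G k) →* S × ∀ k : (insert v K : Finset V), G k :=
    MonoidHom.prod ((MonoidHom.fst S (G v)).comp (MonoidHom.fst _ _))
      (MonoidHom.pi fun k =>
        if h : (k : V) = v then
          ((h.symm ▸ MonoidHom.snd S (G v) : S × G v →* G k).comp (MonoidHom.fst _ _))
        else
          (Pi.evalMonoidHom (fun k : K => G k)
            ⟨(k : V), (Finset.mem_insert.1 k.2).resolve_left h⟩).comp (MonoidHom.snd _ _))
  let π : S × (∀ k : (insert v K : Finset V), G k) →* (S × G v) × ∀ k : K, G k :=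
    MonoidHom.prod (MonoidHom.prod (MonoidHom.fst _ _)
      ((Pi.evalMonoidHom (fun k : (insert v K : Finset V) => G k)
        ⟨v, Finset.mem_insert_self v K⟩).comp (MonoidHom.snd _ _)))
      (MonoidHom.pi fun k => (Pi.evalMonoidHom (fun k : (insert v K : Finset V) => G k)
        ⟨(k : V), Finset.mem_insert_of_mem k.2⟩).comp (MonoidHom.snd _ _))
  refine l1Bass_retract ι π (fun p => ?_) h
  obtain ⟨⟨s, a⟩, y⟩ := p
  refine Prod.ext (Prod.ext rfl ?_) (funext fun k => ?_)
  · change (ι ((s, a), y)).2 ⟨v, Finset.mem_insert_self v K⟩ = a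
    change (dite _ _ _ : (S × G v) × (∀ k : K, G k) →* G v) ((s, a), y) = a
    rw [dif_pos rfl]
    rfl
  · have hk : (k : V) ≠ v := fun h => hv (h ▸ k.2)
    change (dite _ _ _ : (S × G v) × (∀ k : K, G k) →* G k) ((s, a), y) = y k
    rw [dif_neg hk]
    rfl

theorem finite_case (n : ℕ) : ∀ (W : Finset V), W.card = n → ∀ (S : Type (max v x)) [Group S],
    (∀ K : Finset V, K ⊆ W → Γ.IsClique (K : Set V) → L1Bass (S × ∀ k : K, G k)) →
    L1Bass (S × GPs Γ G (W : Set V)) := by
  classical
  induction n using Nat.strong_induction_on with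
  | _ n ih =>
  intro W hW S _ h
  rcases W.eq_empty_or_nonempty with rfl | ⟨v, hv⟩
  · refine l1Bass_retract
      (MonoidHom.prod (MonoidHom.fst _ _) (1 : S × GPs Γ G ((∅ : Finset V) : Set V) →*
        ∀ k : (∅ : Finset V), G k))
      (MonoidHom.prod (MonoidHom.fst _ _) (1 : S × (∀ k : (∅ : Finset V), G k) →*
        GPs Γ G ((∅ : Finset V) : Set V))) (fun p => ?_)
      (h ∅ (Finset.Subset.refl _) (by simp))
    refine Prod.ext rfl ?_
    have h1 : (1 : GPs Γ G ((∅ : Finset V) : Set V) →* GPs Γ G ((∅ : Finset V) : Set V)) =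
        MonoidHom.id _ := ghom_ext fun v hv a => absurd hv (by simp)
    exact DFunLike.congr_fun h1 p.2
  · have hWv : (W : Set V) = insert v ((W.erase v : Finset V) : Set V) := by
      rw [← Finset.coe_insert, Finset.insert_erase hv]
    have hcard : (W.erase v).card < n := by
      rw [← hW]
      exact Finset.card_erase_lt_of_mem hv
    have hcard' : ((W.erase v).filter (Γ.Adj v)).card < n :=
      lt_of_le_of_lt (Finset.card_filter_le _ _) hcard
    rw [hWv]
    refine step (L := (((W.erase v).filter (Γ.Adj v) : Finset V) : Set V)) ?_ ?_ ?_ ?_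
    · rw [Finset.mem_coe]
      exact Finset.notMem_erase v W
    · intro w
      rw [Finset.mem_coe, Finset.mem_coe, Finset.mem_filter]
    · exact ih _ hcard _ rfl S fun K hK hcl => h K (hK.trans (Finset.erase_subset v W)) hcl
    · have h2 : L1Bass ((S × G v) × GPs Γ G
          (((W.erase v).filter (Γ.Adj v) : Finset V) : Set V)) := by
        refine ih _ hcard' _ rfl (S × G v) fun K hK hcl => ?_
        have hvK : v ∉ K := fun hvK =>
          absurd (Finset.mem_filter.1 (hK hvK)).2 (SimpleGraph.irrefl Γ)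
        refine clique_step hvK (h (insert v K) ?_ ?_)
        · intro w hw
          rcases Finset.mem_insert.1 hw with rfl | hw
          · exact hv
          · exact Finset.mem_of_mem_erase (Finset.mem_filter.1 (hK hw)).1
        · rw [Finset.coe_insert, SimpleGraph.isClique_insert]
          exact ⟨hcl, fun b hb _ => (Finset.mem_filter.1 (hK hb)).2⟩
      exact l1Bass_retract (MulEquiv.prodAssoc (M := S) (N := G v)).symm.toMonoidHom
        (MulEquiv.prodAssoc (M := S) (N := G v)).toMonoidHom (fun _ => rfl) h2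

open Classical in
/-- the map to the product of the vertex groups -/
noncomputable def toPi : GP Γ G →* ∀ v, G v :=
  GP.lift (fun v => MonoidHom.mulSingle G v) fun _ _ h a b =>
    Pi.mulSingle_commute (f := G) h.ne a b

open Classical in
theorem toPi_of (v : V) (a : G v) : toPi (Γ := Γ) (GP.of v a) = Pi.mulSingle v a :=
  GP.lift_of _ _ _ _

/-- the inclusion of a part -/
def ginc (W : Set V) : GPs Γ G W →* GP Γ G :=
  glift (fun v _ => GP.of v) fun _ _ _ _ hvw a b => GP.comm hvw a b

open Classical in
/-- the retraction to a part -/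
noncomputable def gres (W : Set V) : GP Γ G →* GPs Γ G W :=
  GP.lift (fun v => if h : v ∈ W then gof v h else 1) (by
    intro v w hvw a b
    by_cases h : v ∈ W
    · by_cases h' : w ∈ W
      · rw [dif_pos h, dif_pos h']
        exact gcomm h h' hvw a b
      · rw [dif_neg h']
        exact Commute.one_right _
    · rw [dif_neg h]
      exact Commute.one_left _)

theorem exists_part (z : GP Γ G) : ∃ W : Finset V, ∀ W' : Finset V, W ⊆ W' →
    ginc (W' : Set V) (gres (W' : Set V) z) = z := by
  classical
  induction z using GP.induction with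
  | h1 => exact ⟨∅, fun W' _ => by rw [map_one, map_one]⟩
  | hof v a =>
    refine ⟨{v}, fun W' hW' => ?_⟩
    have h : v ∈ (W' : Set V) := Finset.mem_coe.2 (hW' (Finset.mem_singleton_self v))
    unfold gres
    rw [GP.lift_of, dif_pos h]
    unfold ginc
    rw [glift_gof]
  | hmul y z hy hz =>
    obtain ⟨W₁, h1⟩ := hy
    obtain ⟨W₂, h2⟩ := hz
    refine ⟨W₁ ∪ W₂, fun W' hW' => ?_⟩
    rw [map_mul, map_mul, h1 W' (Finset.subset_union_left.trans hW'),
      h2 W' (Finset.subset_union_right.trans hW')]

end

/-- **Graph products**, with a spectator. -/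
theorem graphProduct {V : Type u} (Γ : SimpleGraph V) (G : V → Type v) [∀ v, Group (G v)]
    (S : Type x) [Group S] :
    L1Bass (S × GP Γ G) ↔
      ∀ K : Finset V, Γ.IsClique (K : Set V) → L1Bass (S × ∀ k : K, G k) := by
  classical
  constructor
  · intro h K hK
    have hcomm : Pairwise fun i j : K => ∀ (a : G i) (b : G j),
        Commute (GP.of (Γ := Γ) (i : V) a) (GP.of (j : V) b) := by
      intro i j hij a b
      exact GP.comm (hK i.2 j.2 fun h => hij (Subtype.ext h)) a b
    let ι₀ : (∀ k : K, G k) →* GP Γ G :=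
      MonoidHom.noncommPiCoprod (fun k : K => GP.of (Γ := Γ) (G := G) (k : V)) hcomm
    let π₀ : GP Γ G →* ∀ k : K, G k :=
      (MonoidHom.pi fun k : K => Pi.evalMonoidHom G (k : V)).comp toPi
    have h0 : ∀ y, π₀ (ι₀ y) = y := by
      have h1 : π₀.comp ι₀ = MonoidHom.id _ := by
        refine MonoidHom.pi_ext fun i a => ?_
        change π₀ (ι₀ (Pi.mulSingle i a)) = Pi.mulSingle i a
        have h2 : ι₀ (Pi.mulSingle i a) = GP.of (i : V) a :=
          MonoidHom.noncommPiCoprod_mulSingle _ _ _
        rw [h2]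
        refine funext fun k => ?_
        change toPi (Γ := Γ) (GP.of (i : V) a) (k : V) = _
        rw [toPi_of]
        by_cases hki : k = i
        · subst hki
          rw [Pi.mulSingle_eq_same, Pi.mulSingle_eq_same]
        · rw [Pi.mulSingle_eq_of_ne hki, Pi.mulSingle_eq_of_ne fun h => hki (Subtype.ext h)]
      exact fun y => DFunLike.congr_fun h1 y
    exact l1Bass_retract ((MonoidHom.id S).prodMap ι₀) ((MonoidHom.id S).prodMap π₀)
      (fun y => Prod.ext rfl (h0 y.2)) h
  · intro h
    have hfin : ∀ W : Finset V, L1Bass (ULift.{v} S × GPs Γ G (W : Set V)) := by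
      intro W
      refine finite_case.{u, v, x} _ W rfl (ULift.{v} S) fun K _ hK => ?_
      exact l1Bass_retract
        ((MulEquiv.ulift : ULift.{v} S ≃* S).toMonoidHom.prodMap (MonoidHom.id (∀ k : K, G k)))
        ((MulEquiv.ulift : ULift.{v} S ≃* S).symm.toMonoidHom.prodMap
          (MonoidHom.id (∀ k : K, G k))) (fun _ => rfl) (h K hK)
    refine l1Bass_of_local.{max u v x, max u v x} fun T => ?_
    choose W hW using exists_part (Γ := Γ) (G := G)
    let W₀ : Finset V := T.biUnion fun p => W p.2
    refine ⟨ULift.{v} S × GPs Γ G (W₀ : Set V), inferInstance,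
      (MulEquiv.ulift : ULift.{v} S ≃* S).toMonoidHom.prodMap (ginc (W₀ : Set V)),
      (MulEquiv.ulift : ULift.{v} S ≃* S).symm.toMonoidHom.prodMap (gres (W₀ : Set V)),
      ⟨?_, ?_⟩, hfin W₀⟩
    · intro p hp
      exact Prod.ext rfl (hW p.2 W₀ (Finset.subset_biUnion_of_mem (fun p => W p.2) hp))
    · intro p _ q _ _
      exact (map_mul ((MulEquiv.ulift : ULift.{v} S ≃* S).symm.toMonoidHom.prodMap
        (gres (Γ := Γ) (G := G) (W₀ : Set V))) p q).symm

/-- Graph products, without spectator. -/
theorem graphProduct' {V : Type u} (Γ : SimpleGraph V) (G : V → Type v) [∀ v, Group (G v)] :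
    L1Bass (GP Γ G) ↔ ∀ K : Finset V, Γ.IsClique (K : Set V) → L1Bass (∀ k : K, G k) := by
  have h0 : ∀ (P : Type (max u v)) [Group P], L1Bass (Unit × P) ↔ L1Bass P := fun P _ =>
    ⟨l1Bass_retract (MonoidHom.inr Unit P) (MonoidHom.snd Unit P) fun _ => rfl,
      l1Bass_retract (MonoidHom.snd Unit P) (MonoidHom.inr Unit P) fun _ => rfl⟩
  rw [← h0 (GP Γ G), graphProduct Γ G Unit]
  refine forall_congr' fun K => forall_congr' fun _ => ?_
  exact h0 (∀ k : K, G k)

end Vale.Agent.P184.H977
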