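import Mathlib

/-!
# The restricted regular wreath product of two arbitrary groups
-/

namespace Vale.Agent.P184.H977

/-- The restricted regular wreath product of the groups `B` and `Q`: pairs of a function `Q → B`
which is trivial outside a finite set, and an element of `Q`. -/
@[ext] structure RW (B Q : Type*) [Group B] [Group Q] where
  /-- the function -/
  fn : Q → B
  /-- the element of `Q` -/
  pt : Q
  fin : {x | fn x ≠ 1}.Finite

namespace RW

variable {B Q : Type*} [Group B] [Group Q]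

theorem fin_shift (f : Q → B) (hf : {x | f x ≠ 1}.Finite) (s : Q) :
    {x | f (s * x) ≠ 1}.Finite :=
  hf.preimage (f := fun x => s * x) (mul_right_injective s).injOn

omit [Group Q] in
theorem fin_mul (f g : Q → B) (hf : {x | f x ≠ 1}.Finite) (hg : {x | g x ≠ 1}.Finite) :
    {x | f x * g x ≠ 1}.Finite := by
  refine (hf.union hg).subset fun x hx => ?_
  by_contra h
  rw [Set.mem_union, not_or] at h
  have h1 : f x = 1 := not_not.1 h.1
  have h2 : g x = 1 := not_not.1 h.2
  exact hx (by rw [h1, h2, one_mul])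

instance : Mul (RW B Q) :=
  ⟨fun a b => ⟨fun x => a.fn x * b.fn (a.pt⁻¹ * x), a.pt * b.pt,
    fin_mul _ _ a.fin (fin_shift _ b.fin _)⟩⟩

instance : One (RW B Q) := ⟨⟨fun _ => 1, 1, by simp⟩⟩

instance : Inv (RW B Q) := ⟨fun a => ⟨fun x => (a.fn (a.pt * x))⁻¹, a.pt⁻¹, by
  simpa using fin_shift _ a.fin _⟩⟩

theorem mul_fn (a b : RW B Q) (x : Q) : (a * b).fn x = a.fn x * b.fn (a.pt⁻¹ * x) := rfl
theorem mul_pt (a b : RW B Q) : (a * b).pt = a.pt * b.pt := rfl
theorem one_fn (x : Q) : (1 : RW B Q).fn x = 1 := rfl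
theorem one_pt : (1 : RW B Q).pt = 1 := rfl
theorem inv_fn (a : RW B Q) (x : Q) : (a⁻¹).fn x = (a.fn (a.pt * x))⁻¹ := rfl
theorem inv_pt (a : RW B Q) : (a⁻¹).pt = a.pt⁻¹ := rfl

theorem ext' {a b : RW B Q} (h : ∀ x, a.fn x = b.fn x) (h' : a.pt = b.pt) : a = b :=
  RW.ext (funext h) h'

/-- The multiplication is `(f, s) (g, t) = (x ↦ f x * g (s⁻¹ * x), s * t)`. -/
instance : Group (RW B Q) :=
  Group.ofLeftAxioms
    (fun a b c => ext'
      (fun x => by rw [mul_fn, mul_fn, mul_fn, mul_fn, mul_pt, mul_assoc, mul_inv_rev, mul_assoc])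
      (by rw [mul_pt, mul_pt, mul_pt, mul_pt, mul_assoc]))
    (fun a => ext' (fun x => by rw [mul_fn, one_fn, one_pt, inv_one, one_mul, one_mul])
      (by rw [mul_pt, one_pt, one_mul]))
    (fun a => ext'
      (fun x => by rw [mul_fn, one_fn, inv_fn, inv_pt, inv_inv, inv_mul_cancel])
      (by rw [mul_pt, inv_pt, one_pt, inv_mul_cancel]))

/-- the projection to `Q` -/
def proj : RW B Q →* Q where
  toFun := RW.pt
  map_one' := rfl
  map_mul' _ _ := rfl

/-- the inclusion of `Q` -/
def incl : Q →* RW B Q where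
  toFun s := ⟨fun _ => 1, s, by simp⟩
  map_one' := rfl
  map_mul' s t := ext' (fun x => by rw [mul_fn]; exact (one_mul _).symm) rfl

theorem proj_apply (a : RW B Q) : proj a = a.pt := rfl
theorem incl_fn (s x : Q) : (incl s : RW B Q).fn x = 1 := rfl
theorem incl_pt (s : Q) : (incl s : RW B Q).pt = s := rfl

end RW

end Vale.Agent.P184.H977
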