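import Vale.Agent.P184.H977.RW
import Vale.Agent.P184.H977.El

/-!
# P184: wreath products with arbitrary base: elements of infinite order in the top group
-/

namespace Vale.Agent.P184.H977

open Vale.Agent.P184 Vale.Agent.P184.H290

universe u v

section

variable {B : Type u} {Q : Type v} [Group B] [Group Q]

/-- the preimage of the cyclic subgroup generated by `s` -/
def Hs (B : Type u) {Q : Type v} [Group B] [Group Q] (s : Q) : Subgroup (RW B Q) :=
  (Subgroup.zpowers s).comap RW.proj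

theorem mem_Hs {s : Q} {a : RW B Q} : a ∈ Hs B s ↔ a.pt ∈ Subgroup.zpowers s := Iff.rfl

open Classical in
/-- killing the coordinates in the cyclic subgroup generated by `s` -/
noncomputable def kap (s : Q) : Hs B s →* Hs B s where
  toFun h := ⟨⟨fun x => if x ∈ Subgroup.zpowers s then 1 else h.1.fn x, h.1.pt,
    h.1.fin.subset fun x hx h0 => hx (by
      by_cases h1 : x ∈ Subgroup.zpowers s
      · rw [if_pos h1]
      · rw [if_neg h1, h0])⟩, h.2⟩
  map_one' := by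
    refine Subtype.ext (RW.ext' (fun x => ?_) rfl)
    change (if x ∈ Subgroup.zpowers s then (1 : B) else 1) = 1
    rw [ite_self]
  map_mul' a b := by
    refine Subtype.ext (RW.ext' (fun x => ?_) rfl)
    change (if x ∈ Subgroup.zpowers s then (1 : B) else a.1.fn x * b.1.fn (a.1.pt⁻¹ * x)) =
      (if x ∈ Subgroup.zpowers s then (1 : B) else a.1.fn x) *
        (if a.1.pt⁻¹ * x ∈ Subgroup.zpowers s then (1 : B) else b.1.fn (a.1.pt⁻¹ * x))
    have h : a.1.pt⁻¹ * x ∈ Subgroup.zpowers s ↔ x ∈ Subgroup.zpowers s :=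
      Subgroup.mul_mem_cancel_left _ (inv_mem a.2)
    by_cases h1 : x ∈ Subgroup.zpowers s
    · rw [if_pos h1, if_pos h1, if_pos (h.2 h1), one_mul]
    · rw [if_neg h1, if_neg h1, if_neg fun h2 => h1 (h.1 h2)]

theorem kap_fn {s : Q} (h : Hs B s) {x : Q} (hx : x ∈ Subgroup.zpowers s) :
    (kap s h).1.fn x = 1 := if_pos hx

theorem kap_fn' {s : Q} (h : Hs B s) {x : Q} (hx : x ∉ Subgroup.zpowers s) :
    (kap s h).1.fn x = h.1.fn x := if_neg hx

theorem kap_pt {s : Q} (h : Hs B s) : (kap s h).1.pt = h.1.pt := rfl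

/-- representatives of the cosets in the top group -/
noncomputable def rp (s : Q) (x : RW B Q ⧸ Hs B s) : Q := x.out.pt

/-- the section with values in the top group -/
noncomputable def sec (s : Q) (x : RW B Q ⧸ Hs B s) : RW B Q := RW.incl (rp s x)

theorem mk_incl {s p q : Q} (h : p⁻¹ * q ∈ Subgroup.zpowers s) :
    ((RW.incl p : RW B Q) : RW B Q ⧸ Hs B s) = ((RW.incl q : RW B Q) : RW B Q ⧸ Hs B s) := by
  rw [QuotientGroup.eq, mem_Hs, RW.mul_pt, RW.inv_pt, RW.incl_pt, RW.incl_pt]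
  exact h

theorem sec_mk (s : Q) (x : RW B Q ⧸ Hs B s) : (sec s x : RW B Q ⧸ Hs B s) = x := by
  have h1 : (x.out : RW B Q ⧸ Hs B s) = x := QuotientGroup.out_eq' x
  conv_rhs => rw [← h1]
  rw [QuotientGroup.eq, mem_Hs, RW.mul_pt, RW.inv_pt]
  change (x.out.pt)⁻¹ * x.out.pt ∈ _
  rw [inv_mul_cancel]
  exact one_mem _

/-- the section cocycle -/
noncomputable def al (s : Q) (g : RW B Q) (x : RW B Q ⧸ Hs B s) : Hs B s :=
  ⟨(sec s (g • x))⁻¹ * (g * sec s x), by
    rw [← QuotientGroup.eq, sec_mk]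
    have h := congrArg (g • ·) (sec_mk s x)
    exact h.symm⟩

theorem al_eq (s : Q) (g : RW B Q) (x : RW B Q ⧸ Hs B s) :
    g * sec s x = sec s (g • x) * (al s g x : RW B Q) := (mul_inv_cancel_left _ _).symm

theorem al_fn (s : Q) (g : RW B Q) (x : RW B Q ⧸ Hs B s) (y : Q) :
    (al s g x).1.fn y = g.fn (rp s (g • x) * y) := by
  change ((sec s (g • x))⁻¹ * (g * sec s x)).fn y = _
  rw [RW.mul_fn, RW.inv_fn, RW.mul_fn, RW.inv_pt, inv_inv]
  change (1 : B)⁻¹ * (g.fn (rp s (g • x) * y) * 1) = _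
  rw [inv_one, one_mul, mul_one]

theorem al_fin (s : Q) (g : RW B Q) : {x | al s g x ≠ kap s (al s g x)}.Finite := by
  have h1 := (g.fin.image fun z => ((RW.incl z : RW B Q) : RW B Q ⧸ Hs B s)).preimage
    (f := fun x => g • x) (MulAction.injective g).injOn
  refine h1.subset fun x hx => ?_
  have h2 : ∃ y ∈ Subgroup.zpowers s, g.fn (rp s (g • x) * y) ≠ 1 := by
    by_contra h
    push Not at h
    refine hx (Subtype.ext (RW.ext' (fun y => ?_) rfl))
    by_cases hy : y ∈ Subgroup.zpowers s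
    · rw [kap_fn _ hy, al_fn, h y hy]
    · rw [kap_fn' _ hy]
  obtain ⟨y, hy, h3⟩ := h2
  refine ⟨_, h3, ?_⟩
  have h4 : ((RW.incl (rp s (g • x) * y) : RW B Q) : RW B Q ⧸ Hs B s) =
      ((RW.incl (rp s (g • x)) : RW B Q) : RW B Q ⧸ Hs B s) := by
    refine mk_incl ?_
    rw [mul_inv_rev, inv_mul_cancel_right]
    exact inv_mem hy
  exact h4.trans (sec_mk s (g • x))

theorem spec_kap (hP : RowP.{max u v, max u v, max u v}) (s : Q) :
    Spec (al (B := B) s) fun D => ∀ g x, ConjClasses.mk (kap s (al s g x)) ≠ D :=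
  hP (al s) (fun g x => kap s (al s g x)) (coc_mul (al_eq s))
    (fun g h x => by rw [coc_mul (al_eq s), map_mul]) (al_fin s)

/-- the element `t` seen from the site `y` -/
def tr (t : RW B Q) (y : Q) : Hs B (y⁻¹ * t.pt * y) :=
  ⟨(RW.incl y)⁻¹ * t * RW.incl y, Subgroup.mem_zpowers _⟩

theorem tr_fn (t : RW B Q) (y x : Q) : (tr t y).1.fn x = t.fn (y * x) := by
  change ((RW.incl y)⁻¹ * t * RW.incl y).fn x = _
  rw [RW.mul_fn, RW.mul_fn, RW.inv_fn, RW.inv_pt, RW.incl_fn, RW.incl_fn, RW.incl_pt, inv_one,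
    one_mul, mul_one, inv_inv]

theorem mk_tr (t : RW B Q) (y : Q) : ConjClasses.mk ((tr t y : Hs B _) : RW B Q) =
    ConjClasses.mk t := by
  rw [ConjClasses.mk_eq_mk_iff_isConj, isConj_iff]
  refine ⟨RW.incl y, ?_⟩
  change RW.incl y * ((RW.incl y)⁻¹ * t * RW.incl y) * (RW.incl y)⁻¹ = t
  group

/-- `t` is conjugate to an element with trivial coordinates at the site `y` -/
def Lt (t : RW B Q) (y : Q) : Prop :=
  ∃ g : Q → B, {x | g x ≠ 1}.Finite ∧ ∀ z, z * y⁻¹ ∈ Subgroup.zpowers t.pt →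
    g z * t.fn z = g (t.pt⁻¹ * z)

theorem local_conj (t : RW B Q) (y : Q) (h : Hs B (y⁻¹ * t.pt * y))
    (hh : ConjClasses.mk (kap _ h) = ConjClasses.mk (tr t y)) : Lt t y := by
  obtain ⟨c, hc⟩ := isConj_iff.1 (ConjClasses.mk_eq_mk_iff_isConj.1 hh.symm)
  have hc' : c.1 * (tr t y).1 = (kap _ h).1 * c.1 := by
    have := congrArg Subtype.val hc
    rw [Subgroup.coe_mul, Subgroup.coe_mul, Subgroup.coe_inv, mul_inv_eq_iff_eq_mul] at this
    exact this
  have hcomm : c.1.pt * (y⁻¹ * t.pt * y) = (y⁻¹ * t.pt * y) * c.1.pt := by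
    obtain ⟨k, hk⟩ := Subgroup.mem_zpowers_iff.1 (mem_Hs.1 c.2)
    rw [← hk]
    exact (Commute.refl _).zpow_left k
  have hpt : (kap _ h).1.pt = y⁻¹ * t.pt * y := by
    have h1 := congrArg RW.pt hc'
    rw [RW.mul_pt, RW.mul_pt] at h1
    have h2 : (tr t y).1.pt = y⁻¹ * t.pt * y := rfl
    rw [h2, hcomm] at h1
    exact (mul_right_cancel h1).symm
  refine ⟨fun z => c.1.fn (c.1.pt * (y⁻¹ * z)), ?_, ?_⟩
  · exact RW.fin_shift (fun z => c.1.fn (c.1.pt * z)) (RW.fin_shift _ c.1.fin _) y⁻¹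
  · intro z hz
    have hz' : c.1.pt * (y⁻¹ * z) ∈ Subgroup.zpowers (y⁻¹ * t.pt * y) := by
      refine mul_mem (mem_Hs.1 c.2) ?_
      obtain ⟨k, hk⟩ := Subgroup.mem_zpowers_iff.1 hz
      refine Subgroup.mem_zpowers_iff.2 ⟨k, ?_⟩
      have h3 : y⁻¹ * t.pt * y = y⁻¹ * t.pt * y⁻¹⁻¹ := by rw [inv_inv]
      rw [h3, conj_zpow, hk]
      group
    have h1 := congrFun (congrArg RW.fn hc') (c.1.pt * (y⁻¹ * z))
    rw [RW.mul_fn, RW.mul_fn, kap_fn _ hz', one_mul, tr_fn, hpt, inv_mul_cancel_left,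
      mul_inv_cancel_left] at h1
    change c.1.fn (c.1.pt * (y⁻¹ * z)) * t.fn z = c.1.fn (c.1.pt * (y⁻¹ * (t.pt⁻¹ * z)))
    rw [h1]
    congr 1
    have h4 : (y⁻¹ * t.pt * y)⁻¹ * c.1.pt = c.1.pt * (y⁻¹ * t.pt * y)⁻¹ := by
      have : Commute (y⁻¹ * t.pt * y) c.1.pt := hcomm.symm
      exact this.inv_left.eq
    rw [← mul_assoc, h4]
    group

theorem conj_of_lt (t : RW B Q) (hloc : ∀ y, Lt t y) : IsConj t (RW.incl t.pt) := by
  classical
  choose g hg1 hg2 using hloc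
  let R : Setoid Q := QuotientGroup.rightRel (Subgroup.zpowers t.pt)
  let p : Q → Quotient R := fun x => Quotient.mk R x
  have hp : ∀ x y : Q, p x = p y ↔ y * x⁻¹ ∈ Subgroup.zpowers t.pt := fun x y =>
    Quotient.eq.trans QuotientGroup.rightRel_apply
  have hS : (p '' {x | t.fn x ≠ 1}).Finite := t.fin.image p
  let G : Q → B := fun z => if p z ∈ p '' {x | t.fn x ≠ 1} then g (p z).out z else 1
  have hG : {x | G x ≠ 1}.Finite := by
    refine (hS.biUnion fun c _ => hg1 c.out).subset fun x hx => ?_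
    by_cases h1 : p x ∈ p '' {x | t.fn x ≠ 1}
    · refine Set.mem_biUnion h1 ?_
      have h2 : G x = g (p x).out x := if_pos h1
      change g (p x).out x ≠ 1
      rw [← h2]
      exact hx
    · exact absurd (if_neg h1) hx
  refine isConj_iff.2 ⟨⟨G, 1, hG⟩, ?_⟩
  rw [mul_inv_eq_iff_eq_mul]
  refine RW.ext' (fun z => ?_) ?_
  · rw [RW.mul_fn, RW.mul_fn, RW.incl_fn, RW.incl_pt, one_mul]
    change G z * t.fn ((1 : Q)⁻¹ * z) = G (t.pt⁻¹ * z)
    rw [inv_one, one_mul]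
    have h1 : p (t.pt⁻¹ * z) = p z := by
      rw [hp]
      have : z * (t.pt⁻¹ * z)⁻¹ = t.pt := by group
      rw [this]
      exact Subgroup.mem_zpowers _
    by_cases h2 : p z ∈ p '' {x | t.fn x ≠ 1}
    · have h3 : G z = g (p z).out z := if_pos h2
      have h4 : G (t.pt⁻¹ * z) = g (p z).out (t.pt⁻¹ * z) := by
        change (if p (t.pt⁻¹ * z) ∈ _ then g (p (t.pt⁻¹ * z)).out (t.pt⁻¹ * z) else 1) = _
        rw [h1]
        exact if_pos h2
      rw [h3, h4]
      refine hg2 _ _ ?_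
      rw [← hp]
      exact Quotient.out_eq (p z)
    · have h3 : G z = 1 := if_neg h2
      have h4 : G (t.pt⁻¹ * z) = 1 := by
        refine if_neg ?_
        rw [h1]
        exact h2
      have h5 : t.fn z = 1 := by
        by_contra h5
        exact h2 ⟨z, h5, rfl⟩
      rw [h3, h4, h5, one_mul]
  · rw [RW.mul_pt, RW.mul_pt, RW.incl_pt]
    exact (one_mul _).trans (mul_one _).symm

/-- An element not conjugate into the top group is charged at some site. -/
theorem exists_site (t : RW B Q) (ht : ¬ IsConj t (RW.incl t.pt)) :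
    ∃ y : Q, ∀ h, ConjClasses.mk (kap _ h) ≠ ConjClasses.mk (tr t y) := by
  by_contra hcon
  push Not at hcon
  refine ht (conj_of_lt t fun y => ?_)
  obtain ⟨h, hh⟩ := hcon y
  exact local_conj t y h hh

theorem lt_of_triv (t : RW B Q) (y : Q)
    (h : ∀ z, z * y⁻¹ ∈ Subgroup.zpowers t.pt → t.fn z = 1) : Lt t y :=
  ⟨fun _ => 1, by simp, fun z hz => by rw [h z hz, mul_one]⟩

theorem lt_conj (t c : RW B Q) (y : Q) (h : Lt t y) : Lt (c * t * c⁻¹) (c.pt * y) := by
  obtain ⟨g, hg1, hg2⟩ := h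
  have hc : c * t * c⁻¹ * c = c * t := by group
  have hpt : (c * t * c⁻¹).pt = c.pt * t.pt * c.pt⁻¹ := rfl
  refine ⟨fun z => g (c.pt⁻¹ * z) * (c.fn z)⁻¹, ?_, fun z hz => ?_⟩
  · refine RW.fin_mul (fun z => g (c.pt⁻¹ * z)) (fun z => (c.fn z)⁻¹) (RW.fin_shift _ hg1 _) ?_
    simpa using c.fin
  · have h1 := congrFun (congrArg RW.fn hc) z
    rw [RW.mul_fn, RW.mul_fn c t] at h1
    have h2 : (c * t * c⁻¹).fn z = c.fn z * t.fn (c.pt⁻¹ * z) *
        (c.fn ((c * t * c⁻¹).pt⁻¹ * z))⁻¹ := eq_mul_inv_of_mul_eq h1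
    have h3 : c.pt⁻¹ * z * y⁻¹ ∈ Subgroup.zpowers t.pt := by
      obtain ⟨k, hk⟩ := Subgroup.mem_zpowers_iff.1 hz
      refine Subgroup.mem_zpowers_iff.2 ⟨k, ?_⟩
      rw [hpt, conj_zpow] at hk
      have h4 : t.pt ^ k = c.pt⁻¹ * (c.pt * t.pt ^ k * c.pt⁻¹) * c.pt := by group
      rw [h4, hk]
      group
    have h4 := hg2 _ h3
    have h5 : t.pt⁻¹ * (c.pt⁻¹ * z) = c.pt⁻¹ * ((c * t * c⁻¹).pt⁻¹ * z) := by
      rw [hpt]
      group
    rw [h5] at h4
    change g (c.pt⁻¹ * z) * (c.fn z)⁻¹ * (c * t * c⁻¹).fn z =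
      g (c.pt⁻¹ * ((c * t * c⁻¹).pt⁻¹ * z)) * (c.fn ((c * t * c⁻¹).pt⁻¹ * z))⁻¹
    rw [← h4, h2]
    group

theorem conj_incl {t : RW B Q} {w : Q} (h : IsConj t (RW.incl w)) : IsConj t (RW.incl t.pt) := by
  have h1 := (RW.proj (B := B) (Q := Q)).map_isConj h
  exact h.trans ((RW.incl (B := B) (Q := Q)).map_isConj h1.symm)

theorem charged_of_inf {s : Q} (hs : ¬ IsOfFinOrder s) (t : Hs B s) (ht : t.1.pt = s) :
    Charged t := by
  have hinj := injective_zpow_iff_not_isOfFinOrder.2 hs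
  have hex : ∀ h : Hs B s, ∃ k : ℤ, s ^ k = h.1.pt := fun h =>
    Subgroup.mem_zpowers_iff.1 (mem_Hs.1 h.2)
  choose k hk using hex
  have hadd : ∀ g h, k (g * h) = k g + k h := by
    intro g h
    refine hinj ?_
    change s ^ k (g * h) = s ^ (k g + k h)
    rw [zpow_add, hk, hk, hk]
    rfl
  have h1 : k t = 1 := by
    refine hinj ?_
    change s ^ k t = s ^ (1 : ℤ)
    rw [hk, ht, zpow_one]
  refine ⟨fun h => k h, fun h => k h, fun g h => ?_, fun g h _ _ => ?_, fun g _ => le_refl _, ?_⟩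
  · simp only [hadd, Int.cast_add, le_refl]
  · simp only [hadd, Int.cast_add]
  · simp only [h1, Int.cast_one, ne_eq, one_ne_zero, not_false_eq_true]

/-- **W1.** The traces vanish at the elements of `B ≀ Q` which map to an element of infinite
order of `Q` and are not conjugate to an element of `Q`. -/
theorem vanish_inf (hP : RowP.{max u v, max u v, max u v}) (t : RW B Q)
    (ht : ¬ IsOfFinOrder t.pt) (hc : ∀ w : Q, ¬ IsConj t (RW.incl w)) : VanishesAt t := by
  obtain ⟨y, hy⟩ := exists_site t (hc t.pt)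
  have hs : ¬ IsOfFinOrder (y⁻¹ * t.pt * y) := by
    intro h
    refine ht ?_
    have h1 := (MulAut.conj y).toMonoidHom.isOfFinOrder h
    have h2 : (MulAut.conj y).toMonoidHom (y⁻¹ * t.pt * y) = t.pt := by
      change y * (y⁻¹ * t.pt * y) * y⁻¹ = t.pt
      group
    rwa [h2] at h1
  have h1 : VanishesAt ((tr t y : Hs B _) : RW B Q) :=
    vanish (sec_mk _) (al_eq _) (al_fin _) (spec_kap hP _) (fun g x => hy _)
      (vanishesAt_of_charged (charged_of_inf hs (tr t y) rfl))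
  intro q e he
  rw [← mk_tr t y]
  exact h1 q e he

end

end Vale.Agent.P184.H977
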