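import Vale.Agent.P184.H977.W1

/-!
# P184: wreath products with arbitrary base: the groups over cyclic subgroups, locally
-/

namespace Vale.Agent.P184.H977

open Vale.Agent.P184 Vale.Agent.P184.H290

universe u v w

section

variable {B : Type u} {Q : Type v} [Group B] [Group Q] {J : Type w} [Finite J] {s : Q}

open Classical in
/-- functions supported on the orbits of the sites `r j` -/
noncomputable def ef (s : Q) (r : J → Q) (f : Subgroup.zpowers s → J → B) (x : Q) : B :=
  if h : ∃ j, x * (r j)⁻¹ ∈ Subgroup.zpowers s then f ⟨_, h.choose_spec⟩ h.choose else 1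

omit [Finite J] in
theorem ef_apply {r : J → Q} (hr : ∀ i j, r j * (r i)⁻¹ ∈ Subgroup.zpowers s → i = j)
    (f : Subgroup.zpowers s → J → B) (y : Subgroup.zpowers s) (j : J) :
    ef s r f (y * r j) = f y j := by
  have h : ∃ i, (y * r j) * (r i)⁻¹ ∈ Subgroup.zpowers s :=
    ⟨j, by rw [mul_inv_cancel_right]; exact y.2⟩
  have h1 : ef s r f (y * r j) = f ⟨_, h.choose_spec⟩ h.choose := dif_pos h
  have h2 : h.choose = j := by
    refine hr _ _ ?_
    have h3 := h.choose_spec
    rw [mul_assoc] at h3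
    exact (Subgroup.mul_mem_cancel_left _ y.2).1 h3
  rw [h1]
  have h4 : (⟨_, h.choose_spec⟩ : Subgroup.zpowers s) = y := by
    refine Subtype.ext ?_
    change y * r j * (r h.choose)⁻¹ = y
    rw [h2, mul_inv_cancel_right]
  rw [h4, h2]

omit [Finite J] in
theorem ef_apply' {r : J → Q} (f : Subgroup.zpowers s → J → B) {x : Q}
    (hx : ∀ j, x * (r j)⁻¹ ∉ Subgroup.zpowers s) : ef s r f x = 1 :=
  dif_neg fun ⟨j, hj⟩ => hx j hj

omit [Finite J] in
theorem ef_cases (s : Q) (r : J → Q) (x : Q) :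
    (∃ (y : Subgroup.zpowers s) (j : J), x = y * r j) ∨
      ∀ j, x * (r j)⁻¹ ∉ Subgroup.zpowers s := by
  by_cases h : ∃ j, x * (r j)⁻¹ ∈ Subgroup.zpowers s
  · obtain ⟨j, hj⟩ := h
    exact Or.inl ⟨⟨_, hj⟩, j, (inv_mul_cancel_right _ _).symm⟩
  · exact Or.inr fun j hj => h ⟨j, hj⟩

theorem ef_fin {r : J → Q} (hr : ∀ i j, r j * (r i)⁻¹ ∈ Subgroup.zpowers s → i = j)
    (f : Subgroup.zpowers s → J → B) (hf : {x | f x ≠ 1}.Finite) :
    {x | ef s r f x ≠ 1}.Finite := by
  refine (Set.finite_iUnion fun j : J =>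
    hf.image fun y : Subgroup.zpowers s => (y : Q) * r j).subset fun x hx => ?_
  rcases ef_cases s r x with ⟨y, j, rfl⟩ | h
  · refine Set.mem_iUnion.2 ⟨j, y, fun h => hx ?_, rfl⟩
    rw [ef_apply hr, h]
    rfl
  · exact absurd (ef_apply' f h) hx

/-- the extension of functions on finitely many orbits -/
noncomputable def ex {r : J → Q} (hr : ∀ i j, r j * (r i)⁻¹ ∈ Subgroup.zpowers s → i = j) :
    RW (J → B) (Subgroup.zpowers s) →* Hs B s where
  toFun a := ⟨⟨ef s r a.fn, a.pt, ef_fin hr _ a.fin⟩, a.pt.2⟩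
  map_one' := by
    refine Subtype.ext (RW.ext' (fun x => ?_) rfl)
    rcases ef_cases s r x with ⟨y, j, rfl⟩ | h
    · exact ef_apply hr _ _ _
    · exact ef_apply' _ h
  map_mul' a b := by
    refine Subtype.ext (RW.ext' (fun x => ?_) rfl)
    change ef s r (a * b).fn x = ef s r a.fn x * ef s r b.fn ((a.pt : Q)⁻¹ * x)
    rcases ef_cases s r x with ⟨y, j, rfl⟩ | h
    · have h1 : (a.pt : Q)⁻¹ * (y * r j) = ((a.pt⁻¹ * y : Subgroup.zpowers s) : Q) * r j := by
        rw [Subgroup.coe_mul, Subgroup.coe_inv, mul_assoc]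
      rw [h1, ef_apply hr, ef_apply hr, ef_apply hr]
      rfl
    · have h1 : ∀ j, (a.pt : Q)⁻¹ * x * (r j)⁻¹ ∉ Subgroup.zpowers s := fun j hj => h j (by
        rw [mul_assoc] at hj
        exact (Subgroup.mul_mem_cancel_left _ (inv_mem a.pt.2)).1 hj)
      rw [ef_apply' _ h, ef_apply' _ h, ef_apply' _ h1, one_mul]

/-- the restriction to finitely many orbits -/
def res (s : Q) (r : J → Q) : Hs B s →* RW (J → B) (Subgroup.zpowers s) where
  toFun h := ⟨fun y j => h.1.fn (y * r j), ⟨h.1.pt, h.2⟩, by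
    have h1 : ∀ j, {y : Subgroup.zpowers s | h.1.fn (y * r j) ≠ 1}.Finite := fun j =>
      h.1.fin.preimage (f := fun y : Subgroup.zpowers s => (y : Q) * r j)
        (fun y _ z _ hyz => Subtype.ext (mul_right_cancel hyz))
    refine (Set.finite_iUnion h1).subset fun y hy => ?_
    by_contra h2
    rw [Set.mem_iUnion, not_exists] at h2
    exact hy (funext fun j => not_not.1 (h2 j))⟩
  map_one' := rfl
  map_mul' a b := by
    refine RW.ext' (fun y => funext fun j => ?_) rfl
    change a.1.fn (y * r j) * b.1.fn (a.1.pt⁻¹ * (y * r j)) =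
      a.1.fn (y * r j) * b.1.fn (a.1.pt⁻¹ * y * r j)
    rw [mul_assoc a.1.pt⁻¹]

theorem res_ex {r : J → Q} (hr : ∀ i j, r j * (r i)⁻¹ ∈ Subgroup.zpowers s → i = j)
    (a : RW (J → B) (Subgroup.zpowers s)) : res s r (ex hr a) = a := by
  refine RW.ext' (fun y => funext fun j => ?_) rfl
  exact ef_apply hr _ _ _

theorem ex_res {r : J → Q} (hr : ∀ i j, r j * (r i)⁻¹ ∈ Subgroup.zpowers s → i = j)
    (h : Hs B s) (hh : ∀ x, h.1.fn x ≠ 1 → ∃ j, x * (r j)⁻¹ ∈ Subgroup.zpowers s) :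
    ex hr (res s r h) = h := by
  refine Subtype.ext (RW.ext' (fun x => ?_) rfl)
  rcases ef_cases s r x with ⟨y, j, rfl⟩ | h1
  · exact ef_apply hr _ _ _
  · refine (ef_apply' _ h1).trans (Eq.symm ?_)
    by_contra h2
    obtain ⟨j, hj⟩ := hh x h2
    exact h1 j hj

end

variable {B : Type u} {Q : Type v} [Group B] [Group Q]

/-- The groups over cyclic subgroups of the top group are locally wreath products with cyclic
top group. -/
theorem l1Bass_Hs (s : Q) (h : ∀ k, L1Bass (RW (Fin k → B) (Subgroup.zpowers s))) :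
    L1Bass (Hs B s) := by
  classical
  refine l1Bass_of_local.{max u v, max u v} fun S => ?_
  let R : Setoid Q := QuotientGroup.rightRel (Subgroup.zpowers s)
  let p : Q → Quotient R := fun x => Quotient.mk R x
  have hp : ∀ x y : Q, p x = p y ↔ y * x⁻¹ ∈ Subgroup.zpowers s := fun x y =>
    Quotient.eq.trans QuotientGroup.rightRel_apply
  let P : Finset (Quotient R) := S.biUnion fun a => (a.1.fin.toFinset).image p
  let r : Fin P.card → Q := fun i => (P.equivFin.symm i).1.out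
  have hpr : ∀ i, p (r i) = (P.equivFin.symm i).1 := fun i => Quotient.out_eq _
  have hr : ∀ i j, r j * (r i)⁻¹ ∈ Subgroup.zpowers s → i = j := by
    intro i j hij
    rw [← hp, hpr, hpr] at hij
    exact P.equivFin.symm.injective (Subtype.ext hij)
  refine ⟨RW (Fin P.card → B) (Subgroup.zpowers s), inferInstance, ex hr, res s r, ⟨?_, ?_⟩,
    h _⟩
  · intro a ha
    refine ex_res hr a fun x hx => ?_
    have h1 : p x ∈ P := Finset.mem_biUnion.2
      ⟨a, ha, Finset.mem_image.2 ⟨x, a.1.fin.mem_toFinset.2 hx, rfl⟩⟩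
    refine ⟨P.equivFin ⟨p x, h1⟩, ?_⟩
    rw [← hp, hpr, Equiv.symm_apply_apply]
  · intro a _ b _ _
    exact (map_mul (res s r) a b).symm

/-- trivial top group -/
theorem l1Bass_triv (T : Type v) [Group T] [Subsingleton T] (h : L1Bass B) :
    L1Bass (RW B T) := by
  let ι : RW B T →* B :=
    { toFun := fun a => a.fn 1
      map_one' := rfl
      map_mul' := fun a b => by
        rw [RW.mul_fn]
        congr 2
        exact Subsingleton.elim _ _ }
  let π : B →* RW B T :=
    { toFun := fun b => ⟨fun _ => b, 1, Set.toFinite _⟩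
      map_one' := rfl
      map_mul' := fun a b => RW.ext' (fun _ => rfl) (Subsingleton.elim _ _) }
  refine l1Bass_retract ι π (fun a => RW.ext' (fun x => ?_) (Subsingleton.elim _ _)) h
  change a.fn 1 = a.fn x
  congr 1
  exact Subsingleton.elim _ _

/-- charged classes over an element of finite order -/
theorem charged_fin (hP : RowP.{max u v, max u v, max u v}) {q : ℕ}
    {e : Matrix (Fin q) (Fin q) (RW B Q → ℂ)} (he : IsIdem e) (s : Q) (h : L1Bass (Hs B s)) :
    ∃ F : Finset (ConjClasses (Hs B s)), (∀ C ∈ F, IsTorsionClass C) ∧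
      ∀ t : Hs B s, (∀ h, ConjClasses.mk (kap s h) ≠ ConjClasses.mk t) → ConjClasses.mk t ∉ F →
        tau (ConjClasses.mk (t : RW B Q)) e = 0 := by
  classical
  obtain ⟨m, f, f', hf, hf', hff⟩ := gen (sec_mk s) (al_eq s) (al_fin s) (spec_kap hP s) he
  obtain ⟨F, hF1, hF2⟩ := h m f hf
  obtain ⟨F', hF1', hF2'⟩ := h m f' hf'
  refine ⟨F ∪ F', fun C hC => (Finset.mem_union.1 hC).elim (hF1 C) (hF1' C), ?_⟩
  intro t ht htF
  rw [Finset.mem_union, not_or] at htF
  obtain ⟨n, hn, h1⟩ := hff t fun g x => ht _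
  rw [hF2 _ htF.1, hF2' _ htF.2, sub_zero] at h1
  exact (mul_eq_zero.1 h1).resolve_left (Nat.cast_ne_zero.2 hn)

theorem eq_one_of_torsion (hB : ∀ b : B, IsOfFinOrder b → b = 1) {a : RW B Q}
    (ha : IsOfFinOrder a) (hpt : a.pt = 1) : a = 1 := by
  refine RW.ext' (fun x => hB _ ?_) hpt
  obtain ⟨n, hn, h⟩ := isOfFinOrder_iff_pow_eq_one.1 ha
  have h1 : ∀ m : ℕ, (a ^ m).fn x = a.fn x ^ m := by
    intro m
    induction m with
    | zero => rw [pow_zero, pow_zero]; rfl
    | succ m ih =>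
      rw [pow_succ', pow_succ', RW.mul_fn, hpt, inv_one, one_mul, ih]
  refine isOfFinOrder_iff_pow_eq_one.2 ⟨n, hn, ?_⟩
  rw [← h1, h]
  rfl

/-- If `B` is torsion free then the elements of finite order are conjugate into the top group. -/
theorem conj_of_torsion (hB : ∀ b : B, IsOfFinOrder b → b = 1) (t : RW B Q)
    (ht : IsOfFinOrder t) : IsConj t (RW.incl t.pt) := by
  classical
  have hs : IsOfFinOrder t.pt := (RW.proj (B := B) (Q := Q)).isOfFinOrder ht
  have hfz : Finite (Subgroup.zpowers t.pt) := hs.finite_zpowers.to_subtype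
  have hpt : ∀ k : ℤ, (t ^ k).pt = t.pt ^ k := fun k => map_zpow (RW.proj (B := B) (Q := Q)) t k
  have hwd : ∀ k l : ℤ, t.pt ^ k = t.pt ^ l → t ^ k = t ^ l := by
    intro k l hkl
    have h1 : t ^ (k - l) = 1 := by
      refine eq_one_of_torsion hB (ht.zpow) ?_
      rw [hpt, zpow_sub, hkl, mul_inv_cancel]
    rw [zpow_sub, mul_inv_eq_one] at h1
    exact h1
  refine conj_of_lt t fun y => ?_
  let g : Q → B := fun z => if h : ∃ k : ℤ, t.pt ^ k * y = z then ((t ^ h.choose).fn z)⁻¹ else 1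
  have hg : ∀ k : ℤ, g (t.pt ^ k * y) = ((t ^ k).fn (t.pt ^ k * y))⁻¹ := by
    intro k
    have h : ∃ l : ℤ, t.pt ^ l * y = t.pt ^ k * y := ⟨k, rfl⟩
    have h1 : g (t.pt ^ k * y) = ((t ^ h.choose).fn (t.pt ^ k * y))⁻¹ := dif_pos h
    rw [h1, hwd _ _ (mul_right_cancel h.choose_spec)]
  refine ⟨g, ?_, fun z hz => ?_⟩
  · refine (Set.finite_range fun c : Subgroup.zpowers t.pt => (c : Q) * y).subset fun x hx => ?_
    by_contra h
    refine hx (dif_neg ?_)
    rintro ⟨k, hk⟩
    exact h ⟨⟨t.pt ^ k, Subgroup.zpow_mem_zpowers _ _⟩, hk⟩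
  · obtain ⟨k, hk⟩ := Subgroup.mem_zpowers_iff.1 hz
    obtain rfl : t.pt ^ k * y = z := by rw [hk, inv_mul_cancel_right]
    have h1 : t.pt⁻¹ * (t.pt ^ k * y) = t.pt ^ (k - 1) * y := by group
    rw [h1, hg, hg]
    have h2 : t ^ k = t * t ^ (k - 1) := by
      rw [← zpow_one_add]
      congr 1
      ring
    have h3 : (t ^ k).fn (t.pt ^ k * y) = t.fn (t.pt ^ k * y) *
        (t ^ (k - 1)).fn (t.pt ^ (k - 1) * y) := by
      rw [h2, RW.mul_fn, h1]
    rw [h3]
    group

end Vale.Agent.P184.H977
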