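import Vale.Agent.P184.H977.W2

/-!
# P184: wreath products with arbitrary base: assembly
-/

namespace Vale.Agent.P184.H977

open Vale.Agent.P184 Vale.Agent.P184.H290

universe u v

section

variable {B : Type u} {Q : Type v} [Group B] [Group Q]

theorem isOfFinOrder_conj {G : Type*} [Group G] {x y : G} (h : IsConj x y)
    (hx : IsOfFinOrder x) : IsOfFinOrder y := by
  have h1 : IsTorsionClass (ConjClasses.mk x) := isTorsionClass_mk.2 hx
  rw [ConjClasses.mk_eq_mk_iff_isConj.2 h] at h1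
  exact isTorsionClass_mk.1 h1

/-- A class with a nonzero trace, not meeting the top group, comes from an element over an element
of finite order, and is of finite order if the groups over cyclic subgroups are nice. -/
theorem charged_site (hP : RowP.{max u v, max u v, max u v})
    (h : ∀ s : Q, IsOfFinOrder s → L1Bass (Hs B s)) {q : ℕ}
    {e : Matrix (Fin q) (Fin q) (RW B Q → ℂ)} (he : IsIdem e) :
    ∃ F : ∀ s : Q, Finset (ConjClasses (Hs B s)), (∀ s, ∀ C ∈ F s, IsTorsionClass C) ∧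
      ∀ t : RW B Q, (∀ w : Q, ¬ IsConj t (RW.incl w)) → tau (ConjClasses.mk t) e ≠ 0 →
        ∃ s : Q, IsOfFinOrder s ∧ ∃ C ∈ F s,
          ConjClasses.mk t = ConjClasses.map (Hs B s).subtype C := by
  classical
  have h0 : ∀ s : Q, ∃ F : Finset (ConjClasses (Hs B s)), (∀ C ∈ F, IsTorsionClass C) ∧
      (IsOfFinOrder s → ∀ t : Hs B s, (∀ h, ConjClasses.mk (kap s h) ≠ ConjClasses.mk t) →
        ConjClasses.mk t ∉ F → tau (ConjClasses.mk (t : RW B Q)) e = 0) := by
    intro s
    by_cases hs : IsOfFinOrder s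
    · obtain ⟨F, h1, h2⟩ := charged_fin hP he s (h s hs)
      exact ⟨F, h1, fun _ => h2⟩
    · exact ⟨∅, fun C hC => absurd hC (Finset.notMem_empty C), fun h => absurd h hs⟩
  choose F hF1 hF2 using h0
  refine ⟨F, hF1, fun t ht hne => ?_⟩
  by_cases hs : IsOfFinOrder t.pt
  · obtain ⟨y, hy⟩ := exists_site t (ht _)
    have hs' : IsOfFinOrder (y⁻¹ * t.pt * y) :=
      isOfFinOrder_conj (isConj_iff.2 ⟨y⁻¹, by rw [inv_inv]⟩) hs
    refine ⟨_, hs', ConjClasses.mk (tr t y), ?_, (mk_tr t y).symm⟩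
    by_contra hcon
    refine hne ?_
    rw [← mk_tr t y]
    exact hF2 _ hs' (tr t y) hy hcon
  · exact absurd (vanish_inf hP t hs ht q e he) hne

/-- the sufficient condition -/
theorem wreath_of (hP : RowP.{max u v, max u v, max u v})
    (hfin : {s : Q | IsOfFinOrder s}.Finite ∨ ∀ b : B, IsOfFinOrder b → b = 1)
    (hQ : L1Bass Q) (h : ∀ s : Q, IsOfFinOrder s → L1Bass (Hs B s)) : L1Bass (RW B Q) := by
  classical
  intro q e he
  obtain ⟨F, hF1, hF2⟩ := charged_site hP h he
  -- the charged classes with nonzero trace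
  have hch : ∃ K : Finset (ConjClasses (RW B Q)), (∀ C ∈ K, IsTorsionClass C) ∧
      ∀ t : RW B Q, (∀ w : Q, ¬ IsConj t (RW.incl w)) → tau (ConjClasses.mk t) e ≠ 0 →
        ConjClasses.mk t ∈ K := by
    rcases hfin with hfin | hB
    · refine ⟨hfin.toFinset.biUnion fun s => (F s).image (ConjClasses.map (Hs B s).subtype),
        ?_, ?_⟩
      · intro C hC
        obtain ⟨s, _, hC⟩ := Finset.mem_biUnion.1 hC
        obtain ⟨D, hD, rfl⟩ := Finset.mem_image.1 hC
        obtain ⟨y, rfl⟩ := ConjClasses.mk_surjective D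
        exact isTorsionClass_mk.2
          ((Hs B s).subtype.isOfFinOrder (isTorsionClass_mk.1 (hF1 s _ hD)))
      · intro t ht hne
        obtain ⟨s, hs, C, hC, h1⟩ := hF2 t ht hne
        rw [h1]
        exact Finset.mem_biUnion.2 ⟨s, hfin.mem_toFinset.2 hs, Finset.mem_image.2 ⟨C, hC, rfl⟩⟩
    · refine ⟨∅, fun C hC => absurd hC (Finset.notMem_empty C), fun t ht hne => ?_⟩
      obtain ⟨s, hs, C, hC, h1⟩ := hF2 t ht hne
      obtain ⟨y, rfl⟩ := ConjClasses.mk_surjective C
      have h2 : IsOfFinOrder (y : RW B Q) :=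
        (Hs B s).subtype.isOfFinOrder (isTorsionClass_mk.1 (hF1 s _ hC))
      have h3 : IsConj (y : RW B Q) t := ConjClasses.mk_eq_mk_iff_isConj.1 h1.symm
      exact absurd (conj_of_torsion hB t (isOfFinOrder_conj h3 h2)) (ht _)
  obtain ⟨K, hK1, hK2⟩ := hch
  obtain ⟨b, hb, htau⟩ := pushforward (RW.proj : RW B Q →* Q) e he
  obtain ⟨F₁, hF1', hF2'⟩ := hQ q b hb
  refine ⟨K ∪ (F₁ ∪ K.image (ConjClasses.map (RW.proj : RW B Q →* Q))).image
    (ConjClasses.map (RW.incl : Q →* RW B Q)), ?_, ?_⟩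
  · intro C hC
    rcases Finset.mem_union.1 hC with hC | hC
    · exact hK1 C hC
    · obtain ⟨D, hD, rfl⟩ := Finset.mem_image.mp hC
      obtain ⟨y, rfl⟩ := ConjClasses.mk_surjective D
      have h3 : IsTorsionClass (ConjClasses.mk y) := by
        rcases Finset.mem_union.1 hD with hD | hD
        · exact hF1' _ hD
        · obtain ⟨D', hD', h4⟩ := Finset.mem_image.mp hD
          obtain ⟨z, rfl⟩ := ConjClasses.mk_surjective D'
          rw [← h4]
          exact isTorsionClass_mk.mpr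
            (RW.proj.isOfFinOrder (isTorsionClass_mk.mp (hK1 _ hD')))
      exact isTorsionClass_mk.mpr (RW.incl.isOfFinOrder (isTorsionClass_mk.mp h3))
  · intro C hC
    rw [Finset.mem_union, not_or] at hC
    obtain ⟨hC1, hC2⟩ := hC
    obtain ⟨t, rfl⟩ := ConjClasses.mk_surjective C
    by_cases hx : ∀ w : Q, ¬ IsConj t (RW.incl w)
    · by_contra h3
      exact hC1 (hK2 t hx h3)
    · push Not at hx
      obtain ⟨w, hw⟩ := hx
      have h3 : ConjClasses.mk t = ConjClasses.mk (RW.incl w) :=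
        ConjClasses.mk_eq_mk_iff_isConj.2 hw
      have hs : ConjClasses.mk w ∉ F₁ ∪ K.image (ConjClasses.map (RW.proj : RW B Q →* Q)) := by
        intro h4
        refine hC2 (Finset.mem_image.mpr ⟨_, h4, ?_⟩)
        rw [h3]
        rfl
      rw [Finset.mem_union, not_or] at hs
      have h4 := hF2' _ hs.1
      rw [htau] at h4
      rw [h3, ← h4]
      refine (tsum_classes_single he RW.proj _ (ConjClasses.mk (RW.incl w)) rfl
        fun D hD hne => ?_).symm
      obtain ⟨t', rfl⟩ := ConjClasses.mk_surjective D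
      by_contra h5
      by_cases hx' : ∀ w : Q, ¬ IsConj t' (RW.incl w)
      · exact hs.2 (Finset.mem_image.mpr ⟨_, hK2 t' hx' h5, hD⟩)
      · push Not at hx'
        obtain ⟨w', hw'⟩ := hx'
        refine hne ?_
        have h6 : ConjClasses.mk t' = ConjClasses.mk (RW.incl w') :=
          ConjClasses.mk_eq_mk_iff_isConj.2 hw'
        have h7 : ConjClasses.mk t'.pt = ConjClasses.mk w := hD
        have h8 : ConjClasses.mk w' = ConjClasses.mk t'.pt := by
          have := congrArg (ConjClasses.map (RW.proj : RW B Q →* Q)) h6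
          exact this.symm
        rw [h6]
        exact congrArg (ConjClasses.map (RW.incl : Q →* RW B Q)) (h8.trans h7)

end

/-! ### Sidon sets -/

theorem pow3_aux {a b c d : ℕ} (h1 : a ≤ b) (h2 : c ≤ d) (h : 3 ^ a + 3 ^ b = 3 ^ c + 3 ^ d) :
    a = c ∧ b = d := by
  have hb : 3 ^ a ≤ 3 ^ b := Nat.pow_le_pow_right (by norm_num) h1
  have hd : 3 ^ c ≤ 3 ^ d := Nat.pow_le_pow_right (by norm_num) h2
  have ha : 0 < 3 ^ a := Nat.pow_pos (by norm_num)
  have hc : 0 < 3 ^ c := Nat.pow_pos (by norm_num)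
  rcases lt_trichotomy b d with h3 | h3 | h3
  · have h4 : 3 ^ (b + 1) ≤ 3 ^ d := Nat.pow_le_pow_right (by norm_num) h3
    rw [pow_succ] at h4
    omega
  · subst h3
    have h4 : 3 ^ a = 3 ^ c := by omega
    exact ⟨Nat.pow_right_injective (le_of_lt (by norm_num)) h4, rfl⟩
  · have h4 : 3 ^ (d + 1) ≤ 3 ^ b := Nat.pow_le_pow_right (by norm_num) h3
    rw [pow_succ] at h4
    omega

theorem pow3 {a b c d : ℕ} (hbd : b ≠ d) (h : 3 ^ a + 3 ^ b = 3 ^ c + 3 ^ d) : a = d := by
  rcases le_total a b with h1 | h1 <;> rcases le_total c d with h2 | h2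
  · exact absurd (pow3_aux h1 h2 h).2 hbd
  · exact (pow3_aux h1 h2 (by rw [h, add_comm])).1
  · exact (pow3_aux h1 h2 (by rw [add_comm, h])).2
  · exact absurd (pow3_aux h1 h2 (by rw [add_comm, h, add_comm])).1 hbd

end Vale.Agent.P184.H977
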