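import Vale.Agent.P184.H977.W3

/-!
# P184: wreath products with arbitrary base: necessity, and the equivalences
-/

namespace Vale.Agent.P184.H977

open Vale.Agent.P184 Vale.Agent.P184.H290

universe u v

section

variable {B : Type u} {Q : Type v} [Group B] [Group Q]

theorem zpow_fin {z : Q} (hz : ¬ IsOfFinOrder z) {n : ℤ} (h : IsOfFinOrder (z ^ n)) : n = 0 := by
  by_contra hn
  obtain ⟨m, hm, h1⟩ := isOfFinOrder_iff_zpow_eq_one.1 h
  exact hz (isOfFinOrder_iff_zpow_eq_one.2 ⟨n * m, mul_ne_zero hn hm, by rw [zpow_mul]; exact h1⟩)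

theorem fin_of_mem {s x : Q} (hs : IsOfFinOrder s) (hx : x ∈ Subgroup.zpowers s) :
    IsOfFinOrder x := by
  obtain ⟨k, rfl⟩ := Subgroup.mem_zpowers_iff.1 hx
  exact hs.zpow

/-- the sites -/
def st (z : Q) {J : Type*} (en : J → ℕ) (j : J) : Q := z ^ (3 ^ en j : ℕ)

theorem st_eq (z : Q) {J : Type*} (en : J → ℕ) (j : J) :
    st z en j = z ^ ((3 ^ en j : ℕ) : ℤ) := (zpow_natCast _ _).symm

theorem st_inj {z : Q} (hz : ¬ IsOfFinOrder z) {s : Q} (hs : IsOfFinOrder s) {J : Type*}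
    {en : J → ℕ} (hen : Function.Injective en) (i j : J)
    (h : st z en j * (st z en i)⁻¹ ∈ Subgroup.zpowers s) : i = j := by
  have h1 := fin_of_mem hs h
  rw [st_eq, st_eq, ← zpow_neg, ← zpow_add] at h1
  have h2 := zpow_fin hz h1
  have h3 : 3 ^ en i = 3 ^ en j := by omega
  exact hen (Nat.pow_right_injective (le_of_lt (by norm_num)) h3)

/-- duplication of the coordinates -/
def dup (B : Type u) [Group B] (k : ℕ) (T : Type v) [Group T] :
    RW (Fin k → B) T →* RW (Fin k × Bool → B) T where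
  toFun a := ⟨fun y j => a.fn y j.1, a.pt, a.fin.subset fun y hy h => hy (by rw [h]; rfl)⟩
  map_one' := rfl
  map_mul' _ _ := rfl

theorem conv {z : Q} (hz : ¬ IsOfFinOrder z) {s : Q} (hs : IsOfFinOrder s) (k : ℕ)
    (h : L1Bass (RW B Q)) : L1Bass (RW (Fin k → B) (Subgroup.zpowers s)) := by
  classical
  have hfz : Finite (Subgroup.zpowers s) := hs.finite_zpowers.to_subtype
  obtain ⟨en, hen⟩ : ∃ en : Fin k × Bool → ℕ, Function.Injective en :=
    ⟨_, Encodable.encode_injective⟩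
  let r : Fin k × Bool → Q := st z en
  have hr : ∀ i j, r j * (r i)⁻¹ ∈ Subgroup.zpowers s → i = j := st_inj hz hs hen
  let ι' : RW (Fin k → B) (Subgroup.zpowers s) →* Hs B s := (ex hr).comp (dup B k _)
  let ρ : Hs B s →* RW (Fin k → B) (Subgroup.zpowers s) := res s fun i => r (i, true)
  have hρ : ∀ a, ρ (ι' a) = a := fun a =>
    RW.ext' (fun y => funext fun j => ef_apply hr _ _ _) rfl
  have hfn : ∀ (a : RW (Fin k → B) (Subgroup.zpowers s)) (y : Subgroup.zpowers s)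
      (j : Fin k × Bool), (ι' a).1.fn (y * r j) = a.fn y j.1 := fun a y j => ef_apply hr _ _ _
  have hfn' : ∀ (a : RW (Fin k → B) (Subgroup.zpowers s)) (x : Q),
      (∀ j, x * (r j)⁻¹ ∉ Subgroup.zpowers s) → (ι' a).1.fn x = 1 := fun a x hx =>
    ef_apply' _ hx
  have hpt : ∀ a : RW (Fin k → B) (Subgroup.zpowers s), (ι' a).1.pt = (a.pt : Q) := fun a => rfl
  -- a charged site of `a` gives charged sites of its image
  have claim1 : ∀ (a : RW (Fin k → B) (Subgroup.zpowers s)) (y : Subgroup.zpowers s),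
      ¬ Lt a y → ∃ i, ∀ ε, ¬ Lt (ι' a).1 (y * r (i, ε)) := by
    intro a y hy
    by_contra hcon
    push Not at hcon
    choose ε g hg1 hg2 using hcon
    refine hy ⟨fun v i => g i (v * r (i, ε i)), Set.toFinite _, fun v hv => funext fun i => ?_⟩
    have h1 : (v : Q) * r (i, ε i) * (y * r (i, ε i))⁻¹ ∈ Subgroup.zpowers (ι' a).1.pt := by
      obtain ⟨n, hn⟩ := Subgroup.mem_zpowers_iff.1 hv
      refine Subgroup.mem_zpowers_iff.2 ⟨n, ?_⟩
      rw [hpt, ← Subgroup.coe_zpow, hn, Subgroup.coe_mul, Subgroup.coe_inv]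
      group
    have h2 := hg2 i _ h1
    rw [hfn, hpt] at h2
    change g i (v * r (i, ε i)) * a.fn v i = g i (((a.pt : Q)⁻¹ * v) * r (i, ε i))
    rw [mul_assoc (a.pt : Q)⁻¹]
    exact h2
  have claim2 : ∀ (b : RW (Fin k → B) (Subgroup.zpowers s)) (x : Q), ¬ Lt (ι' b).1 x →
      ∃ j, x * (r j)⁻¹ ∈ Subgroup.zpowers s := by
    intro b x hx
    by_contra hcon
    push Not at hcon
    refine hx (lt_of_triv _ _ fun z' hz' => hfn' _ _ fun j hj => hcon j ?_)
    have h1 : z' * x⁻¹ ∈ Subgroup.zpowers s :=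
      (Subgroup.zpowers_le.2 (by rw [hpt]; exact b.pt.2)) hz'
    have h2 : x * (r j)⁻¹ = (z' * x⁻¹)⁻¹ * (z' * (r j)⁻¹) := by group
    rw [h2]
    exact mul_mem (inv_mem h1) hj
  have claim3 : ∀ a b : RW (Fin k → B) (Subgroup.zpowers s), ¬ IsConj a (RW.incl a.pt) →
      IsConj (ι' a).1 (ι' b).1 → IsConj a b := by
    intro a b ha hab
    obtain ⟨y, hy⟩ : ∃ y, ¬ Lt a y := by
      by_contra hcon
      push Not at hcon
      exact ha (conj_of_lt a hcon)
    obtain ⟨i, hi⟩ := claim1 a y hy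
    obtain ⟨C, hC⟩ := isConj_iff.1 hab
    have h1 : ∀ ε, ∃ j, C.pt * (y * r (i, ε)) * (r j)⁻¹ ∈ Subgroup.zpowers s := by
      intro ε
      refine claim2 b _ fun hlt => hi ε ?_
      have h2 := lt_conj _ C⁻¹ _ hlt
      rw [RW.inv_pt, inv_mul_cancel_left, ← hC] at h2
      have h3 : C⁻¹ * (C * (ι' a).1 * C⁻¹) * C⁻¹⁻¹ = (ι' a).1 := by group
      rwa [h3] at h2
    obtain ⟨j₁, hj₁⟩ := h1 true
    obtain ⟨j₂, hj₂⟩ := h1 false
    have h4 : (C.pt * (y * r (i, true)) * (r j₁)⁻¹)⁻¹ * (C.pt * (y * r (i, false)) * (r j₂)⁻¹) ∈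
        Subgroup.zpowers s := mul_mem (inv_mem hj₁) hj₂
    have h5 : (C.pt * (y * r (i, true)) * (r j₁)⁻¹)⁻¹ * (C.pt * (y * r (i, false)) * (r j₂)⁻¹) =
        z ^ (((3 ^ en j₁ : ℕ) : ℤ) + -((3 ^ en (i, true) : ℕ) : ℤ) +
          ((3 ^ en (i, false) : ℕ) : ℤ) + -((3 ^ en j₂ : ℕ) : ℤ)) := by
      rw [zpow_add, zpow_add, zpow_add, zpow_neg, zpow_neg, ← st_eq, ← st_eq, ← st_eq, ← st_eq]
      change (C.pt * (y * st z en (i, true)) * (st z en j₁)⁻¹)⁻¹ *
        (C.pt * (y * st z en (i, false)) * (st z en j₂)⁻¹) = _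
      group
    rw [h5] at h4
    have h6 := zpow_fin hz (fin_of_mem hs h4)
    have h7 : 3 ^ en j₁ + 3 ^ en (i, false) = 3 ^ en j₂ + 3 ^ en (i, true) := by omega
    have h8 : en (i, false) ≠ en (i, true) := fun h => by
      have := congrArg Prod.snd (hen h)
      exact Bool.false_ne_true this
    obtain rfl : j₁ = (i, true) := hen (pow3 h8 h7)
    have h9 : C.pt ∈ Subgroup.zpowers s := by
      have h10 : C.pt = (C.pt * (y * r (i, true)) * (r (i, true))⁻¹) * (y : Q)⁻¹ := by group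
      rw [h10]
      exact mul_mem hj₁ (inv_mem y.2)
    refine isConj_iff.2 ⟨ρ ⟨C, h9⟩, ?_⟩
    have h11 : (⟨C, h9⟩ : Hs B s) * ι' a * (⟨C, h9⟩ : Hs B s)⁻¹ = ι' b := Subtype.ext hC
    have h12 := congrArg ρ h11
    rwa [map_mul, map_mul, map_inv, hρ, hρ] at h12
  refine l1Bass_of_inj ((Hs B s).subtype.comp ι') ?_
    (Set.range fun c : Subgroup.zpowers s => ConjClasses.mk (RW.incl c)) (Set.finite_range _)
    ?_ ?_ h
  · intro a b hab
    have h1 : ι' a = ι' b := Subtype.ext hab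
    rw [← hρ a, h1, hρ]
  · rintro _ ⟨c, rfl⟩
    exact isTorsionClass_mk.2 (RW.incl.isOfFinOrder (isOfFinOrder_of_finite c))
  · intro a b ha hab
    refine claim3 a b (fun h1 => ha ⟨a.pt, (ConjClasses.mk_eq_mk_iff_isConj.2 h1).symm⟩) hab

/-- **W3.** -/
theorem wreath_iff (hP : RowP.{max u v, max u v, max u v}) (hinf : ∃ z : Q, ¬ IsOfFinOrder z)
    (hfin : {s : Q | IsOfFinOrder s}.Finite ∨ ∀ b : B, IsOfFinOrder b → b = 1) :
    L1Bass (RW B Q) ↔ L1Bass Q ∧
      ∀ s : Q, IsOfFinOrder s → ∀ k, L1Bass (RW (Fin k → B) (Subgroup.zpowers s)) := by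
  constructor
  · intro h
    obtain ⟨z, hz⟩ := hinf
    exact ⟨l1Bass_retract RW.incl RW.proj (fun _ => rfl) h, fun s hs k => conv hz hs k h⟩
  · rintro ⟨hQ, h⟩
    exact wreath_of hP hfin hQ fun s hs => l1Bass_Hs s (h s hs)

theorem l1Bass_triv' (T : Type v) [Group T] [Subsingleton T] (h : L1Bass (RW B T)) :
    L1Bass B := by
  let π : RW B T →* B :=
    { toFun := fun a => a.fn 1
      map_one' := rfl
      map_mul' := fun a b => by
        rw [RW.mul_fn]
        congr 2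
        exact Subsingleton.elim _ _ }
  let ι : B →* RW B T :=
    { toFun := fun b => ⟨fun _ => b, 1, Set.toFinite _⟩
      map_one' := rfl
      map_mul' := fun a b => RW.ext' (fun _ => rfl) (Subsingleton.elim _ _) }
  exact l1Bass_retract ι π (fun _ => rfl) h

/-- **W2.** Torsion free top groups. -/
theorem wreath_torsionFree (hP : RowP.{max u v, max u v, max u v}) [Nontrivial Q]
    (htf : ∀ s : Q, IsOfFinOrder s → s = 1) :
    L1Bass (RW B Q) ↔ L1Bass Q ∧ ∀ k, L1Bass (Fin k → B) := by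
  have hsub : Subsingleton (Subgroup.zpowers (1 : Q)) := by
    rw [Subgroup.zpowers_one_eq_bot]
    infer_instance
  obtain ⟨z, hz⟩ := exists_ne (1 : Q)
  rw [wreath_iff hP ⟨z, fun h => hz (htf z h)⟩ (Or.inl ((Set.finite_singleton (1 : Q)).subset
    fun s hs => htf s hs))]
  refine and_congr_right fun _ => ⟨fun h k => ?_, fun h s hs k => ?_⟩
  · exact l1Bass_triv' _ (h 1 IsOfFinOrder.one k)
  · obtain rfl := htf s hs
    exact l1Bass_triv _ (h k)

end

end Vale.Agent.P184.H977
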