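import Vale.Agent.P184.H977.WS2
import Vale.Agent.P184.H977.LocDef

/-!
# P184: wreath products with arbitrary base: only finitely many top elements of finite order matter
-/

namespace Vale.Agent.P184.H977

open Vale.Agent.P184 Vale.Agent.P184.H290

universe u v w

section

variable {S : Type w} {B : Type u} {Q : Type v} [Group S] [Group B] [Group Q]

/-- the coset of an element of the top group -/
def ck (S : Type w) (B : Type u) {Q : Type v} [Group S] [Group B] [Group Q] (s z : Q) :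
    (S × RW B Q) ⧸ Ss S B s := (((1, RW.incl z) : S × RW B Q) : (S × RW B Q) ⧸ Ss S B s)

theorem ck_eq {s p q : Q} (h : p⁻¹ * q ∈ Subgroup.zpowers s) : ck S B s p = ck S B s q :=
  mk_inclS h

theorem smul_ck (g : S × RW B Q) (s z : Q) : g • ck S B s z = ck S B s (g.2.pt * z) := by
  change ((g * ((1, RW.incl z) : S × RW B Q) : S × RW B Q) : (S × RW B Q) ⧸ Ss S B s) =
    (((1, RW.incl (g.2.pt * z)) : S × RW B Q) : (S × RW B Q) ⧸ Ss S B s)
  rw [QuotientGroup.eq]
  change (g.2.pt * z)⁻¹ * (g.2.pt * z) ∈ Subgroup.zpowers s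
  rw [inv_mul_cancel]
  exact one_mem _

open Classical in
/-- representatives of the cosets, in `Y` when possible -/
noncomputable def rY (Y : Set Q) (s : Q) (x : (S × RW B Q) ⧸ Ss S B s) : Q :=
  if h : ∃ y ∈ Y, ck S B s y = x then h.choose else x.out.2.pt

theorem rY_mem {Y : Set Q} {s : Q} {x : (S × RW B Q) ⧸ Ss S B s}
    (h : ∃ y ∈ Y, ck S B s y = x) : rY Y s x ∈ Y := by
  unfold rY
  rw [dif_pos h]
  exact h.choose_spec.1

theorem ck_rY (Y : Set Q) (s : Q) (x : (S × RW B Q) ⧸ Ss S B s) : ck S B s (rY Y s x) = x := by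
  by_cases h : ∃ y ∈ Y, ck S B s y = x
  · unfold rY
    rw [dif_pos h]
    exact h.choose_spec.2
  · unfold rY
    rw [dif_neg h]
    exact secS_mk s x

/-- the section with values in the top group -/
noncomputable def secY (Y : Set Q) (s : Q) (x : (S × RW B Q) ⧸ Ss S B s) : S × RW B Q :=
  (1, RW.incl (rY Y s x))

theorem secY_mk (Y : Set Q) (s : Q) (x : (S × RW B Q) ⧸ Ss S B s) :
    (secY Y s x : (S × RW B Q) ⧸ Ss S B s) = x := ck_rY Y s x

/-- the section cocycle -/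
noncomputable def alY (Y : Set Q) (s : Q) (g : S × RW B Q) (x : (S × RW B Q) ⧸ Ss S B s) :
    Ss S B s :=
  ⟨(secY Y s (g • x))⁻¹ * (g * secY Y s x), by
    rw [← QuotientGroup.eq, secY_mk]
    have h := congrArg (g • ·) (secY_mk Y s x)
    exact h.symm⟩

theorem alY_eq (Y : Set Q) (s : Q) (g : S × RW B Q) (x : (S × RW B Q) ⧸ Ss S B s) :
    g * secY Y s x = secY Y s (g • x) * (alY Y s g x : S × RW B Q) :=
  (mul_inv_cancel_left _ _).symm

theorem alY_fn (Y : Set Q) (s : Q) (g : S × RW B Q) (x : (S × RW B Q) ⧸ Ss S B s) (y : Q) :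
    (alY Y s g x).1.2.fn y = g.2.fn (rY Y s (g • x) * y) := by
  change ((RW.incl (rY Y s (g • x)))⁻¹ * (g.2 * RW.incl (rY Y s x))).fn y = _
  rw [RW.mul_fn, RW.inv_fn, RW.mul_fn, RW.inv_pt, inv_inv]
  change (1 : B)⁻¹ * (g.2.fn (rY Y s (g • x) * y) * 1) = _
  rw [inv_one, one_mul, mul_one]

theorem alY_pt (Y : Set Q) (s : Q) (g : S × RW B Q) (x : (S × RW B Q) ⧸ Ss S B s) :
    (alY Y s g x).1.2.pt = (rY Y s (g • x))⁻¹ * (g.2.pt * rY Y s x) := rfl

theorem alY_diff {Y : Set Q} {s : Q} {g : S × RW B Q} {x : (S × RW B Q) ⧸ Ss S B s}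
    (hx : alY Y s g x ≠ kapS s (alY Y s g x)) : ∃ z, g.2.fn z ≠ 1 ∧ ck S B s z = g • x := by
  have h2 : ∃ y ∈ Subgroup.zpowers s, g.2.fn (rY Y s (g • x) * y) ≠ 1 := by
    by_contra h
    push Not at h
    refine hx (Subtype.ext (Prod.ext rfl (RW.ext' (fun y => ?_) rfl)))
    change (alY Y s g x).1.2.fn y = (kap s (sn s (alY Y s g x))).1.fn y
    by_cases hy : y ∈ Subgroup.zpowers s
    · rw [kap_fn _ hy, alY_fn, h y hy]
    · rw [kap_fn' _ hy]
      rfl
  obtain ⟨y, hy, h3⟩ := h2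
  refine ⟨_, h3, ?_⟩
  have h4 : ck S B s (rY Y s (g • x) * y) = ck S B s (rY Y s (g • x)) := by
    refine ck_eq ?_
    rw [mul_inv_rev, inv_mul_cancel_right]
    exact inv_mem hy
  exact h4.trans (ck_rY Y s (g • x))

theorem alY_fin (Y : Set Q) (s : Q) (g : S × RW B Q) :
    {x | alY Y s g x ≠ kapS s (alY Y s g x)}.Finite := by
  refine ((g.2.fin.image fun z => ck S B s z).preimage
    (f := fun x => g • x) (MulAction.injective g).injOn).subset fun x hx => ?_
  obtain ⟨z, h1, h2⟩ := alY_diff hx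
  exact ⟨z, h1, h2⟩

/-- the size of the support -/
noncomputable def nu (g : S × RW B Q) : ℕ := {z | g.2.fn z ≠ 1}.ncard

theorem nu_mul (g h : S × RW B Q) : nu (g * h) ≤ nu g + nu h := by
  unfold nu
  have h1 : {z | (g * h).2.fn z ≠ 1} ⊆
      {z | g.2.fn z ≠ 1} ∪ (fun z => g.2.pt * z) '' {z | h.2.fn z ≠ 1} := by
    intro z hz
    by_contra hcon
    rw [Set.mem_union, not_or] at hcon
    have h2 : g.2.fn z = 1 := not_not.1 hcon.1
    have h3 : h.2.fn (g.2.pt⁻¹ * z) = 1 := by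
      by_contra h4
      exact hcon.2 ⟨_, h4, mul_inv_cancel_left _ _⟩
    refine hz ?_
    change g.2.fn z * h.2.fn (g.2.pt⁻¹ * z) = 1
    rw [h2, h3, one_mul]
  refine (Set.ncard_le_ncard h1 (g.2.fin.union (h.2.fin.image _))).trans ?_
  refine (Set.ncard_union_le _ _).trans ?_
  exact Nat.add_le_add_left (Set.ncard_image_le h.2.fin) _

theorem alY_ncard (Y : Set Q) (s : Q) (g : S × RW B Q) :
    {x | alY Y s g x ≠ kapS s (alY Y s g x)}.ncard ≤ nu g := by
  have h1 : {x | alY Y s g x ≠ kapS s (alY Y s g x)}.ncard ≤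
      ((fun z => ck S B s z) '' {z | g.2.fn z ≠ 1}).ncard := by
    refine Set.ncard_le_ncard_of_injOn (fun x => g • x) ?_
      (MulAction.injective g).injOn (g.2.fin.image _)
    intro x hx
    obtain ⟨z, h1, h2⟩ := alY_diff hx
    exact ⟨z, h1, h2⟩
  exact h1.trans (Set.ncard_image_le g.2.fin)

/-- the component in the top group -/
def ptS (s : Q) : Ss S B s →* Q := RW.proj.comp ((MonoidHom.snd S (RW B Q)).comp (Ss S B s).subtype)

theorem ptS_mem {s : Q} (a : Ss S B s) : ptS s a ∈ Subgroup.zpowers s := a.2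

theorem comm_zp {s x y : Q} (hx : x ∈ Subgroup.zpowers s) (hy : y ∈ Subgroup.zpowers s) :
    Commute x y := by
  obtain ⟨k, rfl⟩ := Subgroup.mem_zpowers_iff.1 hx
  obtain ⟨l, rfl⟩ := Subgroup.mem_zpowers_iff.1 hy
  exact (Commute.refl s).zpow_zpow k l

theorem ptS_conj {s : Q} {a b : Ss S B s} (h : IsConj a b) : ptS s a = ptS s b := by
  obtain ⟨c, rfl⟩ := isConj_iff.1 h
  rw [map_mul, map_mul, map_inv, (comm_zp (ptS_mem c) (ptS_mem a)).eq, mul_inv_cancel_right]

theorem exists_sigma (hL : LocW.{max u v w, max u v w, max u v w}) {q : ℕ}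
    {e : Matrix (Fin q) (Fin q) (S × RW B Q → ℂ)} (he : IsIdem e) :
    ∃ Z : Set Q, Z.Finite ∧ ∀ s : Q,
      s ∉ Subgroup.closure ((Subgroup.zpowers s : Set Q) ∩ Z) →
      ∀ t : Ss S B s, t.1.2.pt = s → (∀ h, ConjClasses.mk (kapS s h) ≠ ConjClasses.mk t) →
        tau (ConjClasses.mk (t : S × RW B Q)) e = 0 := by
  classical
  obtain ⟨e₁, he₁, htau, T, hT⟩ := hL he nu nu_mul
  let Y0 : Set Q := ⋃ g ∈ T, {z | g.2.fn z ≠ 1}
  have hY0 : Y0.Finite := Set.Finite.biUnion T.finite_toSet fun g _ => g.2.fin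
  let S0 : Set Q := (fun g : S × RW B Q => g.2.pt) '' (T : Set (S × RW B Q))
  have hS0 : S0.Finite := T.finite_toSet.image _
  let D0 : Set Q := insert 1 (S0 ∪ (fun x => x⁻¹) '' S0)
  have hD0 : D0.Finite := (hS0.union (hS0.image _)).insert 1
  have h1D : (1 : Q) ∈ D0 := Set.mem_insert _ _
  have hSD : ∀ g ∈ T, g.2.pt ∈ D0 := fun g hg =>
    Set.mem_insert_of_mem _ (Or.inl ⟨g, hg, rfl⟩)
  have hSD' : ∀ g ∈ T, g.2.pt⁻¹ ∈ D0 := fun g hg =>
    Set.mem_insert_of_mem _ (Or.inr ⟨g.2.pt, ⟨g, hg, rfl⟩, rfl⟩)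
  let Y : Set Q := Set.image2 (fun a z => a * z) D0 (Set.image2 (fun a z => a * z) D0 Y0)
  have hY : Y.Finite := hD0.image2 _ (hD0.image2 _ hY0)
  have hYm : ∀ a ∈ D0, ∀ b ∈ D0, ∀ z ∈ Y0, a * (b * z) ∈ Y := fun a ha b hb z hz =>
    Set.mem_image2_of_mem ha (Set.mem_image2_of_mem hb hz)
  let Z : Set Q := Set.image2 (fun y z => y⁻¹ * z) Y (Set.image2 (fun a z => a * z) S0 Y)
  have hZ : Z.Finite := hY.image2 _ (hS0.image2 _ hY)
  refine ⟨Z, hZ, fun s hs t hts ht => ?_⟩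
  let F : Set ((S × RW B Q) ⧸ Ss S B s) := (fun y => ck S B s y) '' Y
  have hF : F.Finite := hY.image _
  let N : Subgroup (Ss S B s) :=
    (Subgroup.closure ((Subgroup.zpowers s : Set Q) ∩ Z)).comap (ptS s)
  have hrF : ∀ x ∈ F, rY Y s x ∈ Y := by
    rintro x ⟨y, hy, hyx⟩
    exact rY_mem ⟨y, hy, hyx⟩
  have hsum := hT (alY Y s) (fun g x => kapS s (alY Y s g x)) (coc_mul (alY_eq Y s))
    (fun g h x => by rw [coc_mul (alY_eq Y s), map_mul]) (alY_fin Y s) (alY_ncard Y s) F N hF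
    (fun g hg x hx hgx => by
      have h1 : ptS s (alY Y s g x) ∈ Subgroup.closure ((Subgroup.zpowers s : Set Q) ∩ Z) := by
        refine Subgroup.subset_closure ⟨ptS_mem _, ?_⟩
        change (rY Y s (g • x))⁻¹ * (g.2.pt * rY Y s x) ∈ Z
        exact Set.mem_image2_of_mem (hrF _ hgx)
          (Set.mem_image2_of_mem ⟨g, hg, rfl⟩ (hrF _ hx))
      exact ⟨h1, h1⟩)
    (fun g₁ hg₁ g₂ hg₂ g₃ hg₃ x hx => by
      obtain ⟨z, hz, hzx⟩ := alY_diff hx
      have hz0 : z ∈ Y0 := Set.mem_biUnion hg₂ hz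
      have e3 : g₂ • g₁ • x = ck S B s z := hzx.symm
      have e2 : g₁ • x = ck S B s (g₂.2.pt⁻¹ * z) := by
        have h := congrArg (g₂⁻¹ • ·) e3
        simp only [inv_smul_smul] at h
        rw [h, smul_ck]
        rfl
      have e1 : x = ck S B s (g₁.2.pt⁻¹ * (g₂.2.pt⁻¹ * z)) := by
        have h := congrArg (g₁⁻¹ • ·) e2
        simp only [inv_smul_smul] at h
        rw [h, smul_ck]
        rfl
      have e4 : g₃ • g₂ • g₁ • x = ck S B s (g₃.2.pt * z) := by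
        rw [e3, smul_ck]
      refine ⟨?_, ?_, ?_, ?_⟩
      · rw [e1]
        exact ⟨_, hYm _ (hSD' g₁ hg₁) _ (hSD' g₂ hg₂) z hz0, rfl⟩
      · rw [e2]
        refine ⟨_, hYm _ h1D _ (hSD' g₂ hg₂) z hz0, ?_⟩
        rw [one_mul]
      · rw [e3]
        refine ⟨_, hYm _ h1D _ h1D z hz0, ?_⟩
        rw [one_mul, one_mul]
      · rw [e4]
        refine ⟨_, hYm _ h1D _ (hSD g₃ hg₃) z hz0, ?_⟩
        rw [one_mul])
    (ConjClasses.mk t)
    (fun a ha hat => by
      have h1 : ptS s a = ptS s t := ptS_conj (ConjClasses.mk_eq_mk_iff_isConj.1 hat)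
      have h2 : ptS s t = s := hts
      refine hs ?_
      have h3 : ptS s a ∈ Subgroup.closure ((Subgroup.zpowers s : Set Q) ∩ Z) := ha
      rwa [h1, h2] at h3)
    (fun g x => ht _)
  have hfx : (Fx (alY Y s) (ConjClasses.mk t) (t : S × RW B Q)).Finite := by
    refine (alY_fin Y s t).subset ?_
    rintro x ⟨-, hx⟩ h
    exact ht _ (by rw [← h]; exact hx)
  have hFs : Summable fun g => ‖∑ i, e₁ i i g‖ :=
    Summable.of_nonneg_of_le (fun _ => norm_nonneg _) (fun g => norm_sum_le _ _)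
      (summable_sum fun i _ => he₁.1 i i)
  rw [tsum_pairs (alY_eq Y s) hFs t hfx] at hsum
  have hn : (((Fx (alY Y s) (ConjClasses.mk t) (t : S × RW B Q)).ncard : ℕ) : ℂ) ≠ 0 :=
    Nat.cast_ne_zero.2
      ((Set.ncard_pos hfx).2 ⟨_, self_mem (secY_mk Y s) (alY_eq Y s) t⟩).ne'
  rw [← htau, tau_eq]
  exact (mul_eq_zero.1 hsum).resolve_left hn

theorem exc_fin (Z : Set Q) (hZ : Z.Finite) :
    {s : Q | IsOfFinOrder s ∧
      s ∈ Subgroup.closure ((Subgroup.zpowers s : Set Q) ∩ Z)}.Finite := by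
  have h1 : (⋃ A ∈ {A : Set Q | A ⊆ Z},
      {s : Q | s ∈ Subgroup.closure A ∧ (Subgroup.closure A : Set Q).Finite}).Finite := by
    refine Set.Finite.biUnion hZ.finite_subsets fun A _ => ?_
    by_cases hA : (Subgroup.closure A : Set Q).Finite
    · exact hA.subset fun s hs => hs.1
    · exact Set.finite_empty.subset fun s hs => absurd hs.2 hA
  refine h1.subset fun s hs => ?_
  refine Set.mem_biUnion (x := (Subgroup.zpowers s : Set Q) ∩ Z)
    (show _ ⊆ Z from Set.inter_subset_right) ⟨hs.2, ?_⟩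
  have h2 : Subgroup.closure ((Subgroup.zpowers s : Set Q) ∩ Z) ≤ Subgroup.zpowers s :=
    (Subgroup.closure_le _).2 Set.inter_subset_left
  exact hs.1.finite_zpowers.subset h2

theorem wreath_of_all (hL : LocW.{max u v w, max u v w, max u v w}) (hQ : L1Bass (S × Q))
    (h : ∀ s : Q, IsOfFinOrder s → L1Bass (Ss S B s)) : L1Bass (S × RW B Q) := by
  classical
  refine assemble inclS projS (fun _ => rfl) hQ fun q e he => ?_
  obtain ⟨Z, hZ, hv⟩ := exists_sigma hL he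
  have hE := exc_fin Z hZ
  have h0 : ∀ s : Q, ∃ F : Finset (ConjClasses (Ss S B s)), (∀ C ∈ F, IsTorsionClass C) ∧
      (IsOfFinOrder s → ∀ t : Ss S B s, (∀ h, ConjClasses.mk (kapS s h) ≠ ConjClasses.mk t) →
        ConjClasses.mk t ∉ F → tau (ConjClasses.mk (t : S × RW B Q)) e = 0) := by
    intro s
    by_cases hs : IsOfFinOrder s
    · obtain ⟨F, h1, h2⟩ := charged_finS he s (h s hs)
      exact ⟨F, h1, fun _ => h2⟩
    · exact ⟨∅, fun C hC => absurd hC (Finset.notMem_empty C), fun h => absurd h hs⟩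
  choose F hF1 hF2 using h0
  refine ⟨hE.toFinset.biUnion fun s => (F s).image (ConjClasses.map (Ss S B s).subtype), ?_, ?_⟩
  · intro C hC
    obtain ⟨s, _, hC⟩ := Finset.mem_biUnion.1 hC
    obtain ⟨D, hD, rfl⟩ := Finset.mem_image.1 hC
    obtain ⟨y, rfl⟩ := ConjClasses.mk_surjective D
    exact isTorsionClass_mk.2
      ((Ss S B s).subtype.isOfFinOrder (isTorsionClass_mk.1 (hF1 s _ hD)))
  · intro t ht hne
    have ht' : ∀ w : Q, ¬ IsConj t.2 (RW.incl w) := by
      intro w hw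
      refine ht (t.1, w) ?_
      obtain ⟨c, hc⟩ := isConj_iff.1 hw
      refine isConj_iff.2 ⟨(1, c), Prod.ext ?_ hc⟩
      change 1 * t.1 * 1⁻¹ = t.1
      group
    by_cases hs : IsOfFinOrder t.2.pt
    · obtain ⟨y, hy⟩ := exists_siteS t (ht' _)
      have hs' : IsOfFinOrder (y⁻¹ * t.2.pt * y) :=
        isOfFinOrder_conj (isConj_iff.2 ⟨y⁻¹, by rw [inv_inv]⟩) hs
      by_cases hc : y⁻¹ * t.2.pt * y ∈
          Subgroup.closure ((Subgroup.zpowers (y⁻¹ * t.2.pt * y) : Set Q) ∩ Z)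
      · refine Finset.mem_biUnion.2 ⟨_, hE.mem_toFinset.2 ⟨hs', hc⟩, Finset.mem_image.2
          ⟨ConjClasses.mk (trS t y), ?_, mk_trS t y⟩⟩
        by_contra hcon
        refine hne ?_
        rw [← mk_trS t y]
        exact hF2 _ hs' (trS t y) hy hcon
      · refine absurd ?_ hne
        rw [← mk_trS t y]
        exact hv _ hc (trS t y) rfl hy
    · exact absurd (vanish_infS t hs ht' q e he) hne

end

/-- **Wreath products of arbitrary groups.** -/
theorem wreathS_all {S : Type w} {B : Type u} {Q : Type v} [Group S] [Group B] [Group Q]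
    (hL : LocW.{max u v w, max u v w, max u v w}) (hinf : ∃ z : Q, ¬ IsOfFinOrder z) :
    L1Bass (S × RW B Q) ↔ L1Bass (S × Q) ∧
      ∀ s : Q, IsOfFinOrder s → ∀ k, L1Bass (S × RW (Fin k → B) (Subgroup.zpowers s)) := by
  constructor
  · intro h
    obtain ⟨z, hz⟩ := hinf
    exact ⟨l1Bass_retract inclS projS (fun _ => rfl) h, fun s hs k => convS hz hs k h⟩
  · rintro ⟨hQ, h⟩
    exact wreath_of_all hL hQ fun s hs => l1Bass_Ss s (h s hs)

end Vale.Agent.P184.H977
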