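import Vale.Agent.P184.H977.W4
import Vale.Agent.P184.H788.TrF

/-!
# P184: wreath products with arbitrary base, with a spectator
-/

namespace Vale.Agent.P184.H977

open Vale.Agent.P184 Vale.Agent.P184.H290

universe u v w

theorem charged_comap {G G' : Type*} [Group G] [Group G'] (f : G →* G') {x : G}
    (h : Charged (f x)) : Charged x := by
  obtain ⟨L, φ, h1, h2, h3, h4⟩ := h
  have hc : ∀ g, Commute g x → Commute (f g) (f x) := fun g hg => hg.map f
  refine ⟨fun g => L (f g), fun g => φ (f g), fun g h => ?_, fun g h hg hh => ?_,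
    fun g hg => h3 _ (hc g hg), h4⟩
  · simp only [map_mul]
    exact h1 _ _
  · simp only [map_mul]
    exact h2 _ _ (hc g hg) (hc h hh)

section

variable {S : Type w} {B : Type u} {Q : Type v} [Group S] [Group B] [Group Q]

/-- the preimage of the cyclic subgroup generated by `s` -/
def Ss (S : Type w) (B : Type u) {Q : Type v} [Group S] [Group B] [Group Q] (s : Q) :
    Subgroup (S × RW B Q) := (Hs B s).comap (MonoidHom.snd S (RW B Q))

theorem mem_Ss {s : Q} {a : S × RW B Q} : a ∈ Ss S B s ↔ a.2 ∈ Hs B s := Iff.rfl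

/-- the second component -/
def sn (s : Q) : Ss S B s →* Hs B s where
  toFun h := ⟨h.1.2, h.2⟩
  map_one' := rfl
  map_mul' _ _ := rfl

/-- the product description -/
def pr' (s : Q) : S × Hs B s →* Ss S B s where
  toFun h := ⟨(h.1, h.2.1), h.2.2⟩
  map_one' := rfl
  map_mul' _ _ := rfl

/-- the product description -/
def rp' (s : Q) : Ss S B s →* S × Hs B s :=
  MonoidHom.prod ((MonoidHom.fst S (RW B Q)).comp (Ss S B s).subtype) (sn s)

/-- killing the coordinates in the cyclic subgroup generated by `s` -/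
noncomputable def kapS (s : Q) : Ss S B s →* Ss S B s :=
  (pr' s).comp (((MonoidHom.id S).prodMap (kap s)).comp (rp' s))

theorem kapS_fst {s : Q} (h : Ss S B s) : (kapS s h).1.1 = h.1.1 := rfl
theorem kapS_snd {s : Q} (h : Ss S B s) : sn s (kapS s h) = kap s (sn s h) := rfl

/-- representatives of the cosets in the top group -/
noncomputable def rS (s : Q) (x : (S × RW B Q) ⧸ Ss S B s) : Q := x.out.2.pt

/-- the section with values in the top group -/
noncomputable def secS (s : Q) (x : (S × RW B Q) ⧸ Ss S B s) : S × RW B Q :=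
  (1, RW.incl (rS s x))

theorem mk_inclS {s p q : Q} (h : p⁻¹ * q ∈ Subgroup.zpowers s) :
    (((1, RW.incl p) : S × RW B Q) : (S × RW B Q) ⧸ Ss S B s) =
      (((1, RW.incl q) : S × RW B Q) : (S × RW B Q) ⧸ Ss S B s) := by
  rw [QuotientGroup.eq]
  exact h

theorem secS_mk (s : Q) (x : (S × RW B Q) ⧸ Ss S B s) :
    (secS s x : (S × RW B Q) ⧸ Ss S B s) = x := by
  have h1 : (x.out : (S × RW B Q) ⧸ Ss S B s) = x := QuotientGroup.out_eq' x
  conv_rhs => rw [← h1]
  rw [QuotientGroup.eq]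
  change (x.out.2.pt)⁻¹ * x.out.2.pt ∈ Subgroup.zpowers s
  rw [inv_mul_cancel]
  exact one_mem _

/-- the section cocycle -/
noncomputable def alS (s : Q) (g : S × RW B Q) (x : (S × RW B Q) ⧸ Ss S B s) : Ss S B s :=
  ⟨(secS s (g • x))⁻¹ * (g * secS s x), by
    rw [← QuotientGroup.eq, secS_mk]
    have h := congrArg (g • ·) (secS_mk s x)
    exact h.symm⟩

theorem alS_eq (s : Q) (g : S × RW B Q) (x : (S × RW B Q) ⧸ Ss S B s) :
    g * secS s x = secS s (g • x) * (alS s g x : S × RW B Q) := (mul_inv_cancel_left _ _).symm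

theorem alS_fn (s : Q) (g : S × RW B Q) (x : (S × RW B Q) ⧸ Ss S B s) (y : Q) :
    (alS s g x).1.2.fn y = g.2.fn (rS s (g • x) * y) := by
  change ((RW.incl (rS s (g • x)))⁻¹ * (g.2 * RW.incl (rS s x))).fn y = _
  rw [RW.mul_fn, RW.inv_fn, RW.mul_fn, RW.inv_pt, inv_inv]
  change (1 : B)⁻¹ * (g.2.fn (rS s (g • x) * y) * 1) = _
  rw [inv_one, one_mul, mul_one]

theorem alS_fin (s : Q) (g : S × RW B Q) : {x | alS s g x ≠ kapS s (alS s g x)}.Finite := by
  have h1 := (g.2.fin.image fun z =>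
    (((1, RW.incl z) : S × RW B Q) : (S × RW B Q) ⧸ Ss S B s)).preimage
    (f := fun x => g • x) (MulAction.injective g).injOn
  refine h1.subset fun x hx => ?_
  have h2 : ∃ y ∈ Subgroup.zpowers s, g.2.fn (rS s (g • x) * y) ≠ 1 := by
    by_contra h
    push Not at h
    refine hx (Subtype.ext (Prod.ext rfl (RW.ext' (fun y => ?_) rfl)))
    change (alS s g x).1.2.fn y = (kap s (sn s (alS s g x))).1.fn y
    by_cases hy : y ∈ Subgroup.zpowers s
    · rw [kap_fn _ hy, alS_fn, h y hy]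
    · rw [kap_fn' _ hy]
      rfl
  obtain ⟨y, hy, h3⟩ := h2
  refine ⟨_, h3, ?_⟩
  have h4 : (((1, RW.incl (rS s (g • x) * y)) : S × RW B Q) : (S × RW B Q) ⧸ Ss S B s) =
      (((1, RW.incl (rS s (g • x))) : S × RW B Q) : (S × RW B Q) ⧸ Ss S B s) := by
    refine mk_inclS ?_
    rw [mul_inv_rev, inv_mul_cancel_right]
    exact inv_mem hy
  exact h4.trans (secS_mk s (g • x))

theorem spec_kapS (s : Q) :
    Spec (alS (S := S) (B := B) s) fun D => ∀ g x, ConjClasses.mk (kapS s (alS s g x)) ≠ D :=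
  H788.rowP (alS s) (fun g x => kapS s (alS s g x)) (coc_mul (alS_eq s))
    (fun g h x => by rw [coc_mul (alS_eq s), map_mul]) (alS_fin s)

/-- the element `t` seen from the site `y` -/
def trS (t : S × RW B Q) (y : Q) : Ss S B (y⁻¹ * t.2.pt * y) := ⟨(t.1, (tr t.2 y).1), (tr t.2 y).2⟩

theorem mk_trS (t : S × RW B Q) (y : Q) : ConjClasses.mk ((trS t y : Ss S B _) : S × RW B Q) =
    ConjClasses.mk t := by
  rw [ConjClasses.mk_eq_mk_iff_isConj, isConj_iff]
  refine ⟨(1, RW.incl y), Prod.ext ?_ ?_⟩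
  · change 1 * t.1 * 1⁻¹ = t.1
    group
  · change RW.incl y * ((RW.incl y)⁻¹ * t.2 * RW.incl y) * (RW.incl y)⁻¹ = t.2
    group

theorem exists_siteS (t : S × RW B Q) (ht : ¬ IsConj t.2 (RW.incl t.2.pt)) :
    ∃ y : Q, ∀ h, ConjClasses.mk (kapS _ h) ≠ ConjClasses.mk (trS t y) := by
  obtain ⟨y, hy⟩ := exists_site t.2 ht
  refine ⟨y, fun h hh => hy (sn _ h) ?_⟩
  exact congrArg (ConjClasses.map (sn _)) hh

/-- The traces vanish at the charged elements over elements of infinite order. -/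
theorem vanish_infS (t : S × RW B Q)
    (ht : ¬ IsOfFinOrder t.2.pt) (hc : ∀ w : Q, ¬ IsConj t.2 (RW.incl w)) : VanishesAt t := by
  obtain ⟨y, hy⟩ := exists_siteS t (hc t.2.pt)
  have hs : ¬ IsOfFinOrder (y⁻¹ * t.2.pt * y) := by
    intro h
    refine ht ?_
    have h1 := (MulAut.conj y).toMonoidHom.isOfFinOrder h
    have h2 : (MulAut.conj y).toMonoidHom (y⁻¹ * t.2.pt * y) = t.2.pt := by
      change y * (y⁻¹ * t.2.pt * y) * y⁻¹ = t.2.pt
      group
    rwa [h2] at h1
  have h0 : Charged (trS t y) :=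
    charged_comap (sn _) (charged_of_inf hs (tr t.2 y) rfl)
  have h1 : VanishesAt ((trS t y : Ss S B _) : S × RW B Q) :=
    vanish (secS_mk _) (alS_eq _) (alS_fin _) (spec_kapS _) (fun g x => hy _)
      (vanishesAt_of_charged h0)
  intro q e he
  rw [← mk_trS t y]
  exact h1 q e he

theorem charged_finS {q : ℕ} {e : Matrix (Fin q) (Fin q) (S × RW B Q → ℂ)} (he : IsIdem e)
    (s : Q) (h : L1Bass (Ss S B s)) :
    ∃ F : Finset (ConjClasses (Ss S B s)), (∀ C ∈ F, IsTorsionClass C) ∧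
      ∀ t : Ss S B s, (∀ h, ConjClasses.mk (kapS s h) ≠ ConjClasses.mk t) →
        ConjClasses.mk t ∉ F → tau (ConjClasses.mk (t : S × RW B Q)) e = 0 := by
  classical
  obtain ⟨m, f, f', hf, hf', hff⟩ := gen (secS_mk s) (alS_eq s) (alS_fin s) (spec_kapS s) he
  obtain ⟨F, hF1, hF2⟩ := h m f hf
  obtain ⟨F', hF1', hF2'⟩ := h m f' hf'
  refine ⟨F ∪ F', fun C hC => (Finset.mem_union.1 hC).elim (hF1 C) (hF1' C), ?_⟩
  intro t ht htF
  rw [Finset.mem_union, not_or] at htF
  obtain ⟨n, hn, h1⟩ := hff t fun g x => ht _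
  rw [hF2 _ htF.1, hF2' _ htF.2, sub_zero] at h1
  exact (mul_eq_zero.1 h1).resolve_left (Nat.cast_ne_zero.2 hn)

theorem charged_siteS (h : ∀ s : Q, IsOfFinOrder s → L1Bass (Ss S B s)) {q : ℕ}
    {e : Matrix (Fin q) (Fin q) (S × RW B Q → ℂ)} (he : IsIdem e) :
    ∃ F : ∀ s : Q, Finset (ConjClasses (Ss S B s)), (∀ s, ∀ C ∈ F s, IsTorsionClass C) ∧
      ∀ t : S × RW B Q, (∀ w : Q, ¬ IsConj t.2 (RW.incl w)) → tau (ConjClasses.mk t) e ≠ 0 →
        ∃ s : Q, IsOfFinOrder s ∧ ∃ C ∈ F s,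
          ConjClasses.mk t = ConjClasses.map (Ss S B s).subtype C := by
  classical
  have h0 : ∀ s : Q, ∃ F : Finset (ConjClasses (Ss S B s)), (∀ C ∈ F, IsTorsionClass C) ∧
      (IsOfFinOrder s → ∀ t : Ss S B s, (∀ h, ConjClasses.mk (kapS s h) ≠ ConjClasses.mk t) →
        ConjClasses.mk t ∉ F → tau (ConjClasses.mk (t : S × RW B Q)) e = 0) := by
    intro s
    by_cases hs : IsOfFinOrder s
    · obtain ⟨F, h1, h2⟩ := charged_finS he s (h s hs)
      exact ⟨F, h1, fun _ => h2⟩
    · exact ⟨∅, fun C hC => absurd hC (Finset.notMem_empty C), fun h => absurd h hs⟩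
  choose F hF1 hF2 using h0
  refine ⟨F, hF1, fun t ht hne => ?_⟩
  by_cases hs : IsOfFinOrder t.2.pt
  · obtain ⟨y, hy⟩ := exists_siteS t (ht _)
    have hs' : IsOfFinOrder (y⁻¹ * t.2.pt * y) :=
      isOfFinOrder_conj (isConj_iff.2 ⟨y⁻¹, by rw [inv_inv]⟩) hs
    refine ⟨_, hs', ConjClasses.mk (trS t y), ?_, (mk_trS t y).symm⟩
    by_contra hcon
    refine hne ?_
    rw [← mk_trS t y]
    exact hF2 _ hs' (trS t y) hy hcon
  · exact absurd (vanish_infS t hs ht q e he) hne

/-- the projection to the top group -/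
def projS : S × RW B Q →* S × Q := (MonoidHom.id S).prodMap RW.proj

/-- the inclusion of the top group -/
def inclS : S × Q →* S × RW B Q := (MonoidHom.id S).prodMap RW.incl

/-- the sufficient condition -/
theorem wreath_ofS (hfin : {s : Q | IsOfFinOrder s}.Finite ∨ ∀ b : B, IsOfFinOrder b → b = 1)
    (hQ : L1Bass (S × Q)) (h : ∀ s : Q, IsOfFinOrder s → L1Bass (Ss S B s)) :
    L1Bass (S × RW B Q) := by
  classical
  intro q e he
  obtain ⟨F, hF1, hF2⟩ := charged_siteS h he
  -- the charged classes with nonzero trace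
  have hch : ∃ K : Finset (ConjClasses (S × RW B Q)), (∀ C ∈ K, IsTorsionClass C) ∧
      ∀ t : S × RW B Q, (∀ w : Q, ¬ IsConj t.2 (RW.incl w)) → tau (ConjClasses.mk t) e ≠ 0 →
        ConjClasses.mk t ∈ K := by
    rcases hfin with hfin | hB
    · refine ⟨hfin.toFinset.biUnion fun s => (F s).image (ConjClasses.map (Ss S B s).subtype),
        ?_, ?_⟩
      · intro C hC
        obtain ⟨s, _, hC⟩ := Finset.mem_biUnion.1 hC
        obtain ⟨D, hD, rfl⟩ := Finset.mem_image.1 hC
        obtain ⟨y, rfl⟩ := ConjClasses.mk_surjective D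
        exact isTorsionClass_mk.2
          ((Ss S B s).subtype.isOfFinOrder (isTorsionClass_mk.1 (hF1 s _ hD)))
      · intro t ht hne
        obtain ⟨s, hs, C, hC, h1⟩ := hF2 t ht hne
        rw [h1]
        exact Finset.mem_biUnion.2 ⟨s, hfin.mem_toFinset.2 hs, Finset.mem_image.2 ⟨C, hC, rfl⟩⟩
    · refine ⟨∅, fun C hC => absurd hC (Finset.notMem_empty C), fun t ht hne => ?_⟩
      obtain ⟨s, hs, C, hC, h1⟩ := hF2 t ht hne
      obtain ⟨y, rfl⟩ := ConjClasses.mk_surjective C
      have h2 : IsOfFinOrder (y : S × RW B Q) :=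
        (Ss S B s).subtype.isOfFinOrder (isTorsionClass_mk.1 (hF1 s _ hC))
      have h3 : IsConj (y : S × RW B Q) t := ConjClasses.mk_eq_mk_iff_isConj.1 h1.symm
      have h4 : IsOfFinOrder t.2 :=
        (MonoidHom.snd S (RW B Q)).isOfFinOrder (isOfFinOrder_conj h3 h2)
      exact absurd (conj_of_torsion hB t.2 h4) (ht _)
  obtain ⟨K, hK1, hK2⟩ := hch
  obtain ⟨b, hb, htau⟩ := pushforward (projS : S × RW B Q →* S × Q) e he
  obtain ⟨F₁, hF1', hF2'⟩ := hQ q b hb
  have hmk : ∀ (t : S × RW B Q) (w : Q), IsConj t.2 (RW.incl w) →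
      ConjClasses.mk t = ConjClasses.mk (inclS (t.1, w)) := by
    intro t w hw
    rw [ConjClasses.mk_eq_mk_iff_isConj]
    obtain ⟨c, hc⟩ := isConj_iff.1 hw
    refine isConj_iff.2 ⟨(1, c), Prod.ext ?_ hc⟩
    change 1 * t.1 * 1⁻¹ = t.1
    group
  refine ⟨K ∪ (F₁ ∪ K.image (ConjClasses.map (projS : S × RW B Q →* S × Q))).image
    (ConjClasses.map (inclS : S × Q →* S × RW B Q)), ?_, ?_⟩
  · intro C hC
    rcases Finset.mem_union.1 hC with hC | hC
    · exact hK1 C hC
    · obtain ⟨D, hD, rfl⟩ := Finset.mem_image.mp hC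
      obtain ⟨y, rfl⟩ := ConjClasses.mk_surjective D
      have h3 : IsTorsionClass (ConjClasses.mk y) := by
        rcases Finset.mem_union.1 hD with hD | hD
        · exact hF1' _ hD
        · obtain ⟨D', hD', h4⟩ := Finset.mem_image.mp hD
          obtain ⟨z, rfl⟩ := ConjClasses.mk_surjective D'
          rw [← h4]
          exact isTorsionClass_mk.mpr
            (projS.isOfFinOrder (isTorsionClass_mk.mp (hK1 _ hD')))
      exact isTorsionClass_mk.mpr (inclS.isOfFinOrder (isTorsionClass_mk.mp h3))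
  · intro C hC
    rw [Finset.mem_union, not_or] at hC
    obtain ⟨hC1, hC2⟩ := hC
    obtain ⟨t, rfl⟩ := ConjClasses.mk_surjective C
    by_cases hx : ∀ w : Q, ¬ IsConj t.2 (RW.incl w)
    · by_contra h3
      exact hC1 (hK2 t hx h3)
    · push Not at hx
      obtain ⟨w, hw⟩ := hx
      have h3 := hmk t w hw
      have hs : ConjClasses.mk (t.1, w) ∉
          F₁ ∪ K.image (ConjClasses.map (projS : S × RW B Q →* S × Q)) := by
        intro h4
        refine hC2 (Finset.mem_image.mpr ⟨_, h4, ?_⟩)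
        rw [h3]
        rfl
      rw [Finset.mem_union, not_or] at hs
      have h4 := hF2' _ hs.1
      rw [htau] at h4
      rw [h3, ← h4]
      refine (tsum_classes_single he projS _ (ConjClasses.mk (inclS (t.1, w))) rfl
        fun D hD hne => ?_).symm
      obtain ⟨t', rfl⟩ := ConjClasses.mk_surjective D
      by_contra h5
      by_cases hx' : ∀ w : Q, ¬ IsConj t'.2 (RW.incl w)
      · exact hs.2 (Finset.mem_image.mpr ⟨_, hK2 t' hx' h5, hD⟩)
      · push Not at hx'
        obtain ⟨w', hw'⟩ := hx'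
        refine hne ?_
        have h6 := hmk t' w' hw'
        have h7 : ConjClasses.mk (projS t') = ConjClasses.mk (t.1, w) := hD
        have h8 : ConjClasses.mk (t'.1, w') = ConjClasses.mk (projS t') := by
          have := congrArg (ConjClasses.map (projS : S × RW B Q →* S × Q)) h6
          exact this.symm
        rw [h6]
        exact congrArg (ConjClasses.map (inclS : S × Q →* S × RW B Q)) (h8.trans h7)

/-- The groups over cyclic subgroups, locally. -/
theorem l1Bass_Ss (s : Q) (h : ∀ k, L1Bass (S × RW (Fin k → B) (Subgroup.zpowers s))) :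
    L1Bass (Ss S B s) := by
  classical
  have h0 : L1Bass (S × Hs B s) := by
    refine l1Bass_of_local.{max u v w, max u v w} fun T => ?_
    let R : Setoid Q := QuotientGroup.rightRel (Subgroup.zpowers s)
    let p : Q → Quotient R := fun x => Quotient.mk R x
    have hp : ∀ x y : Q, p x = p y ↔ y * x⁻¹ ∈ Subgroup.zpowers s := fun x y =>
      Quotient.eq.trans QuotientGroup.rightRel_apply
    let P : Finset (Quotient R) := T.biUnion fun a => (a.2.1.fin.toFinset).image p
    let r : Fin P.card → Q := fun i => (P.equivFin.symm i).1.out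
    have hpr : ∀ i, p (r i) = (P.equivFin.symm i).1 := fun i => Quotient.out_eq _
    have hr : ∀ i j, r j * (r i)⁻¹ ∈ Subgroup.zpowers s → i = j := by
      intro i j hij
      rw [← hp, hpr, hpr] at hij
      exact P.equivFin.symm.injective (Subtype.ext hij)
    refine ⟨S × RW (Fin P.card → B) (Subgroup.zpowers s), inferInstance,
      (MonoidHom.id S).prodMap (ex hr), (MonoidHom.id S).prodMap (res s r), ⟨?_, ?_⟩, h _⟩
    · intro a ha
      refine Prod.ext rfl (ex_res hr a.2 fun x hx => ?_)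
      have h1 : p x ∈ P := Finset.mem_biUnion.2
        ⟨a, ha, Finset.mem_image.2 ⟨x, a.2.1.fin.mem_toFinset.2 hx, rfl⟩⟩
      refine ⟨P.equivFin ⟨p x, h1⟩, ?_⟩
      rw [← hp, hpr, Equiv.symm_apply_apply]
    · intro a _ b _ _
      exact (map_mul ((MonoidHom.id S).prodMap (res s r)) a b).symm
  exact l1Bass_retract (rp' s) (pr' s) (fun _ => rfl) h0

end

end Vale.Agent.P184.H977
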