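import Vale.Agent.P184.H977.WS1
import Vale.Agent.P184.H788.ProdN

/-!
# P184: wreath products with arbitrary base, with a spectator: necessity
-/

namespace Vale.Agent.P184.H977

open Vale.Agent.P184 Vale.Agent.P184.H290

universe u v w

/-- Assembling `Q1` from a retract and the classes not meeting it. -/
theorem assemble {K R : Type*} [Group K] [Group R] (σ : R →* K) (π : K →* R)
    (hπ : ∀ r, π (σ r) = r) (hR : L1Bass R)
    (h : ∀ (q : ℕ) (e : Matrix (Fin q) (Fin q) (K → ℂ)), IsIdem e →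
      ∃ A : Finset (ConjClasses K), (∀ C ∈ A, IsTorsionClass C) ∧
        ∀ t : K, (∀ r, ¬ IsConj t (σ r)) → tau (ConjClasses.mk t) e ≠ 0 →
          ConjClasses.mk t ∈ A) : L1Bass K := by
  classical
  intro q e he
  obtain ⟨A, hA1, hA2⟩ := h q e he
  obtain ⟨b, hb, htau⟩ := pushforward π e he
  obtain ⟨F, hF1, hF2⟩ := hR q b hb
  refine ⟨A ∪ (F ∪ A.image (ConjClasses.map π)).image (ConjClasses.map σ), ?_, ?_⟩
  · intro C hC
    rcases Finset.mem_union.1 hC with hC | hC
    · exact hA1 C hC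
    · obtain ⟨D, hD, rfl⟩ := Finset.mem_image.mp hC
      obtain ⟨y, rfl⟩ := ConjClasses.mk_surjective D
      have h3 : IsTorsionClass (ConjClasses.mk y) := by
        rcases Finset.mem_union.1 hD with hD | hD
        · exact hF1 _ hD
        · obtain ⟨D', hD', h4⟩ := Finset.mem_image.mp hD
          obtain ⟨z, rfl⟩ := ConjClasses.mk_surjective D'
          rw [← h4]
          exact isTorsionClass_mk.mpr (π.isOfFinOrder (isTorsionClass_mk.mp (hA1 _ hD')))
      exact isTorsionClass_mk.mpr (σ.isOfFinOrder (isTorsionClass_mk.mp h3))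
  · intro C hC
    rw [Finset.mem_union, not_or] at hC
    obtain ⟨hC1, hC2⟩ := hC
    obtain ⟨t, rfl⟩ := ConjClasses.mk_surjective C
    by_cases hx : ∀ r, ¬ IsConj t (σ r)
    · by_contra h3
      exact hC1 (hA2 t hx h3)
    · push Not at hx
      obtain ⟨r, hr⟩ := hx
      have h3 : ConjClasses.mk t = ConjClasses.mk (σ r) := ConjClasses.mk_eq_mk_iff_isConj.2 hr
      have hs : ConjClasses.mk r ∉ F ∪ A.image (ConjClasses.map π) := by
        intro h4
        refine hC2 (Finset.mem_image.mpr ⟨_, h4, ?_⟩)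
        rw [h3]
        rfl
      rw [Finset.mem_union, not_or] at hs
      have h4 := hF2 _ hs.1
      rw [htau] at h4
      rw [h3, ← h4]
      refine (tsum_classes_single he π _ (ConjClasses.mk (σ r)) ?_ fun D hD hne => ?_).symm
      · change ConjClasses.mk (π (σ r)) = _
        rw [hπ]
      obtain ⟨t', rfl⟩ := ConjClasses.mk_surjective D
      by_contra h5
      by_cases hx' : ∀ r, ¬ IsConj t' (σ r)
      · exact hs.2 (Finset.mem_image.mpr ⟨_, hA2 t' hx' h5, hD⟩)
      · push Not at hx'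
        obtain ⟨r', hr'⟩ := hx'
        refine hne ?_
        have h6 : ConjClasses.mk t' = ConjClasses.mk (σ r') :=
          ConjClasses.mk_eq_mk_iff_isConj.2 hr'
        have h7 : ConjClasses.mk (π t') = ConjClasses.mk r := hD
        have h8 : ConjClasses.mk (π t') = ConjClasses.mk r' := by
          have h9 := congrArg (ConjClasses.map π) h6
          change ConjClasses.mk (π t') = ConjClasses.mk (π (σ r')) at h9
          rwa [hπ] at h9
        rw [h6]
        exact congrArg (ConjClasses.map σ) (h8.symm.trans h7)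

/-- Passing to a subgroup in which the classes not meeting a retract are detected. -/
theorem l1Bass_of_inj' {P K R : Type*} [Group P] [Group K] [Group R] (ι : K →* P)
    (hι : Function.Injective ι) (σ : R →* K) (π : K →* R) (hπ : ∀ r, π (σ r) = r)
    (hR : L1Bass R) (hinj : ∀ x y, (∀ r, ¬ IsConj x (σ r)) → IsConj (ι x) (ι y) → IsConj x y)
    (h : L1Bass P) : L1Bass K := by
  classical
  refine assemble σ π hπ hR fun q e he => ?_
  obtain ⟨b, hb, htau⟩ := pushforward ι e he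
  obtain ⟨F, hF1, hF2⟩ := h q b hb
  have hfin : {D : ConjClasses K | (∃ x, ConjClasses.mk x = D ∧ ∀ r, ¬ IsConj x (σ r)) ∧
      ConjClasses.map ι D ∈ F}.Finite := by
    refine Set.Finite.of_injOn (f := ConjClasses.map ι) (t := (F : Set (ConjClasses P)))
      (fun D hD => hD.2) ?_ F.finite_toSet
    rintro D ⟨⟨x, rfl, hx⟩, _⟩ D' _ hDD
    obtain ⟨y, rfl⟩ := ConjClasses.mk_surjective D'
    have h1 : ConjClasses.mk (ι x) = ConjClasses.mk (ι y) := hDD
    rw [ConjClasses.mk_eq_mk_iff_isConj] at h1 ⊢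
    exact hinj x y hx h1
  refine ⟨hfin.toFinset, ?_, ?_⟩
  · intro C hC
    rw [Set.Finite.mem_toFinset] at hC
    obtain ⟨x, rfl⟩ := ConjClasses.mk_surjective C
    have h1 : IsOfFinOrder (ι x) := isTorsionClass_mk.1 (hF1 _ hC.2)
    exact isTorsionClass_mk.2 ((hι.isOfFinOrder_iff).1 h1)
  · intro t ht hne
    rw [Set.Finite.mem_toFinset]
    refine ⟨⟨t, rfl, ht⟩, ?_⟩
    by_contra h1
    refine hne ?_
    have h2 : tau (ConjClasses.map ι (ConjClasses.mk t)) b = 0 := hF2 _ h1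
    rw [← h2, htau]
    refine (tsum_classes_single he ι _ (ConjClasses.mk t) rfl fun D hD hne' => (hne' ?_).elim).symm
    obtain ⟨y, rfl⟩ := ConjClasses.mk_surjective D
    have h3 : ConjClasses.mk (ι y) = ConjClasses.mk (ι t) := hD
    rw [ConjClasses.mk_eq_mk_iff_isConj] at h3 ⊢
    exact (hinj t y ht h3.symm).symm

section

variable {B : Type u} {Q : Type v} [Group B] [Group Q]

/-- The embedding of the wreath products over finite cyclic subgroups. -/
theorem exists_emb {z : Q} (hz : ¬ IsOfFinOrder z) {s : Q} (hs : IsOfFinOrder s) (k : ℕ) :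
    ∃ ι : RW (Fin k → B) (Subgroup.zpowers s) →* RW B Q, Function.Injective ι ∧
      ∀ a b, (∀ c, ¬ IsConj a (RW.incl c)) → IsConj (ι a) (ι b) → IsConj a b := by
  classical
  have hfz : Finite (Subgroup.zpowers s) := hs.finite_zpowers.to_subtype
  obtain ⟨en, hen⟩ : ∃ en : Fin k × Bool → ℕ, Function.Injective en :=
    ⟨_, Encodable.encode_injective⟩
  let r : Fin k × Bool → Q := st z en
  have hr : ∀ i j, r j * (r i)⁻¹ ∈ Subgroup.zpowers s → i = j := st_inj hz hs hen
  let ι' : RW (Fin k → B) (Subgroup.zpowers s) →* Hs B s := (ex hr).comp (dup B k _)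
  let ρ : Hs B s →* RW (Fin k → B) (Subgroup.zpowers s) := res s fun i => r (i, true)
  have hρ : ∀ a, ρ (ι' a) = a := fun a =>
    RW.ext' (fun y => funext fun j => ef_apply hr _ _ _) rfl
  have hfn : ∀ (a : RW (Fin k → B) (Subgroup.zpowers s)) (y : Subgroup.zpowers s)
      (j : Fin k × Bool), (ι' a).1.fn (y * r j) = a.fn y j.1 := fun a y j => ef_apply hr _ _ _
  have hfn' : ∀ (a : RW (Fin k → B) (Subgroup.zpowers s)) (x : Q),
      (∀ j, x * (r j)⁻¹ ∉ Subgroup.zpowers s) → (ι' a).1.fn x = 1 := fun a x hx =>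
    ef_apply' _ hx
  have hpt : ∀ a : RW (Fin k → B) (Subgroup.zpowers s), (ι' a).1.pt = (a.pt : Q) := fun a => rfl
  -- a charged site of `a` gives charged sites of its image
  have claim1 : ∀ (a : RW (Fin k → B) (Subgroup.zpowers s)) (y : Subgroup.zpowers s),
      ¬ Lt a y → ∃ i, ∀ ε, ¬ Lt (ι' a).1 (y * r (i, ε)) := by
    intro a y hy
    by_contra hcon
    push Not at hcon
    choose ε g hg1 hg2 using hcon
    refine hy ⟨fun v i => g i (v * r (i, ε i)), Set.toFinite _, fun v hv => funext fun i => ?_⟩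
    have h1 : (v : Q) * r (i, ε i) * (y * r (i, ε i))⁻¹ ∈ Subgroup.zpowers (ι' a).1.pt := by
      obtain ⟨n, hn⟩ := Subgroup.mem_zpowers_iff.1 hv
      refine Subgroup.mem_zpowers_iff.2 ⟨n, ?_⟩
      rw [hpt, ← Subgroup.coe_zpow, hn, Subgroup.coe_mul, Subgroup.coe_inv]
      group
    have h2 := hg2 i _ h1
    rw [hfn, hpt] at h2
    change g i (v * r (i, ε i)) * a.fn v i = g i (((a.pt : Q)⁻¹ * v) * r (i, ε i))
    rw [mul_assoc (a.pt : Q)⁻¹]
    exact h2
  have claim2 : ∀ (b : RW (Fin k → B) (Subgroup.zpowers s)) (x : Q), ¬ Lt (ι' b).1 x →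
      ∃ j, x * (r j)⁻¹ ∈ Subgroup.zpowers s := by
    intro b x hx
    by_contra hcon
    push Not at hcon
    refine hx (lt_of_triv _ _ fun z' hz' => hfn' _ _ fun j hj => hcon j ?_)
    have h1 : z' * x⁻¹ ∈ Subgroup.zpowers s :=
      (Subgroup.zpowers_le.2 (by rw [hpt]; exact b.pt.2)) hz'
    have h2 : x * (r j)⁻¹ = (z' * x⁻¹)⁻¹ * (z' * (r j)⁻¹) := by group
    rw [h2]
    exact mul_mem (inv_mem h1) hj
  have claim3 : ∀ a b : RW (Fin k → B) (Subgroup.zpowers s), ¬ IsConj a (RW.incl a.pt) →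
      IsConj (ι' a).1 (ι' b).1 → IsConj a b := by
    intro a b ha hab
    obtain ⟨y, hy⟩ : ∃ y, ¬ Lt a y := by
      by_contra hcon
      push Not at hcon
      exact ha (conj_of_lt a hcon)
    obtain ⟨i, hi⟩ := claim1 a y hy
    obtain ⟨C, hC⟩ := isConj_iff.1 hab
    have h1 : ∀ ε, ∃ j, C.pt * (y * r (i, ε)) * (r j)⁻¹ ∈ Subgroup.zpowers s := by
      intro ε
      refine claim2 b _ fun hlt => hi ε ?_
      have h2 := lt_conj _ C⁻¹ _ hlt
      rw [RW.inv_pt, inv_mul_cancel_left, ← hC] at h2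
      have h3 : C⁻¹ * (C * (ι' a).1 * C⁻¹) * C⁻¹⁻¹ = (ι' a).1 := by group
      rwa [h3] at h2
    obtain ⟨j₁, hj₁⟩ := h1 true
    obtain ⟨j₂, hj₂⟩ := h1 false
    have h4 : (C.pt * (y * r (i, true)) * (r j₁)⁻¹)⁻¹ * (C.pt * (y * r (i, false)) * (r j₂)⁻¹) ∈
        Subgroup.zpowers s := mul_mem (inv_mem hj₁) hj₂
    have h5 : (C.pt * (y * r (i, true)) * (r j₁)⁻¹)⁻¹ * (C.pt * (y * r (i, false)) * (r j₂)⁻¹) =
        z ^ (((3 ^ en j₁ : ℕ) : ℤ) + -((3 ^ en (i, true) : ℕ) : ℤ) +
          ((3 ^ en (i, false) : ℕ) : ℤ) + -((3 ^ en j₂ : ℕ) : ℤ)) := by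
      rw [zpow_add, zpow_add, zpow_add, zpow_neg, zpow_neg, ← st_eq, ← st_eq, ← st_eq, ← st_eq]
      change (C.pt * (y * st z en (i, true)) * (st z en j₁)⁻¹)⁻¹ *
        (C.pt * (y * st z en (i, false)) * (st z en j₂)⁻¹) = _
      group
    rw [h5] at h4
    have h6 := zpow_fin hz (fin_of_mem hs h4)
    have h7 : 3 ^ en j₁ + 3 ^ en (i, false) = 3 ^ en j₂ + 3 ^ en (i, true) := by omega
    have h8 : en (i, false) ≠ en (i, true) := fun h => by
      have := congrArg Prod.snd (hen h)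
      exact Bool.false_ne_true this
    obtain rfl : j₁ = (i, true) := hen (pow3 h8 h7)
    have h9 : C.pt ∈ Subgroup.zpowers s := by
      have h10 : C.pt = (C.pt * (y * r (i, true)) * (r (i, true))⁻¹) * (y : Q)⁻¹ := by group
      rw [h10]
      exact mul_mem hj₁ (inv_mem y.2)
    refine isConj_iff.2 ⟨ρ ⟨C, h9⟩, ?_⟩
    have h11 : (⟨C, h9⟩ : Hs B s) * ι' a * (⟨C, h9⟩ : Hs B s)⁻¹ = ι' b := Subtype.ext hC
    have h12 := congrArg ρ h11
    rwa [map_mul, map_mul, map_inv, hρ, hρ] at h12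
  refine ⟨(Hs B s).subtype.comp ι', ?_, fun a b ha hab => claim3 a b (ha _) hab⟩
  intro a b hab
  have h1 : ι' a = ι' b := Subtype.ext hab
  rw [← hρ a, h1, hρ]

end

section

variable {S : Type w} {B : Type u} {Q : Type v} [Group S] [Group B] [Group Q]

theorem convS {z : Q} (hz : ¬ IsOfFinOrder z) {s : Q} (hs : IsOfFinOrder s) (k : ℕ)
    (h : L1Bass (S × RW B Q)) : L1Bass (S × RW (Fin k → B) (Subgroup.zpowers s)) := by
  have hfz : Finite (Subgroup.zpowers s) := hs.finite_zpowers.to_subtype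
  obtain ⟨ι, hι1, hι2⟩ := exists_emb (B := B) hz hs k
  have hS : L1Bass S := l1Bass_retract (MonoidHom.inl S (RW B Q)) (MonoidHom.fst S (RW B Q))
    (fun _ => rfl) h
  refine l1Bass_of_inj' ((MonoidHom.id S).prodMap ι) ?_
    (inclS (S := S) (B := Fin k → B) (Q := Subgroup.zpowers s))
    projS (fun _ => rfl) (H788.bass_prod_finite.2 hS) ?_ h
  · intro a b hab
    have h1 : ((MonoidHom.id S).prodMap ι a).1 = ((MonoidHom.id S).prodMap ι b).1 := by rw [hab]
    have h2 : ((MonoidHom.id S).prodMap ι a).2 = ((MonoidHom.id S).prodMap ι b).2 := by rw [hab]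
    exact Prod.ext h1 (hι1 h2)
  · intro a b ha hab
    obtain ⟨c, hc⟩ := isConj_iff.1 hab
    have h1 : IsConj a.1 b.1 := isConj_iff.2 ⟨c.1, congrArg Prod.fst hc⟩
    have h2 : IsConj (ι a.2) (ι b.2) := isConj_iff.2 ⟨c.2, congrArg Prod.snd hc⟩
    have h3 : IsConj a.2 b.2 := by
      refine hι2 a.2 b.2 (fun d hd => ha (a.1, d) ?_) h2
      obtain ⟨x, hx⟩ := isConj_iff.1 hd
      refine isConj_iff.2 ⟨(1, x), Prod.ext ?_ hx⟩
      change 1 * a.1 * 1⁻¹ = a.1
      group
    obtain ⟨x, hx⟩ := isConj_iff.1 h1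
    obtain ⟨y, hy⟩ := isConj_iff.1 h3
    exact isConj_iff.2 ⟨(x, y), Prod.ext hx hy⟩

end

/-- **Wreath products with a spectator.** -/
theorem wreathS {S : Type w} {B : Type u} {Q : Type v} [Group S] [Group B] [Group Q]
    (hinf : ∃ z : Q, ¬ IsOfFinOrder z)
    (hfin : {s : Q | IsOfFinOrder s}.Finite ∨ ∀ b : B, IsOfFinOrder b → b = 1) :
    L1Bass (S × RW B Q) ↔ L1Bass (S × Q) ∧
      ∀ s : Q, IsOfFinOrder s → ∀ k, L1Bass (S × RW (Fin k → B) (Subgroup.zpowers s)) := by
  constructor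
  · intro h
    obtain ⟨z, hz⟩ := hinf
    exact ⟨l1Bass_retract inclS projS (fun _ => rfl) h, fun s hs k => convS hz hs k h⟩
  · rintro ⟨hQ, h⟩
    exact wreath_ofS hfin hQ fun s hs => l1Bass_Ss s (h s hs)

/-- Torsion free top groups, with a spectator. -/
theorem wreathS_torsionFree {S : Type w} {B : Type u} {Q : Type v} [Group S] [Group B] [Group Q]
    [Nontrivial Q] (htf : ∀ s : Q, IsOfFinOrder s → s = 1) :
    L1Bass (S × RW B Q) ↔ L1Bass (S × Q) ∧ ∀ k, L1Bass (S × (Fin k → B)) := by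
  have hsub : Subsingleton (Subgroup.zpowers (1 : Q)) := by
    rw [Subgroup.zpowers_one_eq_bot]
    infer_instance
  obtain ⟨z, hz⟩ := exists_ne (1 : Q)
  rw [wreathS ⟨z, fun h => hz (htf z h)⟩ (Or.inl ((Set.finite_singleton (1 : Q)).subset
    fun s hs => htf s hs))]
  have hT : ∀ (D : Type u) [Group D], L1Bass (S × RW D (Subgroup.zpowers (1 : Q))) ↔
      L1Bass (S × D) := by
    intro D _
    let π : RW D (Subgroup.zpowers (1 : Q)) →* D :=
      { toFun := fun a => a.fn 1
        map_one' := rfl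
        map_mul' := fun a b => by
          rw [RW.mul_fn]
          congr 2
          exact Subsingleton.elim _ _ }
    let ι : D →* RW D (Subgroup.zpowers (1 : Q)) :=
      { toFun := fun b => ⟨fun _ => b, 1, Set.toFinite _⟩
        map_one' := rfl
        map_mul' := fun a b => RW.ext' (fun _ => rfl) (Subsingleton.elim _ _) }
    have h1 : ∀ a, ι (π a) = a := fun a => RW.ext' (fun x => by
      change a.fn 1 = a.fn x
      congr 1
      exact Subsingleton.elim _ _) (Subsingleton.elim _ _)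
    exact ⟨l1Bass_retract ((MonoidHom.id S).prodMap ι) ((MonoidHom.id S).prodMap π)
      (fun _ => rfl), l1Bass_retract ((MonoidHom.id S).prodMap π) ((MonoidHom.id S).prodMap ι)
      (fun a => Prod.ext rfl (h1 a.2))⟩
  refine and_congr_right fun _ => ⟨fun h k => ?_, fun h s hs k => ?_⟩
  · exact (hT _).1 (h 1 IsOfFinOrder.one k)
  · obtain rfl := htf s hs
    exact (hT _).2 (h k)

end Vale.Agent.P184.H977
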