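import Vale.Agent.P184.H977.W4
import Vale.Agent.P184.H788.TrF

/-!
# P184: wreath products with arbitrary base, hypothesis free
-/

namespace Vale.Agent.P184.H977

open Vale.Agent.P184 Vale.Agent.P184.H290

universe u v

/-- The traces vanish at the elements of `B ≀ Q` which map to an element of infinite order of `Q`
and are not conjugate to an element of `Q`. -/
theorem rw_vanish {B : Type u} {Q : Type v} [Group B] [Group Q] (t : RW B Q)
    (ht : ¬ IsOfFinOrder t.pt) (hc : ∀ w : Q, ¬ IsConj t (RW.incl w)) : VanishesAt t :=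
  vanish_inf H788.rowP t ht hc

/-- Wreath products with torsion free top group. -/
theorem rw_torsionFree {B : Type u} {Q : Type v} [Group B] [Group Q] [Nontrivial Q]
    (htf : ∀ s : Q, IsOfFinOrder s → s = 1) :
    L1Bass (RW B Q) ↔ L1Bass Q ∧ ∀ k, L1Bass (Fin k → B) :=
  wreath_torsionFree H788.rowP htf

/-- Wreath products, sufficient condition. -/
theorem rw_of {B : Type u} {Q : Type v} [Group B] [Group Q]
    (hfin : {s : Q | IsOfFinOrder s}.Finite ∨ ∀ b : B, IsOfFinOrder b → b = 1)
    (hQ : L1Bass Q)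
    (h : ∀ s : Q, IsOfFinOrder s → ∀ k, L1Bass (RW (Fin k → B) (Subgroup.zpowers s))) :
    L1Bass (RW B Q) :=
  wreath_of H788.rowP hfin hQ fun s hs => l1Bass_Hs s (h s hs)

/-- Wreath products, with an element of infinite order in the top group. -/
theorem rw_iff {B : Type u} {Q : Type v} [Group B] [Group Q] (hinf : ∃ z : Q, ¬ IsOfFinOrder z)
    (hfin : {s : Q | IsOfFinOrder s}.Finite ∨ ∀ b : B, IsOfFinOrder b → b = 1) :
    L1Bass (RW B Q) ↔ L1Bass Q ∧
      ∀ s : Q, IsOfFinOrder s → ∀ k, L1Bass (RW (Fin k → B) (Subgroup.zpowers s)) :=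
  wreath_iff H788.rowP hinf hfin

end Vale.Agent.P184.H977
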